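import Vale.Agent.P317RAM.CodeM
import Vale.Agent.P317R.MainProb
import Vale.Agent.P328RAM.Bridge

/-!
# From the native algorithm and the program to the statement
-/

namespace Vale.Agent.P317RAM

open Vale.Agent.P328RAM (Mem Cmd bits coin iterBind)
open Vale.Agent.P317R
open scoped ENNReal

variable {n : ℕ}

open Classical in
/-- the law of the output of the program -/
noncomputable def outLaw (k1 k2 k3 k4 a b : ℕ) (M₁ M₂ : Matroid (Fin n)) : PMF (ℤ × ℤ) :=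
  if n = 0 then PMF.pure (1, 1)
  else if rkM M₁ Finset.univ = rkM M₂ Finset.univ then
    mainK (instM M₁ M₂) (parX k1 k2 k3 k4 n (baseX n a b))
  else PMF.pure (0, 1)

/-- the program is correct and polynomial -/
def MainOK (k1 k2 k3 k4 : ℕ) (c : Cmd) : Prop :=
  COK c ∧ ∃ C : ℕ, ∀ (n a b : ℕ) (M₁ M₂ : Matroid (Fin n)),
    (c.run (withTab (orcM M₁ M₂) (input n a b), 0)).map (fun s => (s.1 3 0 0, s.1 3 1 0)) =
      outLaw k1 k2 k3 k4 a b M₁ M₂ ∧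
    ∀ s ∈ (c.run (withTab (orcM M₁ M₂) (input n a b), 0)).support, s.2 ≤ C * baseX n a b ^ C

/-- the native algorithm is accurate -/
def NativeOK (k1 k2 k3 k4 : ℕ) : Prop :=
  ∀ (n a b : ℕ) (I : Inst n) (ε δ : ℝ), I.Ok → 0 < n → 0 < ε → ε ≤ 1 → 0 < δ → 1 / ε ≤ a →
    1 / δ ≤ b →
    (mainK I (parX k1 k2 k3 k4 n (baseX n a b))).toOuterMeasure
      {z | ¬ Acc ((cbs I).card : ℝ) ε z} ≤ ENNReal.ofReal δ

/-- the good event of the pair of integers -/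
def goodE (ε Z : ℝ) : Set (ℤ × ℤ) :=
  {z | (1 - ε) * Z ≤ (z.1 : ℝ) / (z.2 : ℝ) ∧ (z.1 : ℝ) / (z.2 : ℝ) ≤ (1 + ε) * Z}

theorem outLaw_good {k1 k2 k3 k4 : ℕ} (hN : NativeOK k1 k2 k3 k4) (M₁ M₂ : Matroid (Fin n))
    {a b : ℕ} {ε δ : ℝ} (hε0 : 0 < ε) (hε1 : ε ≤ 1) (hδ0 : 0 < δ) (ha : 1 / ε ≤ a)
    (hb : 1 / δ ≤ b) :
    ENNReal.ofReal (1 - δ) ≤
      (outLaw k1 k2 k3 k4 a b M₁ M₂).toOuterMeasure (goodE ε (numCommonBases M₁ M₂)) := by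
  classical
  have h1δ : ENNReal.ofReal (1 - δ) ≤ 1 := by
    rw [← ENNReal.ofReal_one]
    exact ENNReal.ofReal_le_ofReal (by linarith)
  have hpure : ∀ (z : ℤ × ℤ) (E : Set (ℤ × ℤ)), z ∈ E →
      (PMF.pure z : PMF (ℤ × ℤ)).toOuterMeasure E = 1 := by
    intro z E hz
    rw [PMF.toOuterMeasure_pure_apply, if_pos hz]
  unfold outLaw
  rcases Nat.eq_zero_or_pos n with h0 | h0
  · subst h0
    rw [if_pos rfl, hpure]
    · exact h1δ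
    · show (1 - ε) * (numCommonBases M₁ M₂ : ℝ) ≤ ((1 : ℤ) : ℝ) / ((1 : ℤ) : ℝ) ∧
        ((1 : ℤ) : ℝ) / ((1 : ℤ) : ℝ) ≤ (1 + ε) * (numCommonBases M₁ M₂ : ℝ)
      rw [numCommonBases_zero]
      norm_num
      linarith
  · rw [if_neg (by omega)]
    by_cases hr : rkM M₁ Finset.univ = rkM M₂ Finset.univ
    · rw [if_pos hr]
      have hr' : M₁.eRank = M₂.eRank := (eRank_eq_iff M₁ M₂).2 hr
      refine P328RAM.prob_ge _ hδ0.le ?_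
        (hN n a b (instM M₁ M₂) ε δ (instM_ok hr') h0 hε0 hε1 hδ0 ha hb)
      intro z hz hacc
      apply hz
      rw [card_cbs hr', ← numCommonBases_eq] at hacc
      exact ⟨hacc.2.1, hacc.2.2⟩
    · rw [if_neg hr, hpure]
      · exact h1δ
      · show (1 - ε) * (numCommonBases M₁ M₂ : ℝ) ≤ ((0 : ℤ) : ℝ) / ((1 : ℤ) : ℝ) ∧
          ((0 : ℤ) : ℝ) / ((1 : ℤ) : ℝ) ≤ (1 + ε) * (numCommonBases M₁ M₂ : ℝ)
        rw [numCommonBases_ne (fun h => hr ((eRank_eq_iff M₁ M₂).1 h))]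
        norm_num

theorem base_le (n : ℕ) {ε δ : ℝ} (hε0 : 0 < ε) (hε1 : ε < 1) (hδ0 : 0 < δ) (hδ1 : δ < 1) :
    (baseX n ⌈1 / ε⌉₊ ⌈1 / δ⌉₊ : ℝ) ≤ 12 * (n + 1 / ε + Real.log (1 / δ)) := by
  unfold baseX
  push_cast
  have h1 : ((⌈1 / ε⌉₊ : ℕ) : ℝ) ≤ 1 / ε + 1 := (Nat.ceil_lt_add_one (by positivity)).le
  have h2 : ((⌈1 / δ⌉₊ : ℕ) : ℝ) ≤ 1 / δ + 1 := (Nat.ceil_lt_add_one (by positivity)).le
  have h3 : 1 < 1 / ε := by rw [lt_div_iff₀ hε0]; linarith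
  have h4 : 1 < 1 / δ := by rw [lt_div_iff₀ hδ0]; linarith
  have h5 : ((⌈1 / δ⌉₊ : ℕ) : ℝ) ≤ 2 * (1 / δ) := by linarith
  have h6 := P328RAM.size_le_logb h5 (by linarith)
  have h7 : Real.logb 2 (2 * (1 / δ)) = 1 + Real.logb 2 (1 / δ) := by
    rw [Real.logb_mul (by norm_num) (by positivity), Real.logb_self_eq_one (by norm_num)]
  have h8 : Real.logb 2 (1 / δ) ≤ 2 * Real.log (1 / δ) := by
    unfold Real.logb
    have h9 : (1 / 2 : ℝ) ≤ Real.log 2 := by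
      have := Real.log_two_gt_d9
      linarith
    have h10 : 0 < Real.log (1 / δ) := Real.log_pos h4
    rw [div_le_iff₀ (by linarith)]
    nlinarith
  have h11 : 0 < Real.log (1 / δ) := Real.log_pos h4
  have h12 : (0 : ℝ) ≤ n := Nat.cast_nonneg n
  rw [h7] at h6
  linarith

theorem time_le {K X t : ℕ} {Y : ℝ} (hY1 : 1 ≤ Y) (hXY : (X : ℝ) ≤ 12 * Y) (h : t ≤ K * X ^ K) :
    (t : ℝ) ≤ ((K * 12 ^ K + K : ℕ) : ℝ) * Y ^ (K * 12 ^ K + K) := by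
  have h3 : (t : ℝ) ≤ K * (X : ℝ) ^ K := by exact_mod_cast h
  have h5 : Y ^ K ≤ Y ^ (K * 12 ^ K + K) := pow_le_pow_right₀ hY1 (by omega)
  have h6 : (X : ℝ) ^ K ≤ (12 * Y) ^ K := pow_le_pow_left₀ (Nat.cast_nonneg _) hXY K
  have hK : (0 : ℝ) ≤ K := Nat.cast_nonneg K
  have h7 : (t : ℝ) ≤ K * 12 ^ K * Y ^ K := by
    calc (t : ℝ) ≤ K * (X : ℝ) ^ K := h3
      _ ≤ K * (12 * Y) ^ K := mul_le_mul_of_nonneg_left h6 hK
      _ = K * 12 ^ K * Y ^ K := by rw [mul_pow]; ring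
  have h8 : (0 : ℝ) ≤ (K * 12 ^ K : ℝ) := by positivity
  have h9 : (0 : ℝ) ≤ Y ^ K := by positivity
  calc (t : ℝ) ≤ K * 12 ^ K * Y ^ K := h7
    _ ≤ K * 12 ^ K * Y ^ (K * 12 ^ K + K) := mul_le_mul_of_nonneg_left h5 h8
    _ ≤ ((K * 12 ^ K + K : ℕ) : ℝ) * Y ^ (K * 12 ^ K + K) := by
      refine mul_le_mul_of_nonneg_right ?_ (by positivity)
      push_cast
      linarith

theorem fpras_of {k1 k2 k3 k4 : ℕ} (hN : NativeOK k1 k2 k3 k4) {c : Cmd}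
    (hc : MainOK k1 k2 k3 k4 c) : IsFPRAS (toOC c) := by
  obtain ⟨hcok, K, hK⟩ := hc
  refine ⟨K * 12 ^ K + K, ?_⟩
  intro n M₁ M₂ ε δ hε0 hε1 hδ0 hδ1
  obtain ⟨hlaw, htime⟩ := hK n ⌈1 / ε⌉₊ ⌈1 / δ⌉₊ M₁ M₂
  have htab : ∀ m : Mem, tabS (oracles M₁ M₂) (m, 0) = (withTab (orcM M₁ M₂) m, 0) := by
    intro m
    unfold tabS
    rw [withTab_oracles]
  have h3 : 1 < 1 / ε := by rw [lt_div_iff₀ hε0]; linarith
  have h4 : 1 < 1 / δ := by rw [lt_div_iff₀ hδ0]; linarith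
  have h5 : 0 < Real.log (1 / δ) := Real.log_pos h4
  have h6 : (0 : ℝ) ≤ n := Nat.cast_nonneg n
  refine ⟨?_, ?_⟩
  · intro s hs
    have hs' := support_toOC (oracles M₁ M₂) hcok hs
    rw [htab] at hs'
    have ht := htime _ hs'
    exact time_le (by linarith) (base_le n hε0 hε1 hδ0 hδ1) ht
  · have hg := outLaw_good hN M₁ M₂ hε0 hε1.le hδ0 (Nat.le_ceil (1 / ε)) (Nat.le_ceil (1 / δ))
    rw [← hlaw, PMF.toOuterMeasure_map_apply, ← htab, ← measure_toOC _ hcok] at hg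
    refine hg.trans (le_of_eq ?_)
    congr 1

end Vale.Agent.P317RAM
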