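import Vale.Agent.P317RAM.Weight
import Vale.Agent.P317R.MatInst

/-!
# The greedy algorithm computes the rank in a matroid
-/

namespace Vale.Agent.P317RAM

open Vale.Agent.P317R

variable {n : ℕ}

/-- the independent sets of a matroid on `Fin n`, as sets of natural numbers -/
def indM (M : Matroid (Fin n)) (S : Finset ℕ) : Prop := M.Indep {e : Fin n | (e : ℕ) ∈ S}

theorem indM_gset (M : Matroid (Fin n)) (mem : ℕ → Prop) (t : ℕ) :
    indM M (gset (indM M) mem t) := by
  induction t with
  | zero =>
    unfold indM gset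
    simp
  | succ t ih =>
    rw [gset]
    split_ifs with h
    · exact h.2
    · exact ih

theorem gset_mono (Ind : Finset ℕ → Prop) (mem : ℕ → Prop) {s t : ℕ} (h : s ≤ t) :
    gset Ind mem s ⊆ gset Ind mem t := by
  induction t, h using Nat.le_induction with
  | base => exact subset_rfl
  | succ t _ ih =>
    refine ih.trans ?_
    rw [gset]
    split_ifs
    · exact Finset.subset_insert _ _
    · exact subset_rfl

/-- the greedy set is a basis -/
theorem gset_basis (M : Matroid (Fin n)) (A : Finset (Fin n)) :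
    M.IsBasis' {e : Fin n | (e : ℕ) ∈ gset (indM M) (memN A) n} (A : Set (Fin n)) := by
  have hsub : {e : Fin n | (e : ℕ) ∈ gset (indM M) (memN A) n} ⊆ (A : Set (Fin n)) := by
    intro e he
    obtain ⟨h1, h2⟩ := gset_mem _ _ _ _ he
    exact h2
  refine ⟨⟨indM_gset M (memN A) n, hsub⟩, ?_⟩
  rintro J ⟨hJ, hJA⟩ hle e he
  by_contra hne
  have hmem : memN A e := ⟨e.2, hJA he⟩
  have hstep : (e : ℕ) ∉ gset (indM M) (memN A) ((e : ℕ) + 1) := fun h =>
    hne (gset_mono _ _ (Nat.succ_le_of_lt e.2) h)
  rw [gset] at hstep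
  split_ifs at hstep with h
  · exact hstep (Finset.mem_insert_self _ _)
  · refine h ⟨hmem, hJ.subset ?_⟩
    intro x hx
    rw [Set.mem_ofPred_eq, Finset.mem_insert] at hx
    rcases hx with hx | hx
    · rw [Fin.ext hx]
      exact he
    · exact hle (gset_mono _ _ e.2.le hx)

/-- the greedy algorithm computes the rank -/
theorem rkN_eq (M : Matroid (Fin n)) (A : Finset (Fin n)) : rkN (indM M) A = rkM M A := by
  have h := (gset_basis M A).encard_eq_eRk
  rw [← coe_rkM] at h
  unfold rkN
  have h1 : ({e : Fin n | (e : ℕ) ∈ gset (indM M) (memN A) n}).encard =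
      ((gset (indM M) (memN A) n).card : ℕ∞) := by
    rw [← Set.encard_coe_eq_coe_finsetCard]
    have h2 : ((gset (indM M) (memN A) n : Finset ℕ) : Set ℕ) =
        (fun e : Fin n => (e : ℕ)) '' {e : Fin n | (e : ℕ) ∈ gset (indM M) (memN A) n} := by
      ext x
      simp only [Finset.mem_coe, Set.mem_image, Set.mem_ofPred_eq]
      constructor
      · intro hx
        have hxn : x < n := Finset.mem_range.1 (gset_sub _ _ _ hx)
        exact ⟨⟨x, hxn⟩, hx, rfl⟩
      · rintro ⟨e, he, rfl⟩
        exact he
    rw [h2, Function.Injective.encard_image Fin.val_injective]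
  rw [h1] at h
  exact_mod_cast h

theorem instOK_instM {M₁ M₂ : Matroid (Fin n)} :
    InstOK (instM M₁ M₂) (indM M₁) (indM M₂) where
  r1 := by
    funext A
    exact (rkN_eq M₁ A).symm
  r2 := by
    funext A
    exact (rkN_eq M₂ A).symm
  rle := by
    intro A
    rw [rkN_eq]
    exact (isRk_rkM M₂).mono _ _ (Finset.subset_univ _)
  rn := by
    show rkM M₂ Finset.univ ≤ n
    rw [← rkN_eq]
    exact rkN_le _ _

end Vale.Agent.P317RAM
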