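import Vale.Agent.P317RAM.OSim
import Vale.Agent.P317RAM.RankM

/-!
# The independence oracles of two matroids
-/

namespace Vale.Agent.P317RAM

open Vale.Agent.P328RAM
open Vale.Agent.P317R

variable {n : ℕ}

theorem testBit_code (S : Finset ℕ) (e : ℕ) : (code S).testBit e = true ↔ e ∈ S := by
  rw [← Nat.mem_bitIndices, ← List.mem_toFinset]
  unfold code
  rw [Finset.toFinset_bitIndices_sum_two_pow]

theorem indM_iff (M : Matroid (Fin n)) (S : Finset ℕ) :
    indM M S ↔ M.Indep {e : Fin n | (code S).testBit e = true} := by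
  unfold indM
  simp only [testBit_code]

open Classical in
/-- the independence oracle of a matroid on `Fin n`: the question `x` codes the set of all `e`
such that the bit number `e` of `x` is one -/
noncomputable def indO (M : Matroid (Fin n)) (x : ℤ) : ℤ :=
  if M.Indep {e : Fin n | x.toNat.testBit e = true} then 1 else 0

/-- the oracle number `1` is the one of the first matroid, the others are those of the second -/
noncomputable def orcM (M₁ M₂ : Matroid (Fin n)) : Oracle := fun k =>
  if k = 1 then indO M₁ else indO M₂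

theorem indO_code (M : Matroid (Fin n)) (S : Finset ℕ) :
    indO M (code S) = 1 ∧ indM M S ∨ indO M (code S) = 0 ∧ ¬ indM M S := by
  unfold indO
  rw [Int.toNat_natCast, indM_iff]
  split_ifs with h
  · exact Or.inl ⟨rfl, h⟩
  · exact Or.inr ⟨rfl, h⟩

theorem orac_one (M₁ M₂ : Matroid (Fin n)) (m : Mem) :
    Orac n 1 (indM M₁) (withTab (orcM M₁ M₂) m) := by
  intro S _
  rw [withTab_orc _ _ (Or.inl rfl)]
  exact indO_code M₁ S

theorem orac_two (M₁ M₂ : Matroid (Fin n)) (m : Mem) :
    Orac n 2 (indM M₂) (withTab (orcM M₁ M₂) m) := by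
  intro S _
  rw [withTab_orc _ _ (Or.inr rfl)]
  exact indO_code M₂ S

theorem abs_indO (M : Matroid (Fin n)) (x : ℤ) : |indO M x| ≤ 1 := by
  unfold indO
  split_ifs <;> norm_num

theorem abs_orcM (M₁ M₂ : Matroid (Fin n)) (k : ℕ) (x : ℤ) : |orcM M₁ M₂ k x| ≤ 1 := by
  unfold orcM
  split_ifs <;> exact abs_indO _ _

/-- the memory with tables is bounded -/
theorem bdd_withTab {W : ℕ} (hW : 1 ≤ W) {m : Mem} (hm : Bdd W m) (M₁ M₂ : Matroid (Fin n)) :
    Bdd W (withTab (orcM M₁ M₂) m) := by
  have hW' : (1 : ℤ) ≤ W := by exact_mod_cast hW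
  intro a i j
  unfold withTab
  split_ifs
  · exact (abs_orcM _ _ _ _).trans hW'
  · rw [abs_zero]
    linarith
  · exact hm a i j

end Vale.Agent.P317RAM
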