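import Vale.Agent.P317RAM.Stmt
import Vale.Agent.P317RAM.Orc
import Vale.Agent.P317R.MatInst
import Vale.Agent.P317R.ParDef

/-!
# The oracles, the instance and the number of common bases
-/

namespace Vale.Agent.P317RAM

open Vale.Agent.P328RAM (Mem)
open Vale.Agent.P317R (instM rkM nCB coe_rkM)

variable {n : ℕ}

open Classical in
/-- the tables of the oracles -/
theorem withTab_oracles (M₁ M₂ : Matroid (Fin n)) (m : Mem) :
    withTab (oracles M₁ M₂) m = withTab (orcM M₁ M₂) m := by
  funext a i j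
  unfold withTab
  by_cases h : orc a
  · rw [if_pos h, if_pos h]
    congr 1
    rcases h with h | h
    · subst h
      unfold oracles orcM indO codedSet
      simp only [if_true]
    · subst h
      unfold oracles orcM indO codedSet
      simp only [if_true, show ¬ ((2 : ℕ) = 1) by decide, if_false]
  · rw [if_neg h, if_neg h]

/-! ### the number of common bases -/

theorem numCommonBases_eq (M₁ M₂ : Matroid (Fin n)) : numCommonBases M₁ M₂ = nCB M₁ M₂ := by
  unfold numCommonBases nCB
  rw [← Set.ncard_image_of_injective _ (Finset.coe_injective (α := Fin n))]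
  congr 1
  ext B
  simp only [Set.mem_image, Set.mem_ofPred_eq]
  constructor
  · rintro h
    refine ⟨(Set.toFinite B).toFinset, ?_, ?_⟩
    · rw [Set.Finite.coe_toFinset]
      exact h
    · exact Set.Finite.coe_toFinset _
  · rintro ⟨A, h, rfl⟩
    exact h

theorem numCommonBases_zero (M₁ M₂ : Matroid (Fin 0)) : numCommonBases M₁ M₂ = 1 := by
  unfold numCommonBases
  have h : {B : Set (Fin 0) | M₁.IsBase B ∧ M₂.IsBase B} = {∅} := by
    ext B
    simp only [Set.mem_ofPred_eq, Set.mem_singleton_iff]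
    constructor
    · intro _
      exact Set.eq_empty_of_isEmpty B
    · rintro rfl
      obtain ⟨B1, h1⟩ := M₁.exists_isBase
      obtain ⟨B2, h2⟩ := M₂.exists_isBase
      rw [Set.eq_empty_of_isEmpty B1] at h1
      rw [Set.eq_empty_of_isEmpty B2] at h2
      exact ⟨h1, h2⟩
  rw [h, Set.ncard_singleton]

theorem numCommonBases_ne {M₁ M₂ : Matroid (Fin n)} (h : M₁.eRank ≠ M₂.eRank) :
    numCommonBases M₁ M₂ = 0 := by
  unfold numCommonBases
  have h0 : {B : Set (Fin n) | M₁.IsBase B ∧ M₂.IsBase B} = ∅ := by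
    ext B
    simp only [Set.mem_ofPred_eq, Set.mem_empty_iff_false, iff_false]
    rintro ⟨h1, h2⟩
    exact h (h1.encard_eq_eRank.symm.trans h2.encard_eq_eRank)
  rw [h0, Set.ncard_empty]

theorem eRank_eq_iff (M₁ M₂ : Matroid (Fin n)) :
    M₁.eRank = M₂.eRank ↔ rkM M₁ Finset.univ = rkM M₂ Finset.univ := by
  have h1 : (rkM M₁ Finset.univ : ℕ∞) = M₁.eRank := by
    rw [coe_rkM, Finset.coe_univ, M₁.eRk_univ_eq]
  have h2 : (rkM M₂ Finset.univ : ℕ∞) = M₂.eRank := by
    rw [coe_rkM, Finset.coe_univ, M₂.eRk_univ_eq]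
  rw [← h1, ← h2]
  exact_mod_cast Iff.rfl

end Vale.Agent.P317RAM
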