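import Vale.Agent.P317RAM.LearnC

/-!
# The final estimation
-/

namespace Vale.Agent.P317RAM

open Vale.Agent.P328RAM PMF
open Vale.Agent.P317R (St A1 A2 Perf Cls IsSt npair cl null Wt Inst Par Tb exq stepK stepJ randT
  passK obsK cntK updT learnK estS estP estK outV mainK)

variable {W Λ n : ℕ}

/-- the counters of the estimation -/
def obsH (M : Mem) : ℕ → ℕ := fun l => (M 9 (l : ℤ) 0).toNat

/-- the counters are nonnegative and at most `b`, or `b + 1` below `l` -/
def HLe (b l : ℕ) (M : Mem) : Prop :=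
  ∀ k : ℕ, 0 ≤ M 9 (k : ℤ) 0 ∧ M 9 (k : ℤ) 0 ≤ b + if k < l then 1 else 0

theorem HLe.congr {b l : ℕ} {M M' : Mem} (h : HLe b l M) (hM : M' 9 = M 9) : HLe b l M' := by
  unfold HLe
  rw [hM]
  exact h

/-- the powers of `4 n - 1` and `4 n`, the random number, the test -/
def hitC : Cmd :=
  .seq (classC 5) (.seq (nullC 5)
  (.seq (.fold 30 13 (.v 23) (.lit 1) (.mul (.v 30) (.sub (.mul (.lit 4) (.v 0)) (.lit 1))))
  (.seq (.fold 31 13 (.v 23) (.lit 1) (.mul (.v 31) (.mul (.lit 4) (.v 0))))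
  (.seq (.rand 46 47 (.v 35))
  (.when (.sub (.mul (.v 37) (.v 30)) (.mul (.v 46) (.v 31)))
    (.set 9 (.v 44) (.lit 0) (.add (.get 9 (.v 44) (.lit 0)) (.lit 1))))))))

/-- the arrays changed by `hitC` -/
def hitL : List ℕ := [9, 11, 13, 20, 21, 22, 23, 24, 25, 26, 28, 30, 31, 46, 47]

theorem unifZ_eq (b : ℕ) : unifZ b = (unif b).map fun k : ℕ => (k : ℤ) := by
  rw [← unif_map_cast]; exact PMF.map_id _

theorem hitC_sim {I : Inst n} {I1 I2 : Finset ℕ → Prop} {p : Par} {M : Mem} {l b : ℕ}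
    (hI : InstOK I I1 I2) (hC : Cst I I1 I2 p M) (hz : Z01 n 5 M) (h44 : M 44 0 0 = l)
    (hb : HLe b l M) (hbW : b + 1 ≤ W) (hG : BndG W Λ n p) :
    Sim W Λ hitC M (fun M' => (obs n 5 M', obsH M'))
      ((unif p.K).map fun U => (obs n 5 M, if U * (4 * n) ^ null I (obs n 5 M) <
        2 ^ p.K * (4 * n - 1) ^ null I (obs n 5 M) then
        Function.update (obsH M) l (obsH M l + 1) else obsH M))
      (fun M' => Z01 n 5 M' ∧ HLe b (l + 1) M' ∧ Same hitL M M') := by
  set B := obs n 5 M with hB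
  have hnle := null_le hI B
  have hn1 := hG.n1
  have hL1 := hG.L1
  -- size bounds
  have hpow : (4 * n) ^ (null I B) ≤ (4 * n) ^ (3 * p.L * n) := by
    refine Nat.pow_le_pow_right (by omega) ?_
    calc null I B ≤ 2 * n := hnle
      _ ≤ 3 * 1 * n := by omega
      _ ≤ 3 * p.L * n := by gcongr
  have hbigK : 2 ^ p.K * (4 * n) ^ (null I B) ≤ W := by
    refine le_trans ?_ hG.big
    refine Nat.mul_le_mul_left _ (hpow.trans (Nat.le_mul_of_pos_right _ (by positivity)))
  have hbig1 : (4 * n) ^ (null I B) ≤ W := le_trans (Nat.le_mul_of_pos_left _ (by positivity)) hbigK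
  have h2K : 2 ^ p.K ≤ W := le_trans (Nat.le_mul_of_pos_right _ (by positivity)) hbigK
  have h2nW : 2 * n ≤ W := le_trans (Nat.le_add_left _ _) hG.two
  -- class
  refine Det.seqSim (R := fun M' => ClassOut B M' ∧ Same classL M M')
    (classC_det (by decide) hC.n0 hz hG.nn hG.nΛ) ?_
  rintro M1 ⟨a1, a2⟩
  have hMa1 : M1 5 = M 5 := a2 5 (by decide)
  have hobs1 : obs n 5 M1 = B := obs_congr hMa1
  have hz1 : Z01 n 5 M1 := Z01_congr hMa1 hz
  have hC1 := hC.same a2 (by decide)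
  -- null
  refine Det.seqSim (R := fun M' => M' 23 0 0 = (null I B : ℤ) ∧
    Same (classL ++ nullL) M M') ?_ ?_
  · have h22' : M1 22 0 0 = ((A1 (obs n 5 M1)).card : ℤ) := by rw [hobs1]; exact a1.2.2.2.2
    refine (nullC_det (by decide) hI hC1.toEnv0 hz1 h22' hG.two hG.nΛ).mono ?_
    rintro M' ⟨p1, p2⟩
    rw [hobs1] at p1
    exact ⟨p1, (a2.mono (by decide)).trans (p2.mono (by decide))⟩
  rintro M2 ⟨b1', b2⟩
  have hC2 := hC.same b2 (by decide)
  -- first power
  refine Det.seqSim (R := fun M' => M' 23 0 0 = (null I B : ℤ) ∧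
      M' 30 0 0 = (((4 * n - 1) ^ (null I B) : ℕ) : ℤ) ∧
      Same (classL ++ nullL ++ [30]) M M') ?_ ?_
  · refine (Det.pow (null I B) (((4 * n - 1 : ℕ)) : ℤ) (by norm_num)
      (hnle.trans hG.nullΛ) (hnle.trans h2nW) ?_ ?_ ?_).mono ?_
    · intro j hj
      rw [abs_of_nonneg (by positivity)]
      have h1 : (4 * n - 1) ^ j ≤ (4 * n) ^ (null I B) :=
        (Nat.pow_le_pow_left (Nat.sub_le _ _) _).trans (Nat.pow_le_pow_right (by omega) hj)
      exact_mod_cast h1.trans hbig1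
    · intro M' hM'
      have h1 : M' 23 = M2 23 := hM' 23 (by simp)
      simp [Expr.val, h1, b1']
    · intro M' hM'
      have h1 : M' 0 = M2 0 := hM' 0 (by simp)
      simp only [Expr.val, h1, hC2.n0]
      omega
    · rintro M' ⟨p1, p2⟩
      refine ⟨by rw [p2 23 (by simp)]; exact b1', ?_, (b2.mono (by decide)).trans
        (p2.mono (by decide))⟩
      rw [p1]; push_cast; rfl
  rintro M3 ⟨c1, c2, c3⟩
  have hC3 := hC.same c3 (by decide)
  -- second power
  refine Det.seqSim (R := fun M' => M' 30 0 0 = (((4 * n - 1) ^ (null I B) : ℕ) : ℤ) ∧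
      M' 31 0 0 = (((4 * n) ^ (null I B) : ℕ) : ℤ) ∧
      Same (classL ++ nullL ++ [30, 31]) M M') ?_ ?_
  · refine (Det.pow (null I B) (((4 * n : ℕ)) : ℤ) (by norm_num)
      (hnle.trans hG.nullΛ) (hnle.trans h2nW) ?_ ?_ ?_).mono ?_
    · intro j hj
      rw [abs_of_nonneg (by positivity)]
      have h1 : (4 * n) ^ j ≤ (4 * n) ^ (null I B) := Nat.pow_le_pow_right (by omega) hj
      exact_mod_cast h1.trans hbig1
    · intro M' hM'
      have h1 : M' 23 = M3 23 := hM' 23 (by simp)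
      simp [Expr.val, h1, c1]
    · intro M' hM'
      have h1 : M' 0 = M3 0 := hM' 0 (by simp)
      simp only [Expr.val, h1, hC3.n0]
      push_cast
      rfl
    · rintro M' ⟨p1, p2⟩
      refine ⟨by rw [p2 30 (by simp)]; exact c2, ?_, (c3.mono (by decide)).trans
        (p2.mono (by decide))⟩
      rw [p1]; push_cast; rfl
  rintro M4 ⟨d1, d2, d3⟩
  have hC4 := hC.same d3 (by decide)
  -- random number
  have hrand := (Sim.rand (W := W) (Λ := Λ) (M := M4) (x := 46) (t := 47) (e := .v 35) p.K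
    (by norm_num) (by simp [Expr.val, Mem.write_arr, hC4.K]) hG.KΛ h2K)
  rw [unifZ_eq] at hrand
  have hlaw : ((unif p.K).map fun U => (B, if U * (4 * n) ^ null I B <
        2 ^ p.K * (4 * n - 1) ^ null I B then
        Function.update (obsH M) l (obsH M l + 1) else obsH M)) =
      ((unif p.K).map fun U : ℕ => (U : ℤ)).bind fun z => PMF.pure (B,
        if z * (((4 * n) ^ null I B : ℕ) : ℤ) < ((2 ^ p.K * (4 * n - 1) ^ null I B : ℕ) : ℤ) then
        Function.update (obsH M) l (obsH M l + 1) else obsH M) := by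
    rw [PMF.bind_map]
    unfold PMF.map
    congr 1
    funext U
    simp only [Function.comp]
    congr 2
    by_cases h : U * (4 * n) ^ null I B < 2 ^ p.K * (4 * n - 1) ^ null I B
    · rw [if_pos h, if_pos (by exact_mod_cast h)]
    · rw [if_neg h, if_neg (by exact_mod_cast h)]
  rw [hlaw]
  refine Sim.seq (f := fun M' => M' 46 0 0) (R := fun M' => (0 ≤ M' 46 0 0 ∧
    M' 46 0 0 < 2 ^ p.K) ∧ Same (classL ++ nullL ++ [30, 31, 46, 47]) M M' ∧
    M' 30 0 0 = (((4 * n - 1) ^ (null I B) : ℕ) : ℤ) ∧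
      M' 31 0 0 = (((4 * n) ^ (null I B) : ℕ) : ℤ)) (hrand.fr.mono ?_) ?_
  · rintro M' ⟨⟨q1, q2, -⟩, q3⟩
    have hs : Same [46, 47] M4 M' := fun a ha => q3 a (by
      simp only [Cmd.Wr_rand, List.mem_cons, List.not_mem_nil, or_false, not_or] at ha ⊢
      tauto)
    exact ⟨⟨q1, q2⟩, (d3.mono (by decide)).trans (hs.mono (by decide)),
      by rw [hs 30 (by simp)]; exact d1, by rw [hs 31 (by simp)]; exact d2⟩
  rintro M5 ⟨⟨e1, e2⟩, e3, e4, e5⟩
  have hC5 := hC.same e3 (by decide)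
  have h9 : M5 9 = M 9 := e3 9 (by decide)
  have h5 : M5 5 = M 5 := e3 5 (by decide)
  have h44' : M5 44 0 0 = l := by rw [e3 44 (by decide)]; exact h44
  have hcond : (Expr.sub (.mul (.v 37) (.v 30)) (.mul (.v 46) (.v 31))).val M5 =
      ((2 ^ p.K * (4 * n - 1) ^ null I B : ℕ) : ℤ) - M5 46 0 0 * (((4 * n) ^ null I B : ℕ) : ℤ) := by
    simp only [Expr.val, hC5.K2, e4, e5]
    push_cast
    ring
  have hd : Det W Λ (.when (.sub (.mul (.v 37) (.v 30)) (.mul (.v 46) (.v 31)))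
      (.set 9 (.v 44) (.lit 0) (.add (.get 9 (.v 44) (.lit 0)) (.lit 1)))) M5
      (fun M' => (Z01 n 5 M' ∧ HLe b (l + 1) M' ∧ Same hitL M M') ∧
        ((obs n 5 M', obsH M') = (B,
        if M5 46 0 0 * (((4 * n) ^ null I B : ℕ) : ℤ) <
          ((2 ^ p.K * (4 * n - 1) ^ null I B : ℕ) : ℤ) then
        Function.update (obsH M) l (obsH M l + 1) else obsH M))) := by
    refine Det.when (fun h => ?_) (fun h => ?_)
    · rw [hcond] at h
      rw [if_pos (by linarith)]
      have hbl := hb l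
      rw [if_neg (lt_irrefl _)] at hbl
      refine Det.set ?_ ?_
      · simp only [Expr.val, h44', h9]
        rw [abs_of_nonneg (by omega)]
        have : (b : ℤ) + 1 ≤ W := by exact_mod_cast hbW
        omega
      · simp only [Expr.val, h44', h9]
        refine ⟨⟨?_, ?_, ?_⟩, ?_⟩
        · exact Z01_congr (by rw [Mem.write_arr _ (by norm_num)]; exact h5) hz
        · intro k
          by_cases hk : k = l
          · subst hk
            rw [Mem.write_self, if_pos (by omega)]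
            omega
          · rw [Mem.write_cell _ _ (by
              rintro ⟨h1, -⟩
              exact hk (by exact_mod_cast h1)), h9]
            have := hb k
            by_cases hkl : k < l
            · rw [if_pos hkl] at this
              rw [if_pos (by omega)]
              exact this
            · rw [if_neg hkl] at this
              rw [if_neg (by omega)]
              exact this
        · exact (e3.mono (by decide)).write (by decide) _ _ _
        · refine Prod.ext ?_ ?_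
          · simp only []
            rw [hB]
            exact obs_congr (by rw [Mem.write_arr _ (by norm_num)]; exact h5)
          · simp only []
            funext k
            by_cases hk : k = l
            · subst hk
              rw [Function.update_self]
              simp only [obsH, Mem.write_self]
              omega
            · rw [Function.update_of_ne hk]
              simp only [obsH]
              rw [Mem.write_cell _ _ (by
                rintro ⟨h1, -⟩
                exact hk (by exact_mod_cast h1)), h9]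
    · rw [hcond] at h
      rw [if_neg (by linarith)]
      refine ⟨⟨Z01_congr h5 hz, ?_, e3.mono (by decide)⟩, ?_⟩
      · intro k
        rw [h9]
        have := hb k
        refine ⟨this.1, this.2.trans ?_⟩
        split_ifs <;> omega
      · refine Prod.ext ?_ ?_
        · simp only []
          rw [hB]
          exact obs_congr h5
        · show obsH M5 = obsH M
          unfold obsH
          rw [h9]
  exact (hd.sim (f := fun M' => (obs n 5 M', obsH M')) fun M' h => h.2).mono fun M' h => h.1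

/-- one level of the estimation; the level is the scalar `44` -/
def levC (jC : Cmd) : Cmd :=
  .seq (.when (.v 44) (.seq (.setv 18 (.v 44)) (.rep (.v 39) jC))) hitC

/-- the arrays changed by `levC` -/
def levL : List ℕ := stepL ++ [18] ++ hitL

theorem levC_sim {jC : Cmd} (hJ : JOK jC) {I : Inst n} {I1 I2 : Finset ℕ → Prop} {p : Par}
    {M : Mem} {l b : ℕ} {t : ℕ → Tb n} (hI : InstOK I I1 I2) (hC : Cst I I1 I2 p M)
    (hz : Z01 n 5 M) (h44 : M 44 0 0 = l) (hl : l < p.L) (hT : TabAt l (t l) M)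
    (hb : HLe b l M) (hbW : b + 1 ≤ W) (hG : BndG W Λ n p)
    (ht : ∀ k ij, |t k ij| ≤ (p.E0 : ℤ)) :
    Sim W Λ (levC jC) M (fun M' => (obs n 5 M', obsH M'))
      (estS I p t l (obs n 5 M, obsH M))
      (fun M' => Z01 n 5 M' ∧ HLe b (l + 1) M' ∧ Same levL M M') := by
  have hBL := hG.bndL hl.le (t := t) (fun k _ ij => ht k ij)
  unfold estS
  refine Sim.seq (f := obs n 5) (R := fun M' => Z01 n 5 M' ∧ Same (stepL ++ [18]) M M') ?_ ?_
  · refine Sim.when (fun h => ?_) (fun h => ?_)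
    · simp only [Expr.val, h44] at h
      have hl0 : l ≠ 0 := by rintro rfl; simp at h
      rw [if_neg hl0]
      refine Det.seqSim (R := fun M'' => M'' = M.write 18 0 0 (l : ℤ)) (Det.setv ?_ ?_) ?_
      · simp only [Expr.val, h44]
        rw [abs_of_nonneg (by positivity)]
        have := hG.LW
        have : l ≤ W := by omega
        exact_mod_cast this
      · simp only [Expr.val, h44]
      rintro M2 rfl
      set M2 := M.write 18 0 0 (l : ℤ) with hM2
      have hs2 : Same (stepL ++ [18]) M M2 := (Same.refl _ _).write (by decide) _ _ _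
      have hobs : obs n 5 M2 = obs n 5 M := obs_congr (Mem.write_arr _ (by norm_num) _ _ _)
      have hz2 : Z01 n 5 M2 := Z01_congr (Mem.write_arr _ (by norm_num) _ _ _) hz
      show Sim W Λ (.rep (.v 39) jC) M2 (obs n 5) (iterBind (stepJ I p l (t l)) p.T (obs n 5 M)) _
      rw [← hobs]
      refine Sim.rep (stepJ I p l (t l))
        (fun _ M3 => (Z01 n 5 M3 ∧ Same (stepL ++ [18]) M M3) ∧ M3 18 0 0 = (l : ℤ)) p.T ?_ hBL.TΛ
        ⟨⟨hz2, hs2⟩, by simp [hM2]⟩ ?_ (fun M3 h => h.1)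
      · have : M2 39 0 0 = p.T := by rw [hs2 39 (by decide)]; exact hC.T
        simp [Expr.val, this]
      · rintro i hi M3 ⟨⟨q1, q2⟩, q3⟩
        have hC3 : Cst I I1 I2 p M3 := hC.same q2 (by decide)
        have hT3 : TabAt l (t l) M3 := hT.congr (q2 7 (by decide))
        refine ((hJ.2 n I I1 I2 p l (t l) M3 (2 * p.E0) W Λ hI (hC3.envS hl.le hT3 q3)
          (hBL.lev l le_rfl) q1)).mono ?_
        rintro M4 ⟨e1, e2⟩
        exact ⟨⟨e1, q2.trans (e2.mono (fun a ha => List.mem_append_left _ ha))⟩,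
          by rw [e2 18 (by decide)]; exact q3⟩
    · simp only [Expr.val, h44] at h
      have hl0 : l = 0 := by
        have : (l : ℤ) ≤ 0 := h
        omega
      rw [if_pos hl0]
      exact ⟨⟨hz, Same.refl _ _⟩, rfl⟩
  rintro M1 ⟨a1, a2⟩
  have h9 : M1 9 = M 9 := a2 9 (by decide)
  have hH : obsH M1 = obsH M := by unfold obsH; rw [h9]
  have hC1 := hC.same a2 (by decide)
  have h := hitC_sim (W := W) (Λ := Λ) hI hC1 a1 (by rw [a2 44 (by decide)]; exact h44)
    (hb.congr h9) hbW hG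
  rw [hH] at h
  refine h.mono ?_
  rintro M' ⟨p1, p2, p3⟩
  exact ⟨p1, p2, (a2.mono (by decide)).trans (p3.mono (by decide))⟩

/-- one pass of the estimation -/
def estPC (jC : Cmd) : Cmd := .seq randTC (.forL 44 (.v 41) (levC jC))

/-- the arrays changed by a pass of the estimation -/
def estL : List ℕ := levL ++ [15, 44]

theorem levC_Wr {jC : Cmd} (hJ : JOK jC) : ∀ a ∈ (levC jC).Wr, a ∈ levL := by
  intro a ha
  have h1 : a ∈ jC.Wr → a ∈ levL := fun h =>
    List.mem_append_left _ (List.mem_append_left _ (hJ.1 a h))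
  have h3 : ∀ b ∈ hitC.Wr ++ [18], b ∈ levL := by decide
  simp only [levC, Cmd.Wr_seq, Cmd.Wr_rep, Cmd.Wr_when, Cmd.Wr_setv, List.mem_append] at ha
  rcases ha with ((ha | ha) | (ha | ha)) | ha
  · exact h3 a (by simp only [List.mem_append]; tauto)
  · exact h1 ha
  · exact h3 a (by simp only [List.mem_append]; tauto)
  · exact h1 ha
  · exact h3 a (by simp only [List.mem_append]; tauto)

theorem estPC_sim {jC : Cmd} (hJ : JOK jC) {I : Inst n} {I1 I2 : Finset ℕ → Prop} {p : Par}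
    {M : Mem} {b : ℕ} {t : ℕ → Tb n} (hI : InstOK I I1 I2) (hC : Cst I I1 I2 p M)
    (hT : ∀ k ≤ p.L, TabAt k (t k) M)
    (hb : HLe b 0 M) (hbW : b + 1 ≤ W) (hG : BndG W Λ n p)
    (ht : ∀ k ij, |t k ij| ≤ (p.E0 : ℤ)) :
    Sim W Λ (estPC jC) M obsH (estP I p t (obsH M))
      (fun M' => HLe (b + 1) 0 M' ∧ Same estL M M') := by
  have hnW : n ≤ W := le_trans (Nat.le_mul_of_pos_right _ (by omega)) hG.nn
  unfold estP
  refine Sim.seq (R := fun M' => (Z01 n 5 M' ∧ Same estL M M') ∧ M' 9 = M 9)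
    ((randTC_sim hC.n0 hnW hG.nΛ (le_trans hG.n1 hnW)).mono ?_) ?_
  · rintro M' ⟨g1, g2⟩
    exact ⟨⟨g1, g2.mono (by decide)⟩, g2 9 (by simp)⟩
  rintro M1 ⟨⟨a1, a2⟩, a3⟩
  have hH : obsH M1 = obsH M := by unfold obsH; rw [a3]
  have hL44 : (44 : ℕ) ∉ (levC jC).Wr := fun h => absurd (levC_Wr hJ 44 h) (by decide)
  have h := Sim.forL (W := W) (Λ := Λ) (M := M1) (i := 44) (e := .v 41) (c := levC jC)
    (f := fun M' => (obs n 5 M', obsH M'))
    (Q := fun M' => HLe (b + 1) 0 M' ∧ Same estL M M')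
    (fun l => estS I p t l)
    (fun l M' => Z01 n 5 M' ∧ HLe b l M' ∧ Same estL M M') p.L ?_
    (by have := hG.LΛ; omega) (by have := hG.LW; omega) hL44 ?_ ?_ ?_ ?_ ?_
  · have h2 := h.map Prod.snd
    rw [hH] at h2
    exact h2
  · have : (Expr.v 41).val (M1.write 44 0 0 0) = p.L := by
      simp only [Expr.val]
      rw [Mem.write_arr _ (by norm_num), a2 41 (by decide)]; exact hC.L
    rw [this]; simp
  · intro M' z
    refine Prod.ext ?_ ?_
    · exact obs_congr (Mem.write_arr _ (by norm_num) _ _ _)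
    · show obsH (M'.write 44 0 0 z) = obsH M'
      unfold obsH
      rw [Mem.write_arr _ (by norm_num)]
  · rintro l M' z ⟨g1, g2, g3⟩
    exact ⟨Z01_congr (Mem.write_arr _ (by norm_num) _ _ _) g1,
      g2.congr (Mem.write_arr _ (by norm_num) _ _ _), g3.write (by decide) _ _ _⟩
  · exact ⟨a1, hb.congr a3, a2⟩
  · rintro l hl M' g0 ⟨g1, g2, g3⟩
    have hC' : Cst I I1 I2 p M' := hC.same g3 (by decide)
    refine (levC_sim hJ hI hC' g1 g0 hl ((hT l hl.le).congr (g3 7 (by decide))) g2 hbW hG ht).mono ?_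
    rintro M'' ⟨p1, p2, p3⟩
    exact ⟨p1, p2, g3.trans (p3.mono (by decide))⟩
  · rintro M' _ ⟨g1, g2, g3⟩
    refine ⟨?_, g3⟩
    intro k
    have := g2 k
    refine ⟨this.1, this.2.trans ?_⟩
    push_cast
    split_ifs <;> omega

/-- all passes of the estimation -/
def estAC (jC : Cmd) : Cmd := .rep (.v 40) (estPC jC)

theorem estAC_sim {jC : Cmd} (hJ : JOK jC) {I : Inst n} {I1 I2 : Finset ℕ → Prop} {p : Par}
    {M : Mem} {t : ℕ → Tb n} (hI : InstOK I I1 I2) (hC : Cst I I1 I2 p M)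
    (hT : ∀ k ≤ p.L, TabAt k (t k) M) (h9 : M 9 = fun _ _ => 0) (hG : BndG W Λ n p)
    (ht : ∀ k ij, |t k ij| ≤ (p.E0 : ℤ)) :
    Sim W Λ (estAC jC) M obsH (estK I p t)
      (fun M' => HLe p.S 0 M' ∧ Same estL M M') := by
  have h := Sim.rep (W := W) (Λ := Λ) (M := M) (e := .v 40) (c := estPC jC)
    (f := obsH) (Q := fun M' => HLe p.S 0 M' ∧ Same estL M M')
    (estP I p t) (fun i M' => HLe i 0 M' ∧ Same estL M M') p.S ?_ hG.SΛ ?_ ?_ (fun M' h => h)
  · have h0 : obsH M = fun _ => 0 := by unfold obsH; rw [h9]; simp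
    rw [h0] at h
    exact h
  · have : M 40 0 0 = p.S := hC.S
    simp [Expr.val, this]
  · refine ⟨?_, Same.refl _ _⟩
    intro k
    rw [h9]
    simp
  · rintro i hi M' ⟨q1, q2⟩
    have hC' : Cst I I1 I2 p M' := hC.same q2 (by decide)
    refine (estPC_sim hJ hI hC' (fun k hk => (hT k hk).congr (q2 7 (by decide))) q1
      (by have := hG.SW; omega) hG ht).mono ?_
    rintro M'' ⟨e1, e2⟩
    exact ⟨e1, q2.trans e2⟩

/-! ### The output -/

/-- numerator and denominator -/
def outC : Cmd :=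
  .seq (.fold 48 13 (.v 41) (.lit 1) (.mul (.v 48) (.get 9 (.v 13) (.lit 0))))
  (.seq (.fold 49 13 (.v 0) (.lit 1) (.mul (.v 49) (.lit 2)))
  (.seq (.fold 70 13 (.v 41) (.lit 1) (.mul (.v 70) (.v 40)))
  (.seq (.setv 71 (.mul (.v 49) (.v 48)))
  (.ite (.sub (.v 70) (.mul (.lit 2) (.v 71)))
    (.seq (.set 3 (.lit 0) (.lit 0) (.lit 0)) (.set 3 (.lit 1) (.lit 0) (.lit 1)))
    (.seq (.set 3 (.lit 0) (.lit 0) (.v 71)) (.set 3 (.lit 1) (.lit 0) (.v 70)))))))

theorem outC_det {p : Par} {M : Mem} (hn : M 0 0 0 = n) (hL : M 41 0 0 = p.L) (hS : M 40 0 0 = p.S)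
    (hH : HLe p.S 0 M) (hLΛ : p.L ≤ Λ) (hLW : p.L ≤ W) (hnΛ : n ≤ Λ) (hnW : n ≤ W) (hS1 : 1 ≤ p.S)
    (hW : 2 ^ n * p.S ^ p.L ≤ W) :
    Det W Λ outC M (fun M' => (M' 3 0 0, M' 3 1 0) = outV p n (obsH M)) := by
  have hSLpos : 1 ≤ p.S ^ p.L := Nat.one_le_pow _ _ hS1
  have hSL : p.S ^ p.L ≤ W := le_trans (Nat.le_mul_of_pos_left _ (by positivity)) hW
  have h2n : 2 ^ n ≤ W := le_trans (Nat.le_mul_of_pos_right _ (by omega)) hW
  have hW1 : (1 : ℤ) ≤ W := by
    have : 1 ≤ W := hSLpos.trans hSL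
    exact_mod_cast this
  have hHle : ∀ l : ℕ, obsH M l ≤ p.S := by
    intro l
    have := (hH l).2
    simp only [obsH, Nat.not_lt_zero, if_false, add_zero] at this ⊢
    omega
  have hcell : ∀ l : ℕ, M 9 (l : ℤ) 0 = (obsH M l : ℤ) := by
    intro l
    have := (hH l).1
    simp only [obsH]
    omega
  have hprod : ∀ k : ℕ, k ≤ p.L → ∏ l ∈ Finset.range k, obsH M l ≤ p.S ^ p.L := by
    intro k hk
    calc ∏ l ∈ Finset.range k, obsH M l ≤ ∏ _l ∈ Finset.range k, p.S :=
          Finset.prod_le_prod' fun l _ => hHle l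
      _ = p.S ^ k := by simp
      _ ≤ p.S ^ p.L := Nat.pow_le_pow_right hS1 hk
  refine Det.seq (R := fun M' => M' 48 0 0 = ((∏ l ∈ Finset.range p.L, obsH M l : ℕ) : ℤ) ∧
    Same [48, 13] M M') ?_ ?_
  · refine (Det.prod1 p.L (fun l => (obsH M l : ℤ)) (by norm_num) hLΛ hLW ?_ ?_ ?_).mono ?_
    · intro k hk
      rw [abs_of_nonneg (Finset.prod_nonneg fun _ _ => by positivity)]
      exact_mod_cast (hprod k hk).trans hSL
    · intro M' hM'
      have h1 : M' 41 = M 41 := hM' 41 (by simp)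
      simp [Expr.val, h1, hL]
    · intro k hk M' hM' hi
      have h1 : M' 9 = M 9 := hM' 9 (by simp)
      simp only [Expr.val, h1, hi, hcell]
    · rintro M' ⟨p1, p2⟩
      refine ⟨?_, p2⟩
      rw [p1]; push_cast; rfl
  rintro M1 ⟨a1, a2⟩
  refine Det.seq (R := fun M' => M' 48 0 0 = ((∏ l ∈ Finset.range p.L, obsH M l : ℕ) : ℤ) ∧
    M' 49 0 0 = ((2 ^ n : ℕ) : ℤ) ∧ Same [48, 49, 13] M M') ?_ ?_
  · refine (Det.pow n 2 (by norm_num) hnΛ hnW ?_ ?_ ?_).mono ?_
    · intro k hk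
      rw [abs_of_nonneg (by positivity)]
      have : 2 ^ k ≤ 2 ^ n := Nat.pow_le_pow_right (by norm_num) hk
      exact_mod_cast this.trans h2n
    · intro M' hM'
      have h1 : M' 0 = M 0 := by rw [hM' 0 (by simp), a2 0 (by simp)]
      simp [Expr.val, h1, hn]
    · intro M' _
      rfl
    · rintro M' ⟨p1, p2⟩
      refine ⟨by rw [p2 48 (by simp)]; exact a1, ?_, (a2.mono (by decide)).trans
        (p2.mono (by decide))⟩
      rw [p1]; push_cast; rfl
  rintro M2 ⟨b1', b2, b3⟩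
  refine Det.seq (R := fun M' => M' 48 0 0 = ((∏ l ∈ Finset.range p.L, obsH M l : ℕ) : ℤ) ∧
    M' 49 0 0 = ((2 ^ n : ℕ) : ℤ) ∧ M' 70 0 0 = ((p.S ^ p.L : ℕ) : ℤ)) ?_ ?_
  · refine (Det.pow p.L p.S (by norm_num) hLΛ hLW ?_ ?_ ?_).mono ?_
    · intro k hk
      rw [abs_of_nonneg (by positivity)]
      have : p.S ^ k ≤ p.S ^ p.L := Nat.pow_le_pow_right hS1 hk
      exact_mod_cast this.trans hSL
    · intro M' hM'
      have h1 : M' 41 = M 41 := by rw [hM' 41 (by simp), b3 41 (by simp)]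
      simp [Expr.val, h1, hL]
    · intro M' hM'
      have h1 : M' 40 = M 40 := by rw [hM' 40 (by simp), b3 40 (by simp)]
      simp [Expr.val, h1, hS]
    · rintro M' ⟨p1, p2⟩
      refine ⟨by rw [p2 48 (by simp)]; exact b1', by rw [p2 49 (by simp)]; exact b2, ?_⟩
      rw [p1]; push_cast; rfl
  rintro M3 ⟨c1, c2, c3⟩
  set P := ∏ l ∈ Finset.range p.L, obsH M l with hP
  have hPle : P ≤ p.S ^ p.L := hprod p.L le_rfl
  have hnum : 2 ^ n * P ≤ W := le_trans (Nat.mul_le_mul_left _ hPle) hW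
  refine Det.seq (R := fun M' => M' 70 0 0 = ((p.S ^ p.L : ℕ) : ℤ) ∧
    M' 71 0 0 = ((2 ^ n * P : ℕ) : ℤ)) (Det.setv ?_ ⟨?_, ?_⟩) ?_
  · simp only [Expr.val, c1, c2]
    rw [← Nat.cast_mul, abs_of_nonneg (by positivity)]
    exact_mod_cast hnum
  · rw [Mem.write_arr _ (by norm_num)]; exact c3
  · simp only [Expr.val, c1, c2, Mem.write_self]
    push_cast; rfl
  rintro M4 ⟨d1, d2⟩
  have hv : (Expr.sub (.v 70) (.mul (.lit 2) (.v 71))).val M4 =
      ((p.S ^ p.L : ℕ) : ℤ) - ((2 * (2 ^ n * P) : ℕ) : ℤ) := by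
    simp only [Expr.val, d1, d2]
    push_cast; ring
  unfold outV
  refine Det.ite (fun h => ?_) (fun h => ?_)
  · rw [hv] at h
    have hlt : 2 * (2 ^ n * P) < p.S ^ p.L := by
      have : ((2 * (2 ^ n * P) : ℕ) : ℤ) < ((p.S ^ p.L : ℕ) : ℤ) := by linarith
      exact_mod_cast this
    rw [if_pos hlt]
    refine Det.seq (R := fun M' => M' 3 0 0 = 0) (Det.set (by simp [Expr.val])
      (by simp [Expr.val])) ?_
    intro M5 h5
    refine Det.set (by simpa [Expr.val] using hW1) ?_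
    simp only [Expr.val]
    rw [Mem.write_cell _ _ (by norm_num), h5, Mem.write_self]
  · rw [hv] at h
    have hlt : ¬ 2 * (2 ^ n * P) < p.S ^ p.L := by
      intro h'
      have : ((2 * (2 ^ n * P) : ℕ) : ℤ) < ((p.S ^ p.L : ℕ) : ℤ) := by exact_mod_cast h'
      linarith
    rw [if_neg hlt]
    refine Det.seq (R := fun M' => M' 3 0 0 = ((2 ^ n * P : ℕ) : ℤ) ∧
      M' 70 0 0 = ((p.S ^ p.L : ℕ) : ℤ)) (Det.set ?_ ⟨?_, ?_⟩) ?_
    · simp only [Expr.val, d2]
      rw [abs_of_nonneg (by positivity)]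
      exact_mod_cast hnum
    · simp only [Expr.val, d2, Mem.write_self]
    · rw [Mem.write_arr _ (by norm_num)]; exact d1
    rintro M5 ⟨e1, e2⟩
    refine Det.set ?_ ?_
    · simp only [Expr.val, e2]
      rw [abs_of_nonneg (by positivity)]
      exact_mod_cast hSL
    · simp only [Expr.val, e2]
      rw [Mem.write_cell _ _ (by norm_num), e1, Mem.write_self]

end Vale.Agent.P317RAM
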