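import Vale.Agent.P317RAM.Bridge
import Vale.Agent.P317R.ParMain

/-! # The native algorithm is accurate -/

namespace Vale.Agent.P317RAM

theorem nativeOK : NativeOK 70 6 20 100 :=
  fun _ _ _ _ _ _ hI hn hε hε1 hδ ha hb => P317R.main_par hI hn hε hε1 hδ ha hb

end Vale.Agent.P317RAM
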