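import Vale.Agent.P317RAM.MainSim
import Vale.Agent.P317RAM.NatOK

/-!
# The final theorem
-/

namespace Vale.Agent.P317RAM

open Vale.Agent.P328RAM (Mem Cmd bits coin iterBind)
open Vale.Agent.P317R

variable {n : ℕ}

theorem not_orc {a : ℕ} (h1 : a ≠ 1) (h2 : a ≠ 2) : ¬ orc a := by
  rintro (h | h)
  · exact h1 h
  · exact h2 h

theorem input_abs_le (n a b : ℕ) (y : ℕ) (i j : ℤ) :
    |input n a b y i j| ≤ ((n + a + b + 1 : ℕ) : ℤ) := by
  have key : ∀ z : ℕ, z ≤ n + a + b + 1 → |((z : ℕ) : ℤ)| ≤ ((n + a + b + 1 : ℕ) : ℤ) := by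
    intro z hz
    rw [abs_of_nonneg (by positivity)]
    exact_mod_cast hz
  have h0 : |(0 : ℤ)| ≤ ((n + a + b + 1 : ℕ) : ℤ) := key 0 (Nat.zero_le _)
  unfold input
  split_ifs
  · exact key n (by omega)
  · exact key a (by omega)
  · exact key b (by omega)
  · exact h0
  · exact h0

theorem tab_abs_le (M₁ M₂ : Matroid (Fin n)) (a b : ℕ) (y : ℕ) (i j : ℤ) :
    |withTab (orcM M₁ M₂) (input n a b) y i j| ≤ ((n + a + b + 1 : ℕ) : ℤ) := by
  unfold withTab
  split_ifs
  · refine (abs_orcM _ _ _ _).trans ?_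
    push_cast
    omega
  · rw [abs_zero]
    positivity
  · exact input_abs_le n a b y i j

theorem mainOK (k1 k2 k3 k4 : ℕ) : MainOK k1 k2 k3 k4 (progC k1 k2 k3 k4) := by
  classical
  refine ⟨progC_ok k1 k2 k3 k4, ?_⟩
  obtain ⟨C, hC⟩ := progC_final k1 k2 k3 k4
  refine ⟨C, ?_⟩
  intro n a b M₁ M₂
  have hr : (instM M₁ M₂).r = rkN (indM M₂) (Finset.univ : Finset (Fin n)) := by
    rw [rkN_eq]
    rfl
  have w0 : withTab (orcM M₁ M₂) (input n a b) 0 = input n a b 0 :=
    withTab_not _ _ (not_orc (by decide) (by decide))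
  have w9 : withTab (orcM M₁ M₂) (input n a b) 9 = input n a b 9 :=
    withTab_not _ _ (not_orc (by decide) (by decide))
  have h := hC n a b (instM M₁ M₂) (indM M₁) (indM M₂) (withTab (orcM M₁ M₂) (input n a b))
    (by rw [w0]; simp [input]) (by rw [w0]; simp [input]) (by rw [w0]; simp [input])
    (by
      rw [w9]
      funext i j
      simp [input])
    (orac_one M₁ M₂ _) (orac_two M₁ M₂ _) instOK_instM hr
    (fun y i j => tab_abs_le M₁ M₂ a b y i j) 0
  refine ⟨?_, fun s hs => ?_⟩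
  · refine h.1.trans ?_
    unfold lawX outLaw
    simp only [rkN_eq]
  · have := h.2 s hs
    rwa [Nat.zero_add] at this

/-- **There is a fully polynomial randomized approximation scheme for the number of common bases
of two matroids given by independence oracles.** -/
theorem fpras : ∃ prog : OCmd, IsFPRAS prog :=
  ⟨toOC (progC 70 6 20 100), fpras_of nativeOK (mainOK 70 6 20 100)⟩

end Vale.Agent.P317RAM
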