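import Vale.Agent.P317RAM.OLang

/-!
# Programs with oracles given by tables

A program of the plain machine which reads the arrays `1`, `2` only through `get k (lit 0) e` and
never writes them is the same thing as a program with two oracles.
-/

namespace Vale.Agent.P317RAM

open Vale.Agent.P328RAM

/-- The arrays `1` and `2` are the oracles. -/
def orc (a : ℕ) : Prop := a = 1 ∨ a = 2

instance (a : ℕ) : Decidable (orc a) := inferInstanceAs (Decidable (_ ∨ _))

/-- translation of expressions -/
def toO : Expr → OExpr
  | .lit k => .lit k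
  | .get a i j => if orc a then .ask a (toO j) else .get a (toO i) (toO j)
  | .add e f => .add (toO e) (toO f)
  | .sub e f => .sub (toO e) (toO f)
  | .mul e f => .mul (toO e) (toO f)
  | .div e f => .div (toO e) (toO f)
  | .size e => .size (toO e)

/-- admissible expressions: the arrays `1`, `2` are only read in row `0` -/
def EOK : Expr → Prop
  | .lit _ => True
  | .get a i j => (orc a → i = .lit 0) ∧ EOK i ∧ EOK j
  | .add e f => EOK e ∧ EOK f
  | .sub e f => EOK e ∧ EOK f
  | .mul e f => EOK e ∧ EOK f
  | .div e f => EOK e ∧ EOK f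
  | .size e => EOK e

/-- translation of commands -/
def toOC : Cmd → OCmd
  | .set a i j e => .set a (toO i) (toO j) (toO e)
  | .flip a => .flip a
  | .seq c d => .seq (toOC c) (toOC d)
  | .ite e c d => .ite (toO e) (toOC c) (toOC d)
  | .rep e c => .rep (toO e) (toOC c)

/-- admissible commands: the arrays `1`, `2` are never written -/
def COK : Cmd → Prop
  | .set a i j e => ¬ orc a ∧ EOK i ∧ EOK j ∧ EOK e
  | .flip a => ¬ orc a
  | .seq c d => COK c ∧ COK d
  | .ite e c d => EOK e ∧ COK c ∧ COK d
  | .rep e c => EOK e ∧ COK c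

/-- the memory in which the rows `0` of the arrays `1` and `2` are the tables of the oracles -/
def withTab (O : Oracle) (M : Mem) : Mem := fun a i j =>
  if orc a then (if i = 0 then O a j else 0) else M a i j

theorem withTab_orc (O : Oracle) (M : Mem) {a : ℕ} (h : orc a) (j : ℤ) :
    withTab O M a 0 j = O a j := by
  unfold withTab
  rw [if_pos h, if_pos rfl]

theorem withTab_not (O : Oracle) (M : Mem) {a : ℕ} (h : ¬ orc a) : withTab O M a = M a := by
  funext i j
  unfold withTab
  rw [if_neg h]

theorem withTab_write (O : Oracle) (M : Mem) {a : ℕ} (h : ¬ orc a) (i j z : ℤ) :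
    (withTab O M).write a i j z = withTab O (M.write a i j z) := by
  funext b k l
  unfold Mem.write withTab
  by_cases hb : orc b
  · have : ¬ (b = a ∧ k = i ∧ l = j) := fun h' => h (h'.1 ▸ hb)
    simp only [if_neg this, if_pos hb]
  · simp only [if_neg hb]

theorem val_toO (O : Oracle) (M : Mem) {e : Expr} (he : EOK e) :
    (toO e).val O M = e.val (withTab O M) := by
  induction e with
  | lit k => rfl
  | get a i j hi hj =>
    obtain ⟨h1, h2, h3⟩ := he
    unfold toO
    by_cases ha : orc a
    · rw [if_pos ha]
      simp only [OExpr.val, Expr.val]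
      rw [hj h3, h1 ha]
      exact (withTab_orc O M ha _).symm
    · rw [if_neg ha]
      simp only [OExpr.val, Expr.val]
      rw [hi h2, hj h3, withTab_not O M ha]
  | add e f h1 h2 => simp only [toO, OExpr.val, Expr.val, h1 he.1, h2 he.2]
  | sub e f h1 h2 => simp only [toO, OExpr.val, Expr.val, h1 he.1, h2 he.2]
  | mul e f h1 h2 => simp only [toO, OExpr.val, Expr.val, h1 he.1, h2 he.2]
  | div e f h1 h2 => simp only [toO, OExpr.val, Expr.val, h1 he.1, h2 he.2]
  | size e h1 => simp only [toO, OExpr.val, Expr.val, h1 he]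

theorem cost_toO (O : Oracle) (M : Mem) {e : Expr} (he : EOK e) :
    (toO e).cost O M = e.cost (withTab O M) := by
  induction e with
  | lit k => rfl
  | get a i j hi hj =>
    obtain ⟨h1, h2, h3⟩ := he
    unfold toO
    by_cases ha : orc a
    · rw [if_pos ha]
      simp only [OExpr.cost, Expr.cost]
      rw [hj h3, h1 ha, val_toO O M h3]
      have hb : bits 0 = 1 := by decide
      simp only [Expr.cost, Expr.val]
      rw [withTab_orc O M ha, hb]
      omega
    · rw [if_neg ha]
      simp only [OExpr.cost, Expr.cost]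
      rw [hi h2, hj h3, val_toO O M h2, val_toO O M h3, withTab_not O M ha]
  | add e f h1 h2 =>
    simp only [toO, OExpr.cost, Expr.cost, h1 he.1, h2 he.2, val_toO O M he.1, val_toO O M he.2]
  | sub e f h1 h2 =>
    simp only [toO, OExpr.cost, Expr.cost, h1 he.1, h2 he.2, val_toO O M he.1, val_toO O M he.2]
  | mul e f h1 h2 =>
    simp only [toO, OExpr.cost, Expr.cost, h1 he.1, h2 he.2, val_toO O M he.1, val_toO O M he.2]
  | div e f h1 h2 =>
    simp only [toO, OExpr.cost, Expr.cost, h1 he.1, h2 he.2, val_toO O M he.1, val_toO O M he.2]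
  | size e h1 =>
    have he' : EOK e := he
    simp only [toO, OExpr.cost, Expr.cost, h1 he', val_toO O M he']

/-- the state with tables -/
def tabS (O : Oracle) (s : Mem × ℕ) : Mem × ℕ := (withTab O s.1, s.2)

theorem iterBind_map {α β : Type} (f : α → PMF α) (g : β → PMF β) (φ : α → β)
    (h : ∀ s, (f s).map φ = g (φ s)) (k : ℕ) (s : α) :
    (iterBind f k s).map φ = iterBind g k (φ s) := by
  induction k generalizing s with
  | zero => simp only [iterBind, PMF.pure_map]
  | succ k ih =>
    simp only [iterBind]
    rw [PMF.map_bind]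
    simp only [ih]
    rw [← h s, PMF.bind_map]
    rfl

/-- the simulation: the same law of the final memory and of the running time -/
theorem run_toOC (O : Oracle) {c : Cmd} (hc : COK c) (s : Mem × ℕ) :
    ((toOC c).run O s).map (tabS O) = c.run (tabS O s) := by
  induction c generalizing s with
  | set a i j e =>
    obtain ⟨h1, h2, h3, h4⟩ := hc
    simp only [toOC, OCmd.run, Cmd.run, PMF.pure_map, tabS]
    rw [val_toO O _ h2, val_toO O _ h3, val_toO O _ h4, cost_toO O _ h2, cost_toO O _ h3,
      cost_toO O _ h4, withTab_write O _ h1]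
  | flip a =>
    simp only [toOC, OCmd.run, Cmd.run, PMF.map_comp]
    congr 1
    funext z
    simp only [Function.comp, tabS]
    rw [withTab_write O _ hc]
  | seq c d ihc ihd =>
    simp only [toOC, OCmd.run, Cmd.run]
    rw [PMF.map_bind]
    simp only [ihd hc.2]
    rw [← ihc hc.1, PMF.bind_map]
    rfl
  | ite e c d ihc ihd =>
    obtain ⟨h1, h2, h3⟩ := hc
    have hv : (tabS O s).1 = withTab O s.1 := rfl
    simp only [toOC, OCmd.run, Cmd.run, hv]
    rw [val_toO O _ h1, cost_toO O _ h1]
    split_ifs
    · rw [ihc h2]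
      rfl
    · rw [ihd h3]
      rfl
  | rep e c ihc =>
    obtain ⟨h1, h2⟩ := hc
    have hv : (tabS O s).1 = withTab O s.1 := rfl
    simp only [toOC, OCmd.run, Cmd.run, hv]
    rw [val_toO O _ h1, cost_toO O _ h1]
    refine iterBind_map _ _ _ ?_ _ _
    intro s'
    rw [ihc h2]
    rfl

theorem support_toOC (O : Oracle) {c : Cmd} (hc : COK c) {s0 s : Mem × ℕ}
    (h : s ∈ ((toOC c).run O s0).support) : tabS O s ∈ (c.run (tabS O s0)).support := by
  rw [← run_toOC O hc]
  exact (PMF.mem_support_map_iff _ _ _).2 ⟨s, h, rfl⟩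

theorem measure_toOC (O : Oracle) {c : Cmd} (hc : COK c) (s0 : Mem × ℕ) (E : Set (Mem × ℕ)) :
    ((toOC c).run O s0).toOuterMeasure (tabS O ⁻¹' E) =
      (c.run (tabS O s0)).toOuterMeasure E := by
  rw [← run_toOC O hc, PMF.toOuterMeasure_map_apply]

/-! ### a checker for admissibility -/

/-- is the expression the constant `0`? -/
def isLit0 : Expr → Bool
  | .lit k => k == 0
  | _ => false

theorem eq_of_isLit0 {e : Expr} (h : isLit0 e = true) : e = .lit 0 := by
  cases e with
  | lit k =>
    have : k = 0 := by simpa [isLit0] using h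
    rw [this]
  | _ => simp [isLit0] at h

/-- checker for expressions -/
def eokb : Expr → Bool
  | .lit _ => true
  | .get a i j => (if orc a then isLit0 i else true) && (eokb i && eokb j)
  | .add e f => eokb e && eokb f
  | .sub e f => eokb e && eokb f
  | .mul e f => eokb e && eokb f
  | .div e f => eokb e && eokb f
  | .size e => eokb e

/-- checker for commands -/
def cokb : Cmd → Bool
  | .set a i j e => (if orc a then false else true) && (eokb i && (eokb j && eokb e))
  | .flip a => if orc a then false else true
  | .seq c d => cokb c && cokb d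
  | .ite e c d => eokb e && (cokb c && cokb d)
  | .rep e c => eokb e && cokb c

theorem EOK_of {e : Expr} (h : eokb e = true) : EOK e := by
  induction e with
  | lit k => trivial
  | get a i j hi hj =>
    simp only [eokb, Bool.and_eq_true] at h
    refine ⟨fun ha => eq_of_isLit0 ?_, hi h.2.1, hj h.2.2⟩
    have h1 := h.1
    rwa [if_pos ha] at h1
  | add e f h1 h2 =>
    simp only [eokb, Bool.and_eq_true] at h
    exact ⟨h1 h.1, h2 h.2⟩
  | sub e f h1 h2 =>
    simp only [eokb, Bool.and_eq_true] at h
    exact ⟨h1 h.1, h2 h.2⟩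
  | mul e f h1 h2 =>
    simp only [eokb, Bool.and_eq_true] at h
    exact ⟨h1 h.1, h2 h.2⟩
  | div e f h1 h2 =>
    simp only [eokb, Bool.and_eq_true] at h
    exact ⟨h1 h.1, h2 h.2⟩
  | size e h1 => exact h1 h

theorem COK_of {c : Cmd} (h : cokb c = true) : COK c := by
  induction c with
  | set a i j e =>
    simp only [cokb, Bool.and_eq_true] at h
    refine ⟨fun ha => ?_, EOK_of h.2.1, EOK_of h.2.2.1, EOK_of h.2.2.2⟩
    have h1 := h.1
    rw [if_pos ha] at h1
    exact absurd h1 (by decide)
  | flip a =>
    intro ha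
    simp only [cokb] at h
    rw [if_pos ha] at h
    exact absurd h (by decide)
  | seq c d ihc ihd =>
    simp only [cokb, Bool.and_eq_true] at h
    exact ⟨ihc h.1, ihd h.2⟩
  | ite e c d ihc ihd =>
    simp only [cokb, Bool.and_eq_true] at h
    exact ⟨EOK_of h.1, ihc h.2.1, ihd h.2.2⟩
  | rep e c ihc =>
    simp only [cokb, Bool.and_eq_true] at h
    exact ⟨EOK_of h.1, ihc h.2⟩

end Vale.Agent.P317RAM
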