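import Vale.Agent.P317RAM.EstC
import Vale.Agent.P317R.ParDef
import Vale.Agent.P317RAM.OSim

/-!
# The initialization: tables of powers, parameters
-/

namespace Vale.Agent.P317RAM

open Vale.Agent.P328RAM PMF
open Vale.Agent.P317R

variable {W Λ n : ℕ}

/-! ### tables of powers -/

/-- the cell `a[l]` becomes the power `e ^ l`, for `l` at most the value of `en` -/
def powTab (a : ℕ) (en e : Expr) : Cmd :=
  .seq (.set a (.lit 0) (.lit 0) (.lit 1))
    (.forL 13 en (.set a (.add (.v 13) (.lit 1)) (.lit 0) (.mul e (.at1 a (.v 13)))))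

theorem powTab_det {M : Mem} {a k z : ℕ} {en e : Expr} (ha : a ≠ 13)
    (hk : ∀ M', Same [a, 13] M M' → (en.val M').toNat = k)
    (he : ∀ M', Same [a, 13] M M' → e.val M' = z) (hΛ : k ≤ Λ) (hkW : k ≤ W)
    (hW : ∀ l ≤ k, z ^ l ≤ W) :
    Det W Λ (powTab a en e) M (fun M' => (∀ l : ℕ, l ≤ k → M' a l 0 = ((z ^ l : ℕ) : ℤ)) ∧
      Same [a, 13] M M') := by
  have h1W : (1 : ℤ) ≤ W := by
    have := hW 0 (Nat.zero_le _)
    rw [pow_zero] at this
    exact_mod_cast this
  refine Det.seq (R := fun M' => M' a 0 0 = 1 ∧ Same [a, 13] M M') (Det.set ?_ ⟨?_, ?_⟩) ?_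
  · simpa [Expr.val] using h1W
  · simp [Expr.val]
  · exact (Same.refl _ _).write (by simp) _ _ _
  rintro M1 ⟨a1, a2⟩
  refine Det.forL (fun l M' => (∀ i : ℕ, i ≤ l → M' a i 0 = ((z ^ i : ℕ) : ℤ)) ∧
    Same [a, 13] M M') k ?_ hΛ hkW ?_ ?_ ?_ ?_ (fun M' _ h => h)
  · exact hk _ (a2.write (by simp) _ _ _)
  · simp only [Cmd.Wr_set, List.mem_singleton]
    exact Ne.symm ha
  · rintro l M' w ⟨g1, g2⟩
    refine ⟨?_, g2.write (by simp) _ _ _⟩
    rw [Mem.write_arr _ ha]
    exact g1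
  · refine ⟨?_, a2⟩
    intro i hi
    have : i = 0 := by omega
    subst this
    simpa using a1
  · rintro l hl M' g0 ⟨g1, g2⟩
    have hv : (Expr.mul e (.at1 a (.v 13))).val M' = ((z ^ (l + 1) : ℕ) : ℤ) := by
      simp only [Expr.val, he M' g2, g0, g1 l le_rfl]
      rw [pow_succ']
      push_cast
      ring
    refine Det.set ?_ ?_
    · rw [hv, abs_of_nonneg (by positivity)]
      exact_mod_cast hW (l + 1) (by omega)
    · rw [hv]
      refine ⟨?_, g2.write (by simp) _ _ _⟩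
      intro i hi
      have hidx : (Expr.add (.v 13) (.lit 1)).val M' = ((l + 1 : ℕ) : ℤ) := by
        simp [Expr.val, g0]
      rw [hidx]
      have h0 : (Expr.lit 0).val M' = 0 := rfl
      rw [h0]
      by_cases hil : i = l + 1
      · subst hil
        rw [Mem.write_self]
      · rw [Mem.write_cell _ _ (by
          rintro ⟨h1, -⟩
          exact hil (by exact_mod_cast h1))]
        exact g1 i (by omega)

/-! ### the tables of the exponents -/

/-- all tables of exponents get the value `2` -/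
def tab2C : Cmd :=
  .for2 43 13 (.add (.v 41) (.lit 1)) (.mul (.v 0) (.v 0)) (.set 7 (.v 43) (.v 13) (.lit 2))

theorem tab2C_det {M : Mem} {L : ℕ} (hn : M 0 0 0 = n) (hL : M 41 0 0 = L)
    (hLΛ : L + 1 ≤ Λ) (hLW : L + 1 ≤ W) (hnΛ : n * n ≤ Λ) (hnW : n * n ≤ W) (h2 : 2 ≤ W) :
    Det W Λ tab2C M (fun M' => (∀ k l : ℕ, k ≤ L → l < n * n → M' 7 k l = 2) ∧
      Same [7, 13, 43] M M') := by
  refine (Det.for2 (i := 43) (j := 13) (L + 1) (n * n)
    (fun k l M' => ((∀ i j : ℕ, i < k → j < n * n → M' 7 i j = 2) ∧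
      ∀ j : ℕ, j < l → M' 7 k j = 2) ∧ Same [7, 13, 43] M M') (by norm_num) ?_ ?_ hLΛ hLW hnΛ hnW
    ?_ ?_ ?_ ?_ ?_ ?_ ?_).mono ?_
  · simp
  · simp
  · rintro M' ⟨-, g⟩
    have h1 : M' 41 = M 41 := g 41 (by simp)
    simp only [Expr.val, h1, hL]
    omega
  · rintro k hk M' ⟨-, g⟩
    have h1 : M' 0 = M 0 := g 0 (by simp)
    simp only [Expr.val, h1, hn]
    rw [← Nat.cast_mul, Int.toNat_natCast]
  · rintro k l M' z ⟨g1, g2⟩
    refine ⟨?_, g2.write (by simp) _ _ _⟩
    rw [Mem.write_arr _ (by norm_num)]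
    exact g1
  · rintro k l M' z ⟨g1, g2⟩
    refine ⟨?_, g2.write (by simp) _ _ _⟩
    rw [Mem.write_arr _ (by norm_num)]
    exact g1
  · exact ⟨⟨fun i j hi => absurd hi (Nat.not_lt_zero _), fun j hj => absurd hj (Nat.not_lt_zero _)⟩,
      Same.refl _ _⟩
  · rintro k hk M' ⟨⟨g1, g2⟩, g3⟩
    refine ⟨⟨?_, fun j hj => absurd hj (Nat.not_lt_zero _)⟩, g3⟩
    intro i j hi hj
    by_cases h : i = k
    · subst h; exact g2 j hj
    · exact g1 i j (by omega) hj
  · rintro k hk l hl M' h43 h13 ⟨⟨g1, g2⟩, g3⟩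
    refine Det.set ?_ ?_
    · have : (2 : ℤ) ≤ W := by exact_mod_cast h2
      simpa [Expr.val] using this
    · have e1 : (Expr.v 43).val M' = (k : ℤ) := h43
      have e2 : (Expr.v 13).val M' = (l : ℤ) := h13
      have e3 : (Expr.lit 2).val M' = 2 := rfl
      rw [e1, e2, e3]
      refine ⟨⟨?_, ?_⟩, g3.write (by simp) _ _ _⟩
      · intro i j hi hj
        rw [Mem.write_cell _ _ (by
          rintro ⟨h1, -⟩
          have : i = k := by exact_mod_cast h1
          omega)]
        exact g1 i j hi hj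
      · intro j hj
        by_cases h : j = l
        · subst h; rw [Mem.write_self]
        · rw [Mem.write_cell _ _ (by
            rintro ⟨-, h1⟩
            exact h (by exact_mod_cast h1))]
          exact g2 j (by omega)
  · rintro M' ⟨⟨g1, -⟩, g3⟩
    exact ⟨fun k l hk hl => g1 k l (by omega) hl, g3⟩

/-! ### the parameters -/

/-- power of an expression, as an expression -/
def powE (e : Expr) : ℕ → Expr
  | 0 => .lit 1
  | k + 1 => .mul (powE e k) e

theorem powE_val (e : Expr) (k : ℕ) (M : Mem) : (powE e k).val M = e.val M ^ k := by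
  induction k with
  | zero => simp [powE, Expr.val]
  | succ k ih => simp only [powE, Expr.val, ih, pow_succ]

theorem powE_ok {e : Expr} (he : EOK e) (k : ℕ) : EOK (powE e k) := by
  induction k with
  | zero => trivial
  | succ k ih => exact ⟨ih, he⟩

/-- the parameters; `k1, k2, k3, k4` are constants of the program text -/
def parC (k1 k2 k3 k4 : ℕ) : Cmd :=
  .seq (.setv 72 (.add (.add (.add (.lit 8) (.v 0)) (.at1 0 (.lit 1))) (.size (.at1 0 (.lit 2)))))
  (.seq (.setv 38 (powE (.v 72) k1))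
  (.seq (.setv 39 (powE (.v 72) k2))
  (.seq (.setv 40 (powE (.v 72) k3))
  (.seq (.setv 35 (.mul (.lit k4) (.v 72)))
  (.seq (.setv 41 (powE (.v 72) 3))
  (.seq (.setv 19 (.add (.lit 2) (.mul (.v 41) (.add (.size (.v 40)) (.lit 1)))))
  (.seq (.setv 36 (.size (.v 0)))
    (.fold 37 13 (.v 35) (.lit 1) (.mul (.v 37) (.lit 2))))))))))

/-- the values of the scalars -/
def pval (p : Par) (X : ℕ) : ℕ → ℕ
  | 72 => X
  | 38 => p.s
  | 39 => p.T
  | 40 => p.S
  | 35 => p.K
  | 41 => p.L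
  | 19 => p.E0
  | 36 => p.Bn
  | 37 => 2 ^ p.K
  | _ => 0

/-- the scalars of the list have their values -/
def HoldsP (keys : List ℕ) (val : ℕ → ℕ) (M : Mem) : Prop := ∀ s ∈ keys, M s 0 0 = (val s : ℤ)

/-- the arrays changed by `parC` -/
def parCL : List ℕ := [72, 38, 39, 40, 35, 41, 19, 36, 37, 13]

theorem chainP {M0 M : Mem} {val : ℕ → ℕ} {keys : List ℕ} {s : ℕ} {c d : Cmd}
    {Q : Mem → Prop} (hs : s ∉ keys ∧ 13 ∉ keys ∧ s ∈ parCL) (hM : HoldsP keys val M)
    (hS : Same parCL M0 M)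
    (hc : Det W Λ c M (fun M' => M' s 0 0 = (val s : ℤ) ∧ Same [s, 13] M M'))
    (hd : ∀ M', HoldsP (s :: keys) val M' → Same parCL M0 M' → Det W Λ d M' Q) :
    Det W Λ (.seq c d) M Q := by
  obtain ⟨h1, h2, h3⟩ := hs
  refine Det.seq hc ?_
  rintro M' ⟨a1, a2⟩
  refine hd M' ?_ ?_
  · intro x hx
    rcases List.mem_cons.1 hx with rfl | hx
    · exact a1
    · have hx' : x ∉ [s, 13] := by
        intro h
        simp only [List.mem_cons, List.not_mem_nil, or_false] at h
        rcases h with h | h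
        · exact h1 (h ▸ hx)
        · exact h2 (h ▸ hx)
      rw [a2 x hx']
      exact hM x hx
  · refine hS.trans (a2.mono ?_)
    intro x hx
    simp only [List.mem_cons, List.not_mem_nil, or_false] at hx
    rcases hx with rfl | rfl
    · exact h3
    · decide

theorem setvP {M : Mem} {s k : ℕ} {e : Expr} (he : e.val M = (k : ℤ)) (hW : k ≤ W) :
    Det W Λ (.setv s e) M (fun M' => M' s 0 0 = (k : ℤ) ∧ Same [s, 13] M M') := by
  refine Det.setv ?_ ?_
  · rw [he, abs_of_nonneg (by positivity)]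
    exact_mod_cast hW
  · rw [he]
    exact ⟨by simp, (Same.refl _ _).write (by simp) _ _ _⟩

theorem parC_det {k1 k2 k3 k4 a b : ℕ} {M : Mem} (hn : M 0 0 0 = n) (ha : M 0 1 0 = a)
    (hb : M 0 2 0 = b) {X : ℕ} (hX : X = baseX n a b)
    (hW : ∀ s ∈ [72, 38, 39, 40, 35, 41, 19, 36, 37], pval (parX k1 k2 k3 k4 n X) X s ≤ W)
    (hK : k4 * X ≤ Λ) :
    Det W Λ (parC k1 k2 k3 k4) M (fun M' =>
      HoldsP [72, 38, 39, 40, 35, 41, 19, 36, 37] (pval (parX k1 k2 k3 k4 n X) X) M' ∧
      Same parCL M M') := by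
  set p := parX k1 k2 k3 k4 n X with hp
  set v := pval p X with hv
  unfold parC
  refine chainP (s := 72) (keys := []) (val := v) (by decide) (by simp [HoldsP]) (Same.refl _ _)
    (setvP (k := X) ?_ (hW 72 (by decide))) fun M1 h1 s1 => ?_
  · simp only [Expr.val, hn, ha, hb, Int.natAbs_natCast, hX, baseX]
    push_cast
    ring
  have x1 : M1 72 0 0 = X := h1 72 (by simp)
  refine chainP (s := 38) (by decide) h1 s1 (setvP (k := X ^ k1) ?_ (hW 38 (by decide)))
    fun M2 h2 s2 => ?_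
  · rw [powE_val]; simp only [Expr.val, x1]; push_cast; rfl
  have x2 : M2 72 0 0 = X := h2 72 (by simp)
  refine chainP (s := 39) (by decide) h2 s2 (setvP (k := X ^ k2) ?_ (hW 39 (by decide)))
    fun M3 h3 s3 => ?_
  · rw [powE_val]; simp only [Expr.val, x2]; push_cast; rfl
  have x3 : M3 72 0 0 = X := h3 72 (by simp)
  refine chainP (s := 40) (by decide) h3 s3 (setvP (k := X ^ k3) ?_ (hW 40 (by decide)))
    fun M4 h4 s4 => ?_
  · rw [powE_val]; simp only [Expr.val, x3]; push_cast; rfl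
  have x4 : M4 72 0 0 = X := h4 72 (by simp)
  refine chainP (s := 35) (by decide) h4 s4 (setvP (k := k4 * X) ?_ (hW 35 (by decide)))
    fun M5 h5 s5 => ?_
  · simp only [Expr.val, x4]; push_cast; rfl
  have x5 : M5 72 0 0 = X := h5 72 (by simp)
  refine chainP (s := 41) (by decide) h5 s5 (setvP (k := X ^ 3) ?_ (hW 41 (by decide)))
    fun M6 h6 s6 => ?_
  · rw [powE_val]; simp only [Expr.val, x5]; push_cast; rfl
  have y41 : M6 41 0 0 = ((X ^ 3 : ℕ) : ℤ) := h6 41 (by simp)
  have y40 : M6 40 0 0 = ((X ^ k3 : ℕ) : ℤ) := h6 40 (by simp)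
  refine chainP (s := 19) (by decide) h6 s6
    (setvP (k := 2 + X ^ 3 * (Nat.size (X ^ k3) + 1)) ?_ (hW 19 (by decide)))
    fun M7 h7 s7 => ?_
  · simp only [Expr.val, y41, y40, Int.natAbs_natCast]; push_cast; rfl
  refine chainP (s := 36) (by decide) h7 s7 (setvP (k := Nat.size n) ?_ (hW 36 (by decide)))
    fun M8 h8 s8 => ?_
  · have e1 : M7 0 = M 0 := s7 0 (by decide)
    simp only [Expr.val, e1, hn, Int.natAbs_natCast]
  have y35 : M8 35 0 0 = ((k4 * X : ℕ) : ℤ) := h8 35 (by simp)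
  have h37 : 2 ^ (k4 * X) ≤ W := hW 37 (by decide)
  have hkW : k4 * X ≤ W := (Nat.lt_pow_self (by norm_num)).le.trans h37
  refine (Det.pow (s := 37) (i := 13) (k4 * X) 2 (by norm_num) hK hkW ?_ ?_
    (fun _ _ => rfl)).mono ?_
  · intro k hk
    rw [abs_of_nonneg (by positivity)]
    have : 2 ^ k ≤ 2 ^ (k4 * X) := Nat.pow_le_pow_right (by norm_num) hk
    exact_mod_cast this.trans h37
  · intro M' hM'
    have h1 : M' 35 = M8 35 := hM' 35 (by simp)
    simp only [Expr.val, h1, y35, Int.toNat_natCast]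
  · rintro M' ⟨q1, q2⟩
    refine ⟨?_, s8.trans (q2.mono (by decide))⟩
    intro x hx
    by_cases h : x = 37
    · subst h
      rw [q1]
      show _ = ((2 ^ (k4 * X) : ℕ) : ℤ)
      push_cast; rfl
    · have hx' : x ∉ [37, 13] := by
        intro h'
        simp only [List.mem_cons, List.not_mem_nil, or_false] at h'
        rcases h' with h' | h'
        · exact h h'
        · subst h'
          revert hx
          decide
      rw [q2 x hx']
      refine h8 x ?_
      simp only [List.mem_cons, List.not_mem_nil, or_false] at hx ⊢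
      omega

end Vale.Agent.P317RAM
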