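import Vale.Agent.P317RAM.StepC

/-!
# The program for one step of the kernel on the perfect states
-/

namespace Vale.Agent.P317RAM

open Vale.Agent.P328RAM hiding stepK
open Vale.Agent.P317R

variable {W Λ n : ℕ}

/-- copy the state from the array `a` to the array `b` -/
def copyC (a b i : ℕ) : Cmd :=
  .forL i (.v 0) (.seq (.set b (.lit 0) (.v i) (.get a (.lit 0) (.v i)))
    (.set b (.lit 1) (.v i) (.get a (.lit 1) (.v i))))

theorem copyC_det {M : Mem} {a b i : ℕ} (hai : a ≠ i) (hbi : b ≠ i) (hab : a ≠ b) (h0i : 0 ≠ i)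
    (hn : M 0 0 0 = n) (hz : Z01 n a M) (hΛ : n ≤ Λ) (hW : n ≤ W) :
    Det W Λ (copyC a b i) M (fun M' => obs n b M' = obs n a M ∧ Z01 n b M' ∧
      Same [b, i] M M') := by
  refine Det.bdd fun hB => ?_
  unfold copyC
  refine Det.forL (fun l M' => Same [b, i] M M' ∧
    ∀ e : ℕ, e < l → M' b 0 e = M a 0 e ∧ M' b 1 e = M a 1 e) n ?_ hΛ hW ?_ ?_ ?_ ?_ ?_
  · simp only [Expr.val]
    rw [Mem.write_arr _ h0i, hn, Int.toNat_natCast]
  · simp only [Cmd.Wr_seq, Cmd.Wr_set, List.mem_append, List.mem_singleton]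
    rintro (h | h) <;> exact hbi h.symm
  · rintro l M' z ⟨h1, h2⟩
    refine ⟨?_, ?_⟩
    · intro c hc
      have hci : c ≠ i := fun h => hc (by simp [h])
      rw [Mem.write_arr _ hci]
      exact h1 c hc
    · intro e he
      rw [Mem.write_arr _ hbi]
      exact h2 e he
  · exact ⟨fun _ _ => rfl, fun e he => absurd he (Nat.not_lt_zero e)⟩
  · rintro l hl M' hi ⟨h1, h2⟩
    have hMa : M' a = M a := h1 a (by simp [hab, hai])
    refine Det.seq (R := fun M2 => M2 = M'.write b 0 l (M a 0 l)) ?_ ?_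
    · refine Det.set ?_ ?_
      · simp only [Expr.val, hMa]
        exact hB _ _ _
      · simp only [Expr.val, hMa, hi]
    rintro M2 rfl
    have e1 : (M'.write b 0 l (M a 0 l)) i = M' i := Mem.write_arr _ (Ne.symm hbi) _ _ _
    have e2 : (M'.write b 0 l (M a 0 l)) a = M a := by rw [Mem.write_arr _ hab, hMa]
    refine Det.set ?_ ?_
    · simp only [Expr.val, e2]
      exact hB _ _ _
    · simp only [Expr.val, e1, e2, hi]
      refine ⟨?_, ?_⟩
      · intro c hc
        have hcb : c ≠ b := fun h => hc (by simp [h])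
        rw [Mem.write_arr _ hcb, Mem.write_arr _ hcb]
        exact h1 c hc
      · intro e he
        by_cases hel : e = l
        · subst hel
          constructor
          · simp [Mem.write]
          · simp [Mem.write]
        · obtain ⟨g1, g2⟩ := h2 e (by omega)
          have hel' : ((e : ℕ) : ℤ) ≠ l := by exact_mod_cast hel
          constructor
          · simp [Mem.write, hel', g1]
          · simp [Mem.write, hel', g2]
  · rintro M' - ⟨h1, h2⟩
    have key : ∀ q : Fin n × Bool, M' b (row q.2) (q.1 : ℕ) = M a (row q.2) (q.1 : ℕ) := by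
      rintro ⟨e, s⟩
      obtain ⟨g1, g2⟩ := h2 e e.2
      cases s
      · exact g1
      · exact g2
    refine ⟨?_, ?_, h1⟩
    · ext q
      rw [mem_obs, mem_obs, key q]
    · intro q
      rw [key q]
      exact hz q

/-- one step of the kernel `J` -/
def jC : Cmd :=
  .seq (.rand 59 57 (.lit 1)) (.seq (copyC 5 6 13) (.seq (.rep (.v 38) fullC)
  (.seq (classC 5)
    (.ite (.v 59) (.ite (.add (.v 24) (.v 28)) (copyC 6 5 13) skipC) (copyC 6 5 13)))))

/-- the arrays not changed by the full step, but allowed to be changed by the step of `J` -/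
def notF : List ℕ := [6, 59]

theorem notF_fullC : ∀ a ∈ notF, a ∉ fullC.Wr := by decide +kernel

theorem jsub1 : ∀ a ∈ [59, 57, 6, 13], a ∈ stepL := by decide

theorem jsub2 : ∀ a ∈ classL, a ∈ stepL := by decide

theorem jsub3 : ∀ a ∈ [5, 13], a ∈ stepL := by decide

theorem stepJ_eq (I : Inst n) (p : Par) (k : ℕ) (t : Tb n) (B : St n) :
    stepJ I p k t B = (unif 1).bind fun v => (iterBind (stepK I p k t) p.s B).bind fun B' =>
      PMF.pure (if v = 1 ∧ Perf B' then B' else B) := by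
  unfold stepJ
  refine congrArg _ (funext fun v => ?_)
  rw [← PMF.bind_pure_comp]
  rfl

theorem jC_sim {I : Inst n} {I1 I2 : Finset ℕ → Prop} {p : Par} {k : ℕ} {t : Tb n}
    {M : Mem} {Em : ℕ} (hI : InstOK I I1 I2) (he : EnvS I I1 I2 p k t M)
    (hb : BndS W Λ n p k t Em) (hz : Z01 n 5 M) :
    Sim W Λ jC M (obs n 5) (stepJ I p k t (obs n 5 M))
      (fun M' => Z01 n 5 M' ∧ Same stepL M M') := by
  have h2n : 0 < 2 ^ n := by positivity
  have hnn := hb.nn
  have hn1 := hb.n1
  have hW2 : 2 ^ 1 ≤ W := by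
    have h1 := hb.two
    omega
  have hnW : n ≤ W := by
    have h1 := hb.two
    omega
  have hΛ1 : 1 ≤ Λ := hb.n1.trans hb.nΛ
  rw [stepJ_eq]
  unfold jC
  refine Sim.rand_seq (x := 59) (t := 57) 1 (by decide) rfl hΛ1 hW2 ?_
  intro v hv M1 m59 s1
  have hn1' : M1 0 0 0 = n := by rw [s1 0 (by decide) (by decide)]; exact he.n0
  refine Det.seqSim (copyC_det (n := n) (by decide) (by decide) (by decide) (by decide) hn1'
    (Z01_congr (s1 5 (by decide) (by decide)) hz) hb.nΛ hnW) ?_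
  rintro M2 ⟨o6, z6, s2⟩
  rw [obs_congr (s1 5 (by decide) (by decide))] at o6
  have S2 : Same [59, 57, 6, 13] M M2 := by
    intro a ha
    simp only [List.mem_cons, List.not_mem_nil, or_false, not_or] at ha
    obtain ⟨a59, a57, a6, a13⟩ := ha
    rw [s2 a (by simp [a6, a13]), s1 a a59 a57]
  have he2 : EnvS I I1 I2 p k t M2 := he.same S2 (by decide)
  have o5 : obs n 5 M2 = obs n 5 M := obs_congr (S2 5 (by decide))
  have z5 : Z01 n 5 M2 := Z01_congr (S2 5 (by decide)) hz
  have k59 : M2 59 0 0 = v := by rw [s2 59 (by decide)]; exact m59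
  -- the loop
  have hloop : Sim W Λ (.rep (.v 38) fullC) M2 (obs n 5)
      (iterBind (stepK I p k t) p.s (obs n 5 M2))
      (fun M' => Z01 n 5 M' ∧ Same stepL M2 M' ∧ ∀ a ∈ notF, M' a = M2 a) := by
    refine Sim.rep (stepK I p k t) (fun _ M' => Z01 n 5 M' ∧ Same stepL M2 M' ∧
      ∀ a ∈ notF, M' a = M2 a) p.s ?_ hb.sΛ ⟨z5, fun _ _ => rfl, fun _ _ => rfl⟩ ?_
      (fun M' h => h)
    · simp only [Expr.val]
      rw [he2.s, Int.toNat_natCast]
    · rintro i hi M' ⟨g1, g2, g3⟩
      have he' : EnvS I I1 I2 p k t M' := he2.same g2 (by decide)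
      refine (fullC_sim hI he' hb g1).fr.mono ?_
      rintro M'' ⟨⟨q1, q2⟩, q3⟩
      refine ⟨q1, fun a ha => (q2 a ha).trans (g2 a ha), fun a ha => ?_⟩
      rw [q3 a (notF_fullC a ha), g3 a ha]
  rw [o5] at hloop
  refine Sim.seq hloop ?_
  rintro M3 ⟨z3, s3, t3⟩
  have S3 : Same stepL M M3 := by
    intro a ha
    rw [s3 a ha]
    exact S2 a fun h => ha (jsub1 a h)
  have he3 : EnvS I I1 I2 p k t M3 := he.same S3 (by decide)
  obtain ⟨B', hB'⟩ : ∃ B', B' = obs n 5 M3 := ⟨_, rfl⟩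
  refine Det.seqSim (classC_det (n := n) (a := 5) (by decide) he3.n0 z3 hb.nn hb.nΛ) ?_
  rintro M4 ⟨⟨c24, c28, -, -, -⟩, s4⟩
  rw [← hB'] at c24 c28 ⊢
  have S4 : Same stepL M M4 := by
    intro a ha
    rw [s4 a fun h => ha (jsub2 a h), S3 a ha]
  have he4 : EnvS I I1 I2 p k t M4 := he.same S4 (by decide)
  have z4 : Z01 n 5 M4 := Z01_congr (s4 5 (by decide)) z3
  have o4 : obs n 5 M4 = B' := by rw [obs_congr (s4 5 (by decide)), hB']
  have k59' : M4 59 0 0 = v := by rw [s4 59 (by decide), t3 59 (by decide)]; exact k59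
  have z46 : Z01 n 6 M4 := by
    refine Z01_congr (a := 6) ?_ z6
    rw [s4 6 (by decide), t3 6 (by decide)]
  have o46 : obs n 6 M4 = obs n 5 M := by
    rw [← o6]
    refine obs_congr (a := 6) ?_
    rw [s4 6 (by decide), t3 6 (by decide)]
  have hperf : Perf B' ↔ M4 24 0 0 + M4 28 0 0 ≤ 0 := by
    rw [perf_iff, c24, c28]
    omega
  have hrest : ¬ (v = 1 ∧ Perf B') → Sim W Λ (copyC 6 5 13) M4 (obs n 5)
      (PMF.pure (if v = 1 ∧ Perf B' then B' else obs n 5 M))
      (fun M' => Z01 n 5 M' ∧ Same stepL M M') := by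
    intro hno
    rw [if_neg hno]
    have h := copyC_det (W := W) (Λ := Λ) (n := n) (M := M4) (a := 6) (b := 5) (i := 13)
      (by decide) (by decide) (by decide) (by decide) he4.n0 z46 hb.nΛ hnW
    refine (h.sim (f := obs n 5) (x := obs n 5 M) ?_).mono ?_
    · rintro M' ⟨g1, g2, g3⟩
      rw [g1, o46]
    · rintro M' ⟨g1, g2, g3⟩
      refine ⟨g2, fun a ha => ?_⟩
      rw [g3 a fun h => ha (jsub3 a h), S4 a ha]
  refine Sim.ite (fun h => ?_) (fun h => hrest ?_)
  · have hv1 : v = 1 := by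
      have h' : (0 : ℤ) < v := by simpa [Expr.val, k59'] using h
      omega
    refine Sim.ite (fun h2 => hrest ?_) (fun h2 => ?_)
    · rintro ⟨-, h3⟩
      have h4 := hperf.1 h3
      simp only [Expr.val] at h2
      omega
    · have h3 : Perf B' := hperf.2 (by simpa only [Expr.val] using h2)
      rw [if_pos ⟨hv1, h3⟩]
      unfold skipC
      have hd : Det W Λ (.setv 58 (.lit 0)) M4 (fun M' => M' = M4.write 58 0 0 0) :=
        Det.setv (by simp [Expr.val]) (by simp only [Expr.val])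
      have e5 : (M4.write 58 0 0 0) 5 = M4 5 := Mem.write_arr _ (by decide) _ _ _
      refine (hd.sim (f := obs n 5) (x := B') ?_).mono ?_
      · rintro M' rfl
        rw [obs_congr e5, o4]
      · rintro M' rfl
        refine ⟨Z01_congr e5 z4, fun a ha => ?_⟩
        have : a ≠ 58 := fun h => ha (h ▸ (by decide : (58 : ℕ) ∈ stepL))
        rw [Mem.write_arr _ this, S4 a ha]
  · rintro ⟨h1, -⟩
    have h' : (v : ℤ) ≤ 0 := by simpa [Expr.val, k59'] using h
    omega

theorem jC_ok : JOK jC := by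
  refine ⟨by decide +kernel, ?_⟩
  intro n I I1 I2 p k t M Em W Λ hI he hb hz
  exact jC_sim hI he hb hz

end Vale.Agent.P317RAM
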