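import Vale.Agent.P317RAM.PassL

/-!
# Learning of the tables
-/

namespace Vale.Agent.P317RAM

open Vale.Agent.P328RAM PMF
open Vale.Agent.P317R (St A1 A2 Perf Cls IsSt npair cl null Wt Inst Par Tb exq stepK stepJ randT
  passK obsK cntK updT learnK estS estP estK outV mainK)

variable {W Λ n : ℕ}

/-- one observation: a pass, `s` full steps, the class is counted -/
def obsC (jC fullC : Cmd) : Cmd :=
  .seq (passC jC) (.seq (.setv 18 (.v 43)) (.seq (.rep (.v 38) fullC) (.seq (classC 5) incC)))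

/-- the arrays changed by an observation -/
def obsL : List ℕ := passL ++ [8, 42]

theorem obsC_sim {jC fullC : Cmd} (hJ : JOK jC) (hF : FullOK fullC) {I : Inst n}
    {I1 I2 : Finset ℕ → Prop} {p : Par} {t : ℕ → Tb n} {l Em b : ℕ} {M : Mem}
    (hI : InstOK I I1 I2) (hC : Cst I I1 I2 p M) (h43 : M 43 0 0 = l)
    (hT : ∀ k ≤ l, TabAt k (t k) M) (hb : BndL W Λ n p t l Em) (hcnt : CntLe n b M)
    (hbW : b + 1 ≤ W) :
    Sim W Λ (obsC jC fullC) M (obsCnt n)
      ((obsK I p t l).map fun o => Function.update (obsCnt n M) o (obsCnt n M o + 1))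
      (fun M' => CntLe n (b + 1) M' ∧ Same obsL M M') := by
  have hlaw : (obsK I p t l).map (fun o => Function.update (obsCnt n M) o (obsCnt n M o + 1)) =
      (passK I p t l).bind fun B => (iterBind (stepK I p l (t l)) p.s B).bind fun B' =>
        PMF.pure (Function.update (obsCnt n M) (cl B') (obsCnt n M (cl B') + 1)) := by
    unfold obsK
    rw [PMF.map_bind]
    congr 1
    funext B
    rw [PMF.map_comp]
    rfl
  rw [hlaw]
  refine Sim.seq (passC_sim hJ hI hC h43 hT hb) ?_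
  rintro M1 ⟨a1, a2⟩
  have h43' : M1 43 0 0 = l := by rw [a2 43 (by decide)]; exact h43
  refine Det.seqSim (R := fun M'' => M'' = M1.write 18 0 0 (l : ℤ)) (Det.setv ?_ ?_) ?_
  · simp only [Expr.val, h43']
    rw [abs_of_nonneg (by positivity)]
    have := hb.LW
    have := hb.lL
    have : l ≤ W := by omega
    exact_mod_cast this
  · simp only [Expr.val, h43']
  rintro M2 rfl
  set M2 := M1.write 18 0 0 (l : ℤ) with hM2
  have hs2 : Same passL M M2 := a2.write (by decide) _ _ _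
  have hobs : obs n 5 M2 = obs n 5 M1 := obs_congr (Mem.write_arr _ (by norm_num) _ _ _)
  have hz2 : Z01 n 5 M2 := Z01_congr (Mem.write_arr _ (by norm_num) _ _ _) a1
  rw [← hobs]
  refine Sim.seq (f := obs n 5) (R := fun M3 => Z01 n 5 M3 ∧ Same passL M M3) ?_ ?_
  · refine Sim.rep (stepK I p l (t l))
      (fun _ M3 => (Z01 n 5 M3 ∧ Same passL M M3) ∧ M3 18 0 0 = (l : ℤ)) p.s ?_
      (hb.lev l le_rfl).sΛ ⟨⟨hz2, hs2⟩, by simp [hM2]⟩ ?_ (fun M3 h => h.1)
    · have : M2 38 0 0 = p.s := by rw [hs2 38 (by decide)]; exact hC.s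
      simp [Expr.val, this]
    · rintro i hi M3 ⟨⟨q1, q2⟩, q3⟩
      have hC3 : Cst I I1 I2 p M3 := hC.same q2 (by decide)
      have hT3 : TabAt l (t l) M3 := (hT l le_rfl).congr (q2 7 (by decide))
      refine ((hF.2 n I I1 I2 p l (t l) M3 Em W Λ hI (hC3.envS hb.lL hT3 q3)
        (hb.lev l le_rfl) q1)).mono ?_
      rintro M4 ⟨e1, e2⟩
      exact ⟨⟨e1, q2.trans (e2.mono (fun a ha => List.mem_append_left _ ha))⟩,
        by rw [e2 18 (by decide)]; exact q3⟩
  rintro M3 ⟨b1', b2⟩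
  have hC3 : Cst I I1 I2 p M3 := hC.same b2 (by decide)
  have hcnt3 : CntLe n b M3 := by
    unfold CntLe
    rw [b2 42 (by decide), b2 8 (by decide)]
    exact hcnt
  have hoc3 : obsCnt n M3 = obsCnt n M := by
    unfold obsCnt
    rw [b2 42 (by decide), b2 8 (by decide)]
  have hd : Det W Λ (.seq (classC 5) incC) M3 (fun M' => (CntLe n (b + 1) M' ∧ Same obsL M M') ∧
      obsCnt n M' = Function.update (obsCnt n M) (cl (obs n 5 M3))
        (obsCnt n M (cl (obs n 5 M3)) + 1)) := by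
    refine Det.seq (classC_det (by decide) hC3.n0 b1' (hb.lev l le_rfl).nn hb.nΛ) ?_
    rintro M4 ⟨d1, d2⟩
    have hcnt4 : CntLe n b M4 := by
      unfold CntLe
      rw [d2 42 (by decide), d2 8 (by decide)]
      exact hcnt3
    have hoc4 : obsCnt n M4 = obsCnt n M := by
      rw [← hoc3]
      unfold obsCnt
      rw [d2 42 (by decide), d2 8 (by decide)]
    refine (incC_det (by rw [d2 0 (by decide)]; exact hC3.n0) d1 hcnt4 hbW).mono ?_
    rintro M5 ⟨e1, e2, e3⟩
    rw [hoc4] at e1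
    exact ⟨⟨e2, ((b2.mono (by decide)).trans (d2.mono (by decide))).trans (e3.mono (by decide))⟩, e1⟩
  exact (hd.sim (f := obsCnt n) fun M' h => h.2).mono fun M' h => h.1

/-- clear the counters -/
def clrC : Cmd :=
  .seq (.setv 42 (.lit 0)) (.arr1 8 45 (.mul (.v 0) (.v 0)) (.lit 0))

theorem idx_lt (i j : Fin n) : (i : ℕ) * n + (j : ℕ) < n * n := by
  have h1 := i.2
  have h2 := j.2
  calc (i : ℕ) * n + (j : ℕ) < (i : ℕ) * n + n := by omega
    _ = ((i : ℕ) + 1) * n := by ring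
    _ ≤ n * n := Nat.mul_le_mul_right _ h1

theorem clrC_det {M : Mem} (hn : M 0 0 0 = n) (hW : n * n ≤ W) (hΛ : n * n ≤ Λ) :
    Det W Λ clrC M (fun M' => obsCnt n M' = (fun _ => 0) ∧ CntLe n 0 M' ∧
      Same [8, 42, 45] M M') := by
  refine Det.seq (R := fun M' => M' 42 0 0 = 0 ∧ Same [8, 42, 45] M M')
    (Det.setv (by simp [Expr.val]) ⟨by simp [Expr.val], (Same.refl _ _).write (by simp) _ _ _⟩) ?_
  rintro M1 ⟨a1, a2⟩
  refine (Det.arr1 (n * n) (fun _ => 0) (by norm_num) hΛ hW (by intro k _; simp) ?_ ?_).mono ?_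
  · intro M' hM'
    have h0 : M' 0 = M 0 := by rw [hM' 0 (by simp), a2 0 (by simp)]
    simp only [Expr.val, h0, hn]
    rw [← Nat.cast_mul, Int.toNat_natCast]
  · intro k _ M' _ _ _
    rfl
  · rintro M' ⟨g1, -, g3⟩
    have h42 : M' 42 0 0 = 0 := by rw [g3 42 (by simp)]; exact a1
    refine ⟨?_, ⟨⟨by rw [h42], by rw [h42]; simp⟩, ?_⟩, (a2.trans (g3.mono (by decide)))⟩
    · funext o
      rcases o with _ | ij
      · simp [obsCnt, h42]
      · simp only [obsCnt, Option.elim]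
        rw [g1 _ (idx_lt ij.1 ij.2)]
        rfl
    · intro ij
      rw [g1 _ (idx_lt ij.1 ij.2)]
      simp

/-- the new table -/
def updC : Cmd :=
  .forL 45 (.mul (.v 0) (.v 0)) (.set 7 (.add (.v 43) (.lit 1)) (.v 45)
    (.add (.get 7 (.v 43) (.v 45)) (.sub (.size (.v 42)) (.size (.get 8 (.v 45) (.lit 0))))))

/-- the tables in the memory; above the level `L` constantly `2` -/
def obsTab (n L : ℕ) (M : Mem) : ℕ → Tb n := fun k ij =>
  if k ≤ L then M 7 k (((ij.1 : ℕ) * n + (ij.2 : ℕ) : ℕ) : ℤ) else 2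

theorem obsTab_at {L k : ℕ} {M : Mem} (hk : k ≤ L) : TabAt k (obsTab n L M k) M := by
  intro i j
  simp only [obsTab, if_pos hk]

theorem natAbs_toNat {z : ℤ} (h : 0 ≤ z) : z.natAbs = z.toNat := by omega

theorem updC_det {M : Mem} {L l b C : ℕ} (hn : M 0 0 0 = n) (h43 : M 43 0 0 = l) (hl : l < L)
    (hcnt : CntLe n b M) (htab : ∀ ij, |obsTab n L M l ij| ≤ C) (hCW : C + Nat.size b ≤ W)
    (hCW' : n * n ≤ W) (hΛ : n * n ≤ Λ) :
    Det W Λ updC M (fun M' => obsTab n L M' = updT (obsTab n L M) l (obsCnt n M) ∧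
      Same [7, 45] M M') := by
  have hsz : ∀ z : ℤ, 0 ≤ z → z ≤ b → (z.natAbs.size : ℤ) = (Nat.size z.toNat : ℤ) ∧
      Nat.size z.toNat ≤ Nat.size b := by
    intro z h0 h1
    refine ⟨by rw [natAbs_toNat h0], Nat.size_le_size (by omega)⟩
  -- the new value of the entry number `m` (for `m < n * n`)
  have key : Det W Λ updC M (fun M' =>
      ((∀ m : ℕ, m < n * n → (∃ ij : Fin n × Fin n, (ij.1 : ℕ) * n + (ij.2 : ℕ) = m) →
        M' 7 ((l : ℤ) + 1) m = M 7 l m + ((M 42 0 0).natAbs.size - (M 8 m 0).natAbs.size)) ∧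
      (∀ a c : ℤ, ¬ (a = (l : ℤ) + 1 ∧ 0 ≤ c ∧ c < n * n) → M' 7 a c = M 7 a c)) ∧
      Same [7, 45] M M') := by
    refine Det.forL (fun t M' =>
      ((∀ m : ℕ, m < t → (∃ ij : Fin n × Fin n, (ij.1 : ℕ) * n + (ij.2 : ℕ) = m) →
        M' 7 ((l : ℤ) + 1) m = M 7 l m + ((M 42 0 0).natAbs.size - (M 8 m 0).natAbs.size)) ∧
      (∀ a c : ℤ, ¬ (a = (l : ℤ) + 1 ∧ 0 ≤ c ∧ c < t) → M' 7 a c = M 7 a c)) ∧
      Same [7, 45] M M') (n * n) ?_ hΛ hCW' (by simp) ?_ ?_ ?_ ?_
    · have : (Expr.mul (.v 0) (.v 0)).val (M.write 45 0 0 0) = ((n * n : ℕ) : ℤ) := by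
        simp only [Expr.val]
        rw [Mem.write_arr _ (by norm_num), hn]
        push_cast; rfl
      rw [this, Int.toNat_natCast]
    · rintro t M' z ⟨⟨g1, g2⟩, g3⟩
      refine ⟨⟨?_, ?_⟩, g3.write (by simp) _ _ _⟩
      · rw [Mem.write_arr _ (by norm_num)]; exact g1
      · rw [Mem.write_arr _ (by norm_num)]; exact g2
    · exact ⟨⟨fun m hm => absurd hm (Nat.not_lt_zero _), fun _ _ _ => rfl⟩, Same.refl _ _⟩
    · rintro t ht M' g0 ⟨⟨g1, g2⟩, g3⟩
      have h43' : M' 43 0 0 = l := by rw [g3 43 (by simp)]; exact h43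
      have h42' : M' 42 = M 42 := g3 42 (by simp)
      have h8' : M' 8 = M 8 := g3 8 (by simp)
      have h7' : M' 7 l t = M 7 l t := g2 l t (by omega)
      have hv : (Expr.add (.get 7 (.v 43) (.v 45))
          (.sub (.size (.v 42)) (.size (.get 8 (.v 45) (.lit 0))))).val M' =
          M 7 l t + ((M 42 0 0).natAbs.size - (M 8 t 0).natAbs.size) := by
        simp only [Expr.val, h43', g0, h42', h8', h7']
      have hi : (Expr.add (.v 43) (.lit 1)).val M' = (l : ℤ) + 1 := by simp [Expr.val, h43']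
      have hj : (Expr.v 45).val M' = (t : ℤ) := by simp [Expr.val, g0]
      by_cases hex : ∃ ij : Fin n × Fin n, (ij.1 : ℕ) * n + (ij.2 : ℕ) = t
      · obtain ⟨ij, hij⟩ := hex
        refine Det.set ?_ ?_
        · rw [hv]
          have e1 := hsz _ hcnt.1.1 hcnt.1.2
          have e2 := hcnt.2 ij
          rw [hij] at e2
          have e3 := hsz _ e2.1 e2.2
          have e4 := htab ij
          simp only [obsTab, if_pos hl.le, hij] at e4
          rw [e1.1, e3.1]
          have e5 := abs_le.1 e4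
          have e6 : ((Nat.size (M 42 0 0).toNat : ℕ) : ℤ) ≤ Nat.size b := by exact_mod_cast e1.2
          have e7 : ((Nat.size (M 8 t 0).toNat : ℕ) : ℤ) ≤ Nat.size b := by exact_mod_cast e3.2
          have e8 : ((C + Nat.size b : ℕ) : ℤ) ≤ W := by exact_mod_cast hCW
          push_cast at e8
          rw [abs_le]
          constructor <;> omega
        · rw [hv, hi, hj]
          refine ⟨⟨?_, ?_⟩, g3.write (by simp) _ _ _⟩
          · intro m hm hmex
            by_cases hmt : m = t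
            · subst hmt; simp
            · rw [Mem.write_cell _ _ (by omega)]
              exact g1 m (by omega) hmex
          · intro a c h
            push_cast at h
            rw [Mem.write_cell _ _ (by omega)]
            exact g2 a c (by omega)
      · -- every `t < n * n` is an index
        exfalso
        apply hex
        have hn0 : 0 < n := by
          rcases Nat.eq_zero_or_pos n with h | h
          · subst h; simp at ht
          · exact h
        refine ⟨(⟨t / n, Nat.div_lt_of_lt_mul ht⟩, ⟨t % n, Nat.mod_lt _ hn0⟩), ?_⟩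
        simp only []
        rw [mul_comm]
        exact Nat.div_add_mod t n
    · rintro M' _ ⟨⟨g1, g2⟩, g3⟩
      refine ⟨⟨g1, fun a c h => g2 a c ?_⟩, g3⟩
      push_cast
      exact h
  refine key.mono ?_
  rintro M' ⟨⟨g1, g2⟩, g3⟩
  refine ⟨?_, g3⟩
  funext k ij
  unfold updT
  by_cases hk : k = l + 1
  · subst hk
    rw [Function.update_self]
    simp only [obsTab, if_pos (show l + 1 ≤ L by omega), if_pos hl.le, obsCnt, Option.elim]
    have h1 := g1 _ (idx_lt ij.1 ij.2) ⟨ij, rfl⟩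
    have e1 := hsz _ hcnt.1.1 hcnt.1.2
    have e3 := hsz _ (hcnt.2 ij).1 (hcnt.2 ij).2
    push_cast at h1 e3 ⊢
    rw [h1, e1.1, e3.1]
    ring
  · rw [Function.update_of_ne hk]
    simp only [obsTab]
    split_ifs with hkL
    · exact g2 _ _ (by omega)
    · rfl

/-- one round of learning -/
def learnB (jC fullC : Cmd) : Cmd :=
  .seq clrC (.seq (.rep (.v 40) (obsC jC fullC)) updC)

/-- the arrays changed by the learning, apart from the counter `43` -/
def learnL : List ℕ := obsL ++ [7, 45]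

theorem CntLe.mono {b b' : ℕ} {M : Mem} (h : CntLe n b M) (hb : b ≤ b') : CntLe n b' M := by
  refine ⟨⟨h.1.1, h.1.2.trans (by exact_mod_cast hb)⟩, fun ij => ⟨(h.2 ij).1,
    (h.2 ij).2.trans (by exact_mod_cast hb)⟩⟩

theorem learnB_sim {jC fullC : Cmd} (hJ : JOK jC) (hF : FullOK fullC) {I : Inst n}
    {I1 I2 : Finset ℕ → Prop} {p : Par} {l Em C : ℕ} {M : Mem}
    (hI : InstOK I I1 I2) (hC : Cst I I1 I2 p M) (h43 : M 43 0 0 = l) (hl : l < p.L)
    (hb : BndL W Λ n p (obsTab n p.L M) l Em) (hSW : p.S ≤ W) (hSΛ : p.S ≤ Λ)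
    (htab : ∀ ij, |obsTab n p.L M l ij| ≤ C) (hCW : C + Nat.size p.S ≤ W)
    (hnn : n * n ≤ W) (hnnΛ : n * n ≤ Λ) :
    Sim W Λ (learnB jC fullC) M (obsTab n p.L)
      ((cntK I p (obsTab n p.L M) l).map (updT (obsTab n p.L M) l))
      (fun M' => (∃ c : Option (Fin n × Fin n) → ℕ, (∀ o, c o ≤ p.S) ∧
        obsTab n p.L M' = updT (obsTab n p.L M) l c) ∧ Same learnL M M') := by
  set t := obsTab n p.L M with ht
  have hlaw : (cntK I p t l).map (updT t l) = (cntK I p t l).bind fun c =>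
      PMF.pure (updT t l c) := rfl
  rw [hlaw]
  refine Det.seqSim (clrC_det hC.n0 hnn hnnΛ) ?_
  rintro M1 ⟨a1, a2, a3⟩
  have hC1 : Cst I I1 I2 p M1 := hC.same a3 (by decide)
  refine Sim.seq (f := obsCnt n)
    (R := fun M2 => CntLe n p.S M2 ∧ Same obsL M1 M2) ?_ ?_
  · have h := Sim.rep (W := W) (Λ := Λ) (M := M1) (f := obsCnt n) (e := .v 40)
      (c := obsC jC fullC) (Q := fun M2 => CntLe n p.S M2 ∧ Same obsL M1 M2)
      (fun c => (obsK I p t l).map fun o => Function.update c o (c o + 1))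
      (fun i M2 => CntLe n i M2 ∧ Same obsL M1 M2) p.S ?_ hSΛ ⟨a2, Same.refl _ _⟩ ?_
      (fun M2 h => h)
    · rw [a1] at h
      exact h
    · have : M1 40 0 0 = p.S := hC1.S
      simp [Expr.val, this]
    · rintro i hi M2 ⟨q1, q2⟩
      have hC2 : Cst I I1 I2 p M2 := hC1.same q2 (by decide)
      have h43' : M2 43 0 0 = l := by rw [q2 43 (by decide), a3 43 (by decide)]; exact h43
      have hT2 : ∀ k ≤ l, TabAt k (t k) M2 := by
        intro k hk
        have h1 : TabAt k (t k) M := by rw [ht]; exact obsTab_at (by omega)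
        exact h1.congr (by rw [q2 7 (by decide), a3 7 (by decide)])
      refine (obsC_sim hJ hF hI hC2 h43' hT2 hb q1 (by omega)).mono ?_
      rintro M3 ⟨e1, e2⟩
      exact ⟨e1, q2.trans e2⟩
  rintro M2 ⟨b1', b2⟩
  have hs2 : Same (obsL ++ [45]) M M2 := (a3.mono (by decide)).trans (b2.mono (by decide))
  have ht2 : obsTab n p.L M2 = t := by
    rw [ht]
    unfold obsTab
    rw [hs2 7 (by decide)]
  have hd := updC_det (W := W) (Λ := Λ) (M := M2) (L := p.L) (l := l) (b := p.S) (C := C)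
    (by rw [hs2 0 (by decide)]; exact hC.n0) (by rw [hs2 43 (by decide)]; exact h43) hl b1'
    (by rw [ht2]; exact htab) hCW hnn hnnΛ
  rw [ht2] at hd
  refine (hd.sim (f := obsTab n p.L) fun M' h => h.1).mono ?_
  rintro M' ⟨h1, h2⟩
  refine ⟨⟨obsCnt n M2, ?_, h1⟩, (hs2.mono (by decide)).trans (h2.mono (by decide))⟩
  intro o
  rcases o with _ | ij
  · have := b1'.1.2
    simp only [obsCnt, Option.elim]
    omega
  · have := (b1'.2 ij).2
    simp only [obsCnt, Option.elim]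
    omega

/-- the bounds on the parameters -/
structure BndG (W Λ n : ℕ) (p : Par) : Prop where
  n1 : 1 ≤ n
  L1 : 1 ≤ p.L
  nΛ : n ≤ Λ
  nn : n * (n + 1) ≤ W
  nnΛ : n * n ≤ Λ
  two : 2 ^ n + 2 * n ≤ W
  eE : 2 + p.L * Nat.size p.S ≤ p.E0
  eΛ : 2 * p.E0 ≤ Λ
  nullΛ : 2 * n ≤ Λ
  KΛ : p.K ≤ Λ
  BΛ : p.Bn ≤ Λ
  BW : 2 ^ p.Bn ≤ W
  sΛ : p.s ≤ Λ
  sW : p.s ≤ W
  TΛ : p.T ≤ Λ
  SΛ : p.S ≤ Λ
  SW : p.S ≤ W
  LW : p.L + 1 ≤ W
  LΛ : p.L + 1 ≤ Λ
  eW : p.E0 + Nat.size p.S ≤ W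
  big : 2 ^ p.K * ((4 * n) ^ (3 * p.L * n) * 2 ^ (2 * p.E0)) ≤ W

theorem BndG.bndL {p : Par} (h : BndG W Λ n p) {t : ℕ → Tb n} {l : ℕ} (hl : l ≤ p.L)
    (ht : ∀ k ≤ l, ∀ ij, |t k ij| ≤ (p.E0 : ℤ)) : BndL W Λ n p t l (2 * p.E0) := by
  have hpow : ∀ k ≤ l, (4 * n) ^ (3 * k * n) ≤ (4 * n) ^ (3 * p.L * n) := by
    intro k hk
    refine Nat.pow_le_pow_right (by have := h.n1; omega) ?_
    have : k ≤ p.L := hk.trans hl
    gcongr
  have hbig : ∀ k ≤ l, 2 ^ p.K * ((4 * n) ^ (3 * k * n) * 2 ^ (2 * p.E0)) ≤ W := by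
    intro k hk
    refine le_trans ?_ h.big
    exact Nat.mul_le_mul_left _ (Nat.mul_le_mul_right _ (hpow k hk))
  refine ⟨?_, hl, h.LW, h.LΛ, h.TΛ, h.n1, ?_, h.nΛ⟩
  · intro k hk
    refine ⟨⟨h.n1, h.nΛ, h.nn, h.two, by omega, ?_, h.eΛ, h.nullΛ, ?_⟩, h.KΛ, h.BΛ, h.BW, h.sΛ,
      h.sW, hbig k hk⟩
    · intro ij
      have := abs_le.1 (ht k hk ij)
      push_cast
      constructor <;> linarith
    · exact le_trans (Nat.le_mul_of_pos_left _ (by positivity)) (hbig k hk)
  · exact le_trans (Nat.le_mul_of_pos_right _ (by omega)) h.nn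

/-- the learning of all tables -/
def learnC (jC fullC : Cmd) : Cmd := .forL 43 (.v 41) (learnB jC fullC)

/-- bound on the entries of the tables in the round `l` -/
def TabLe (n : ℕ) (p : Par) (l : ℕ) (M : Mem) : Prop :=
  ∀ k ij, |obsTab n p.L M k ij| ≤ ((2 + l * Nat.size p.S : ℕ) : ℤ)

theorem obsC_Wr {jC fullC : Cmd} (hJ : JOK jC) (hF : FullOK fullC) :
    ∀ a ∈ (obsC jC fullC).Wr, a ∈ obsL := by
  intro a ha
  have h1 : a ∈ (passC jC).Wr → a ∈ obsL := fun h =>
    List.mem_append_left _ (passC_Wr hJ.1 a h)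
  have h2 : a ∈ fullC.Wr → a ∈ obsL := fun h =>
    List.mem_append_left _ (List.mem_append_left _ (hF.1 a h))
  have h3 : ∀ b ∈ (classC 5).Wr ++ incC.Wr ++ [18], b ∈ obsL := by decide
  simp only [obsC, Cmd.Wr_seq, Cmd.Wr_rep, Cmd.Wr_setv, List.mem_append] at ha
  rcases ha with ha | ha | ha | ha | ha
  · exact h1 ha
  · exact h3 a (by simp only [List.mem_append]; tauto)
  · exact h2 ha
  · exact h3 a (by simp only [List.mem_append]; tauto)
  · exact h3 a (by simp only [List.mem_append]; tauto)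

theorem learnB_Wr {jC fullC : Cmd} (hJ : JOK jC) (hF : FullOK fullC) :
    ∀ a ∈ (learnB jC fullC).Wr, a ∈ learnL := by
  intro a ha
  have h1 : a ∈ (obsC jC fullC).Wr → a ∈ learnL := fun h =>
    List.mem_append_left _ (obsC_Wr hJ hF a h)
  have h3 : ∀ b ∈ clrC.Wr ++ updC.Wr, b ∈ learnL := by decide
  simp only [learnB, Cmd.Wr_seq, Cmd.Wr_rep, List.mem_append] at ha
  rcases ha with ha | ha | ha
  · exact h3 a (by simp only [List.mem_append]; tauto)
  · exact h1 ha
  · exact h3 a (by simp only [List.mem_append]; tauto)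

theorem learnC_sim {jC fullC : Cmd} (hJ : JOK jC) (hF : FullOK fullC) {I : Inst n}
    {I1 I2 : Finset ℕ → Prop} {p : Par} {M : Mem}
    (hI : InstOK I I1 I2) (hC : Cst I I1 I2 p M) (hG : BndG W Λ n p)
    (h0 : obsTab n p.L M = fun _ _ => 2) :
    Sim W Λ (learnC jC fullC) M (obsTab n p.L) (learnK I p)
      (fun M' => TabLe n p p.L M' ∧ Same (learnL ++ [43]) M M') := by
  have hL43 : (43 : ℕ) ∉ (learnB jC fullC).Wr := fun h => absurd (learnB_Wr hJ hF 43 h) (by decide)
  have h := Sim.forL (W := W) (Λ := Λ) (M := M) (i := 43) (e := .v 41) (c := learnB jC fullC)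
    (f := obsTab n p.L) (Q := fun M' => TabLe n p p.L M' ∧ Same (learnL ++ [43]) M M')
    (fun l t => (cntK I p t l).map (updT t l))
    (fun l M' => TabLe n p l M' ∧ Same (learnL ++ [43]) M M') p.L ?_
    (by have := hG.LΛ; omega) (by have := hG.LW; omega) hL43 ?_ ?_ ?_ ?_ ?_
  · rw [h0] at h
    exact h
  · have : (Expr.v 41).val (M.write 43 0 0 0) = p.L := by
      simp only [Expr.val]
      rw [Mem.write_arr _ (by norm_num)]; exact hC.L
    rw [this]; simp
  · intro M' z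
    unfold obsTab
    rw [Mem.write_arr _ (by norm_num)]
  · rintro l M' z ⟨g1, g2⟩
    refine ⟨?_, g2.write (by decide) _ _ _⟩
    unfold TabLe obsTab
    rw [Mem.write_arr _ (by norm_num)]
    exact g1
  · refine ⟨?_, Same.refl _ _⟩
    intro k ij
    rw [h0]
    norm_num
  · rintro l hl M' g0 ⟨g1, g2⟩
    have hC' : Cst I I1 I2 p M' := hC.same g2 (by decide)
    have hle : ((2 + l * Nat.size p.S : ℕ) : ℤ) ≤ p.E0 := by
      have h1 : 2 + l * Nat.size p.S ≤ 2 + p.L * Nat.size p.S :=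
        Nat.add_le_add_left (Nat.mul_le_mul_right _ hl.le) _
      exact_mod_cast h1.trans hG.eE
    have htE : ∀ k ij, |obsTab n p.L M' k ij| ≤ (p.E0 : ℤ) := fun k ij => (g1 k ij).trans hle
    refine (learnB_sim hJ hF hI hC' g0 hl (hG.bndL hl.le fun k _ ij => htE k ij) hG.SW hG.SΛ
      (htE l) hG.eW ?_ hG.nnΛ).mono ?_
    · have := hG.nn
      nlinarith
    · rintro M'' ⟨⟨c, hc, h1⟩, h2⟩
      refine ⟨?_, g2.trans (h2.mono fun a ha => List.mem_append_left _ ha)⟩
      intro k ij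
      rw [h1]
      unfold updT
      by_cases hk : k = l + 1
      · subst hk
        rw [Function.update_self]
        have e1 := abs_le.1 (g1 l ij)
        have e2 : Nat.size (c none) ≤ Nat.size p.S := Nat.size_le_size (hc _)
        have e3 : Nat.size (c (some ij)) ≤ Nat.size p.S := Nat.size_le_size (hc _)
        rw [abs_le]
        push_cast at e1 ⊢
        rw [add_mul, one_mul]
        constructor <;> omega
      · rw [Function.update_of_ne hk]
        refine (g1 k ij).trans ?_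
        have : 2 + l * Nat.size p.S ≤ 2 + (l + 1) * Nat.size p.S := by
          rw [add_mul]; omega
        exact_mod_cast this
  · rintro M' _ h
    exact h

end Vale.Agent.P317RAM
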