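import Vale.Agent.P317RAM.StepN
import Vale.Agent.P328RAM.HTools

/-!
# The program for one full step of the chain
-/

namespace Vale.Agent.P317RAM

open Vale.Agent.P328RAM hiding stepK
open Vale.Agent.P317R

variable {W Λ n : ℕ}

/-- undo the exchange -/
def undoC : Cmd := .seq (.set 5 (.v 53) (.v 55) (.lit 0)) (.set 5 (.v 52) (.v 54) (.lit 1))

/-- do nothing -/
def skipC : Cmd := .setv 58 (.lit 0)

/-- exchange, compute the new weight, and undo the exchange if it is rejected -/
def tryC : Cmd :=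
  .seq (.set 5 (.v 52) (.v 54) (.lit 0)) (.seq (.set 5 (.v 53) (.v 55) (.lit 1))
  (.seq (weightC 5)
    (.ite (.v 51)
      (.ite (.sub (.mul (.v 37) (.v 27)) (.mul (.v 56) (.v 50))) skipC undoC)
      undoC)))

/-- the deterministic part, after the draws -/
def bodyC : Cmd :=
  .ite (.sub (.v 0) (.v 54))
    (.ite (.sub (.v 0) (.v 55))
      (.ite (.get 5 (.v 52) (.v 54))
        (.ite (.sub (.lit 1) (.get 5 (.v 53) (.v 55))) tryC skipC) skipC) skipC) skipC

/-- one full step -/
def fullC : Cmd :=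
  .seq (weightC 5) (.seq (.setv 50 (.v 27))
  (.seq (.rand 51 57 (.lit 1)) (.seq (.rand 52 57 (.lit 1)) (.seq (.rand 53 57 (.lit 1))
  (.seq (.rand 54 57 (.v 36)) (.seq (.rand 55 57 (.v 36)) (.seq (.rand 56 57 (.v 35))
  bodyC)))))))

/-- the arrays changed before the deterministic part -/
def drL : List ℕ := wtL ++ [50, 51, 52, 53, 54, 55, 56, 57]

/-- the memory after the draws -/
structure Dr (I : Inst n) (I1 I2 : Finset ℕ → Prop) (p : Par) (k : ℕ) (t : Tb n) (B : St n)
    (w c d x y U : ℕ) (M : Mem) : Prop where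
  env : EnvS I I1 I2 p k t M
  z01 : Z01 n 5 M
  obs : obs n 5 M = B
  m50 : M 50 0 0 = (Wt I p k t B : ℤ)
  m51 : M 51 0 0 = w
  m52 : M 52 0 0 = c
  m53 : M 53 0 0 = d
  m54 : M 54 0 0 = x
  m55 : M 55 0 0 = y
  m56 : M 56 0 0 = U

theorem undoC_det {M M0 : Mem} {c d x y : ℕ} (hW : 1 ≤ W) (hc : c < 2) (hd : d < 2)
    (hx : x < n) (hy : y < n) (m52 : M 52 0 0 = c) (m53 : M 53 0 0 = d) (m54 : M 54 0 0 = x)
    (m55 : M 55 0 0 = y) (hz : Z01 n 5 M) (hS : Same stepL M0 M)
    {B : St n} (hB : ((⟨x, hx⟩ : Fin n), decide (c = 1)) ∈ B)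
    (hB' : ((⟨y, hy⟩ : Fin n), decide (d = 1)) ∉ B)
    (hobs : obs n 5 M = insert ((⟨y, hy⟩ : Fin n), decide (d = 1))
      (B.erase ((⟨x, hx⟩ : Fin n), decide (c = 1)))) :
    Det W Λ undoC M (fun M' => obs n 5 M' = B ∧ Z01 n 5 M' ∧ Same stepL M0 M') := by
  have hW' : (1 : ℤ) ≤ W := by exact_mod_cast hW
  have h5 : 5 ∈ stepL := by decide
  unfold undoC
  refine Det.seq (R := fun M' => M' = M.write 5 d y 0) (Det.set (by simp [Expr.val]) ?_) ?_
  · simp only [Expr.val, m53, m55]
  rintro M1 rfl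
  have e52 : (M.write 5 d y 0) 52 = M 52 := Mem.write_arr _ (by decide) _ _ _
  have e54 : (M.write 5 d y 0) 54 = M 54 := Mem.write_arr _ (by decide) _ _ _
  refine Det.set (by simpa [Expr.val] using hW') ?_
  simp only [Expr.val, e52, e54, m52, m54]
  refine ⟨?_, Z01_write (Z01_write hz (Or.inl rfl)) (Or.inr rfl), ?_⟩
  · rw [obs_write_one hc hx, obs_write_zero hd hy, hobs]
    have hne : ((⟨y, hy⟩ : Fin n), decide (d = 1)) ∉ B.erase ((⟨x, hx⟩ : Fin n), decide (c = 1)) :=
      fun h => hB' (Finset.mem_of_mem_erase h)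
    rw [Finset.erase_insert hne, Finset.insert_erase hB]
  · intro b hb
    have hb5 : b ≠ 5 := fun h => hb (h ▸ h5)
    rw [Mem.write_arr _ hb5, Mem.write_arr _ hb5]
    exact hS b hb

theorem bodyC_det {I : Inst n} {I1 I2 : Finset ℕ → Prop} {p : Par} {k : ℕ} {t : Tb n}
    {B : St n} {w c d x y U : ℕ} {M M0 : Mem} {Em : ℕ} (hI : InstOK I I1 I2)
    (hb : BndS W Λ n p k t Em) (hD : Dr I I1 I2 p k t B w c d x y U M) (hS : Same stepL M0 M)
    (hw : w < 2) (hc : c < 2) (hd : d < 2) :
    Det W Λ bodyC M (fun M' => obs n 5 M' = stepV I p k t B w c d x y U ∧ Z01 n 5 M' ∧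
      Same stepL M0 M') := by
  obtain ⟨env, z01, hobs, m50, m51, m52, m53, m54, m55, m56⟩ := hD
  have hn := env.n0
  have hW1 : 1 ≤ W := by
    have h1 := hb.two
    have h2 := hb.n1
    have h3 : 0 < 2 ^ n := by positivity
    omega
  have hW1' : (1 : ℤ) ≤ W := by exact_mod_cast hW1
  have h58 : (58 : ℕ) ∈ stepL := by decide
  have skip : exch c d x y B = B → Det W Λ skipC M (fun M' => obs n 5 M' =
      stepV I p k t B w c d x y U ∧ Z01 n 5 M' ∧ Same stepL M0 M') := by
    intro hex
    unfold skipC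
    refine Det.setv (by simp [Expr.val]) ?_
    simp only [Expr.val]
    have e5 : (M.write 58 0 0 0) 5 = M 5 := Mem.write_arr _ (by decide) _ _ _
    refine ⟨?_, Z01_congr e5 z01, ?_⟩
    · rw [obs_congr e5, hobs]
      unfold stepV
      rw [hex, ite_self]
    · intro b hb'
      have : b ≠ 58 := fun h => hb' (h ▸ h58)
      rw [Mem.write_arr _ this]
      exact hS b hb'
  have v54 : (Expr.sub (.v 0) (.v 54)).val M = (n : ℤ) - x := by simp [Expr.val, hn, m54]
  have v55 : (Expr.sub (.v 0) (.v 55)).val M = (n : ℤ) - y := by simp [Expr.val, hn, m55]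
  unfold bodyC
  by_cases hx : x < n
  swap
  · refine Det.ite (fun h => ?_) (fun _ => skip ?_)
    · rw [v54] at h; omega
    · unfold exch
      rw [dif_neg (fun h => hx h.1)]
  by_cases hy : y < n
  swap
  · refine Det.ite (fun _ => Det.ite (fun h => ?_) (fun _ => skip ?_)) (fun h => ?_)
    · rw [v55] at h; omega
    · unfold exch
      rw [dif_neg (fun h => hy h.2)]
    · rw [v54] at h; omega
  have c1 : (Expr.get 5 (.v 52) (.v 54)).val M =
      if ((⟨x, hx⟩ : Fin n), decide (c = 1)) ∈ B then 1 else 0 := by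
    have h1 := z01.cell ((⟨x, hx⟩ : Fin n), decide (c = 1))
    rw [row_decide hc, hobs] at h1
    simp only [Expr.val, m52, m54]
    exact h1
  have c2 : (Expr.get 5 (.v 53) (.v 55)).val M =
      if ((⟨y, hy⟩ : Fin n), decide (d = 1)) ∈ B then 1 else 0 := by
    have h1 := z01.cell ((⟨y, hy⟩ : Fin n), decide (d = 1))
    rw [row_decide hd, hobs] at h1
    simp only [Expr.val, m53, m55]
    exact h1
  have c2' : (Expr.sub (.lit 1) (.get 5 (.v 53) (.v 55))).val M =
      if ((⟨y, hy⟩ : Fin n), decide (d = 1)) ∈ B then 0 else 1 := by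
    show 1 - (Expr.get 5 (.v 53) (.v 55)).val M = _
    rw [c2]
    split_ifs <;> norm_num
  refine Det.ite (fun _ => ?_) (fun h => by rw [v54] at h; omega)
  refine Det.ite (fun _ => ?_) (fun h => by rw [v55] at h; omega)
  by_cases hB : ((⟨x, hx⟩ : Fin n), decide (c = 1)) ∈ B
  swap
  · refine Det.ite (fun h => ?_) (fun _ => skip ?_)
    · rw [c1, if_neg hB] at h
      exact absurd h (by norm_num)
    · unfold exch
      rw [dif_pos ⟨hx, hy⟩, if_neg (fun h => hB h.1)]
  refine Det.ite (fun _ => ?_) (fun h => by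
    rw [c1, if_pos hB] at h
    exact absurd h (by norm_num))
  by_cases hB' : ((⟨y, hy⟩ : Fin n), decide (d = 1)) ∈ B
  · refine Det.ite (fun h => ?_) (fun _ => skip ?_)
    · rw [c2', if_pos hB'] at h
      exact absurd h (by norm_num)
    · unfold exch
      rw [dif_pos ⟨hx, hy⟩, if_neg (fun h => h.2 hB')]
  refine Det.ite (fun _ => ?_) (fun h => by
    rw [c2', if_neg hB'] at h
    exact absurd h (by norm_num))
  -- the exchange
  have hex : exch c d x y B = insert ((⟨y, hy⟩ : Fin n), decide (d = 1))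
      (B.erase ((⟨x, hx⟩ : Fin n), decide (c = 1))) := by
    unfold exch
    rw [dif_pos ⟨hx, hy⟩, if_pos ⟨hB, hB'⟩]
  unfold tryC
  refine Det.seq (R := fun M' => M' = M.write 5 c x 0) (Det.set (by simp [Expr.val]) ?_) ?_
  · simp only [Expr.val, m52, m54]
  rintro M1 rfl
  have f1 : ∀ a, a ≠ 5 → (M.write 5 c x 0) a = M a := fun a ha => Mem.write_arr _ ha _ _ _
  refine Det.seq (R := fun M' => M' = (M.write 5 c x 0).write 5 d y 1)
    (Det.set (by simpa [Expr.val] using hW1') ?_) ?_
  · simp only [Expr.val, f1 53 (by decide), f1 55 (by decide), m53, m55]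
  rintro M2 rfl
  have f2 : ∀ a, a ≠ 5 → ((M.write 5 c x 0).write 5 d y 1) a = M a := fun a ha => by
    rw [Mem.write_arr _ ha]; exact f1 a ha
  have z2 : Z01 n 5 ((M.write 5 c x 0).write 5 d y 1) :=
    Z01_write (Z01_write z01 (Or.inl rfl)) (Or.inr rfl)
  have o2 : obs n 5 ((M.write 5 c x 0).write 5 d y 1) = exch c d x y B := by
    rw [obs_write_one hd hy, obs_write_zero hc hx, hobs, hex]
  have env2 : EnvS I I1 I2 p k t ((M.write 5 c x 0).write 5 d y 1) :=
    env.same (L := [5]) (fun a ha => f2 a (by simpa using ha)) (by decide)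
  generalize (M.write 5 c x 0).write 5 d y 1 = M2 at f2 z2 o2 env2
  have hS2 : Same stepL M0 M2 := by
    intro b hb'
    have hb5 : b ≠ 5 := fun h => hb' (h ▸ (by decide : 5 ∈ stepL))
    rw [f2 b hb5]
    exact hS b hb'
  refine Det.seq (weightC_det (by decide) hI env2.toEnv hb.toBnd z2) ?_
  rintro M3 ⟨m27, s3⟩
  rw [o2] at m27
  have o3 : obs n 5 M3 = exch c d x y B := by
    rw [obs_congr (s3 5 (by decide)), o2]
  have z3 : Z01 n 5 M3 := Z01_congr (s3 5 (by decide)) z2
  have hS3 : Same stepL M0 M3 := by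
    intro b hb'
    have hbw : b ∉ wtL := fun h => hb' (List.mem_append_left _ (List.mem_append_left _ h))
    rw [s3 b hbw]
    exact hS2 b hb'
  have g : ∀ a, a ∉ wtL → a ≠ 5 → M3 a = M a := fun a h1 h2 => by rw [s3 a h1, f2 a h2]
  have k51 : M3 51 0 0 = w := by rw [g 51 (by decide) (by decide)]; exact m51
  have k52 : M3 52 0 0 = c := by rw [g 52 (by decide) (by decide)]; exact m52
  have k53 : M3 53 0 0 = d := by rw [g 53 (by decide) (by decide)]; exact m53
  have k54 : M3 54 0 0 = x := by rw [g 54 (by decide) (by decide)]; exact m54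
  have k55 : M3 55 0 0 = y := by rw [g 55 (by decide) (by decide)]; exact m55
  have k56 : M3 56 0 0 = U := by rw [g 56 (by decide) (by decide)]; exact m56
  have k50 : M3 50 0 0 = (Wt I p k t B : ℤ) := by rw [g 50 (by decide) (by decide)]; exact m50
  have k37 : M3 37 0 0 = ((2 ^ p.K : ℕ) : ℤ) := by
    rw [g 37 (by decide) (by decide)]; exact env.K2
  have hundo : ¬ (w = 1 ∧ U * Wt I p k t B < 2 ^ p.K * Wt I p k t (exch c d x y B)) →
      Det W Λ undoC M3 (fun M' => obs n 5 M' = stepV I p k t B w c d x y U ∧ Z01 n 5 M' ∧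
        Same stepL M0 M') := by
    intro hno
    unfold stepV
    rw [if_neg hno]
    exact undoC_det hW1 hc hd hx hy k52 k53 k54 k55 z3 hS3 hB hB' (o3.trans hex)
  have vt : (Expr.sub (.mul (.v 37) (.v 27)) (.mul (.v 56) (.v 50))).val M3 =
      ((2 ^ p.K * Wt I p k t (exch c d x y B) : ℕ) : ℤ) - ((U * Wt I p k t B : ℕ) : ℤ) := by
    simp only [Expr.val, k37, m27, k56, k50]
    push_cast
    ring
  refine Det.ite (fun h => ?_) (fun h => hundo ?_)
  · have hw1 : w = 1 := by
      have h' : (0 : ℤ) < w := by simpa [Expr.val, k51] using h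
      omega
    refine Det.ite (fun h2 => ?_) (fun h2 => hundo ?_)
    · rw [vt] at h2
      have h3 : U * Wt I p k t B < 2 ^ p.K * Wt I p k t (exch c d x y B) := by
        have : ((U * Wt I p k t B : ℕ) : ℤ) < ((2 ^ p.K * Wt I p k t (exch c d x y B) : ℕ) : ℤ) := by
          linarith
        exact_mod_cast this
      unfold skipC
      refine Det.setv (by simp [Expr.val]) ?_
      simp only [Expr.val]
      have e5 : (M3.write 58 0 0 0) 5 = M3 5 := Mem.write_arr _ (by decide) _ _ _
      refine ⟨?_, Z01_congr e5 z3, ?_⟩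
      · rw [obs_congr e5, o3]
        unfold stepV
        rw [if_pos ⟨hw1, h3⟩]
      · intro b hb'
        have : b ≠ 58 := fun h => hb' (h ▸ h58)
        rw [Mem.write_arr _ this]
        exact hS3 b hb'
    · rw [vt] at h2
      rintro ⟨-, h3⟩
      have : ((U * Wt I p k t B : ℕ) : ℤ) < ((2 ^ p.K * Wt I p k t (exch c d x y B) : ℕ) : ℤ) := by
        exact_mod_cast h3
      linarith
  · rintro ⟨h1, -⟩
    have h' : (w : ℤ) ≤ 0 := by simpa [Expr.val, k51] using h
    omega

/-- the arrays changed by the draws are allowed -/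
theorem drL_sub : ∀ a ∈ drL, a ∈ stepL := by decide

theorem fullC_sim {I : Inst n} {I1 I2 : Finset ℕ → Prop} {p : Par} {k : ℕ} {t : Tb n}
    {M : Mem} {Em : ℕ} (hI : InstOK I I1 I2) (he : EnvS I I1 I2 p k t M)
    (hb : BndS W Λ n p k t Em) (hz : Z01 n 5 M) :
    Sim W Λ fullC M (obs n 5) (stepK I p k t (obs n 5 M))
      (fun M' => Z01 n 5 M' ∧ Same stepL M M') := by
  have h2n : 0 < 2 ^ n := by positivity
  have hW2 : 2 ^ 1 ≤ W := by
    have h1 := hb.two
    have h2 := hb.n1
    omega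
  have hΛ1 : 1 ≤ Λ := hb.n1.trans hb.nΛ
  have hKW : 2 ^ p.K ≤ W := by
    refine le_trans ?_ hb.KW
    exact Nat.le_mul_of_pos_right _ (by have := hb.n1; positivity)
  rw [stepK_eq]
  unfold fullC
  refine Det.seqSim (weightC_det (by decide) hI he.toEnv hb.toBnd hz) ?_
  rintro M1 ⟨m27, s1⟩
  refine Det.seqSim (R := fun M' => M' 50 0 0 = M1 27 0 0 ∧ ∀ a, a ≠ 50 → M' a = M1 a)
    (Det.bdd fun hB => Det.setv (by simpa [Expr.val] using hB 27 0 0) ?_) ?_
  · simp only [Expr.val]
    exact ⟨by simp [Mem.write], fun a ha => Mem.write_arr _ ha _ _ _⟩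
  rintro M2 ⟨m50, s2⟩
  rw [m27] at m50
  have S2 : Same (wtL ++ [50]) M M2 := by
    intro a ha
    simp only [List.mem_append, List.mem_singleton, not_or] at ha
    rw [s2 a ha.2, s1 a ha.1]
  -- the draws
  refine Sim.rand_seq (x := 51) (t := 57) 1 (by decide) rfl hΛ1 hW2 ?_
  intro w hw M3 m51 s3
  refine Sim.rand_seq (x := 52) (t := 57) 1 (by decide) rfl hΛ1 hW2 ?_
  intro c hc M4 m52 s4
  refine Sim.rand_seq (x := 53) (t := 57) 1 (by decide) rfl hΛ1 hW2 ?_
  intro d hd M5 m53 s5
  have f5 : ∀ a, a ∉ drL → M5 a = M a := by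
    intro a ha
    simp only [drL, List.mem_append, List.mem_cons, List.not_mem_nil, or_false, not_or] at ha
    obtain ⟨ha0, ha50, ha51, ha52, ha53, ha54, ha55, ha56, ha57⟩ := ha
    rw [s5 a ha53 ha57, s4 a ha52 ha57, s3 a ha51 ha57, s2 a ha50, s1 a ha0]
  refine Sim.rand_seq (x := 54) (t := 57) p.Bn (by decide) ?_ hb.BΛ hb.BW ?_
  · simp only [Expr.val]
    rw [Mem.write_arr _ (by decide), f5 36 (by decide), he.Bn, Int.toNat_natCast]
  intro x hx M6 m54 s6
  have f6 : ∀ a, a ∉ drL → M6 a = M a := by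
    intro a ha
    have ha' := ha
    simp only [drL, List.mem_append, List.mem_cons, List.not_mem_nil, or_false, not_or] at ha'
    obtain ⟨ha0, ha50, ha51, ha52, ha53, ha54, ha55, ha56, ha57⟩ := ha'
    rw [s6 a ha54 ha57, f5 a ha]
  refine Sim.rand_seq (x := 55) (t := 57) p.Bn (by decide) ?_ hb.BΛ hb.BW ?_
  · simp only [Expr.val]
    rw [Mem.write_arr _ (by decide), f6 36 (by decide), he.Bn, Int.toNat_natCast]
  intro y hy M7 m55 s7
  have f7 : ∀ a, a ∉ drL → M7 a = M a := by
    intro a ha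
    have ha' := ha
    simp only [drL, List.mem_append, List.mem_cons, List.not_mem_nil, or_false, not_or] at ha'
    obtain ⟨ha0, ha50, ha51, ha52, ha53, ha54, ha55, ha56, ha57⟩ := ha'
    rw [s7 a ha55 ha57, f6 a ha]
  refine Sim.rand_seq (x := 56) (t := 57) p.K (by decide) ?_ hb.KΛ hKW ?_
  · simp only [Expr.val]
    rw [Mem.write_arr _ (by decide), f7 35 (by decide), he.K, Int.toNat_natCast]
  intro U hU M8 m56 s8
  have f8 : Same drL M M8 := by
    intro a ha
    have ha' := ha
    simp only [drL, List.mem_append, List.mem_cons, List.not_mem_nil, or_false, not_or] at ha'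
    obtain ⟨ha0, ha50, ha51, ha52, ha53, ha54, ha55, ha56, ha57⟩ := ha'
    rw [s8 a ha56 ha57, f7 a ha]
  have h5 : M8 5 = M 5 := f8 5 (by decide)
  have hD : Dr I I1 I2 p k t (obs n 5 M) w c d x y U M8 := by
    refine ⟨he.same f8 (by decide), Z01_congr h5 hz, obs_congr h5, ?_, ?_, ?_, ?_, ?_, ?_, m56⟩
    · rw [s8 50 (by decide) (by decide), s7 50 (by decide) (by decide),
        s6 50 (by decide) (by decide), s5 50 (by decide) (by decide),
        s4 50 (by decide) (by decide), s3 50 (by decide) (by decide)]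
      exact m50
    · rw [s8 51 (by decide) (by decide), s7 51 (by decide) (by decide),
        s6 51 (by decide) (by decide), s5 51 (by decide) (by decide),
        s4 51 (by decide) (by decide)]
      exact m51
    · rw [s8 52 (by decide) (by decide), s7 52 (by decide) (by decide),
        s6 52 (by decide) (by decide), s5 52 (by decide) (by decide)]
      exact m52
    · rw [s8 53 (by decide) (by decide), s7 53 (by decide) (by decide),
        s6 53 (by decide) (by decide)]
      exact m53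
    · rw [s8 54 (by decide) (by decide), s7 54 (by decide) (by decide)]
      exact m54
    · rw [s8 55 (by decide) (by decide)]
      exact m55
  have hS : Same stepL M M8 := fun a ha => f8 a fun h => ha (drL_sub a h)
  exact (((bodyC_det hI hb hD hS hw hc hd).sim fun M' h => h.1)).mono fun M' h => h.2

theorem fullC_ok : FullOK fullC := by
  refine ⟨by decide +kernel, ?_⟩
  intro n I I1 I2 p k t M Em W Λ hI he hb hz
  exact fullC_sim hI he hb hz

end Vale.Agent.P317RAM
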