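import Vale.Agent.P317RAM.InitC
import Vale.Agent.P317RAM.StepC
import Vale.Agent.P317RAM.JC

/-!
# The whole program: law of the output and polynomial time
-/

namespace Vale.Agent.P317RAM

open Vale.Agent.P328RAM PMF
open Vale.Agent.P317R

variable {W Λ n : ℕ}

/-! ### ranks -/

/-- powers of two and the ranks of the two matroids -/
def rksC : Cmd :=
  .seq (powTab 4 (.v 0) (.lit 2)) (.seq (rankC 2 11 10 13 (.lit 1)) (rankC 1 11 20 13 (.lit 1)))

theorem rksC_det {I1 I2 : Finset ℕ → Prop} {M : Mem} (hn : M 0 0 0 = n) (o1 : Orac n 1 I1 M)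
    (o2 : Orac n 2 I2 M) (hΛ : n ≤ Λ) (hW : 2 ^ n ≤ W) :
    Det W Λ rksC M (fun M' => (∀ e : ℕ, e < n → M' 4 e 0 = 2 ^ e) ∧
      M' 10 0 0 = (rkN I2 (Finset.univ : Finset (Fin n)) : ℤ) ∧
      M' 20 0 0 = (rkN I1 (Finset.univ : Finset (Fin n)) : ℤ) ∧
      Same [4, 10, 11, 13, 20] M M') := by
  have hnW : n ≤ W := (Nat.lt_two_pow_self).le.trans hW
  refine Det.seq (R := fun M' => (∀ e : ℕ, e < n → M' 4 e 0 = 2 ^ e) ∧
    Same [4, 10, 11, 13, 20] M M')
    ((powTab_det (k := n) (z := 2) (by norm_num) ?_ (fun _ _ => rfl) hΛ hnW ?_).mono ?_) ?_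
  · intro M' hM'
    have h1 : M' 0 = M 0 := hM' 0 (by simp)
    simp only [Expr.val, h1, hn, Int.toNat_natCast]
  · intro l hl
    exact (Nat.pow_le_pow_right (by norm_num) hl).trans hW
  · rintro M' ⟨h1, h2⟩
    refine ⟨fun e he => ?_, h2.mono (by decide)⟩
    rw [h1 e he.le]
    push_cast; rfl
  rintro M1 ⟨a1, a2⟩
  refine Det.seq (R := fun M' => (∀ e : ℕ, e < n → M' 4 e 0 = 2 ^ e) ∧
      M' 10 0 0 = (rkN I2 (Finset.univ : Finset (Fin n)) : ℤ) ∧
      Same [4, 10, 11, 13, 20] M M')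
    ((rankC_det (Ind := I2) (mem := memN (Finset.univ : Finset (Fin n))) (by decide)
      (by rw [a2 0 (by decide)]; exact hn) a1 (o2.congr (a2 2 (by decide))) ?_ hW hΛ).mono ?_) ?_
  · intro M' _ e he _
    simp only [Expr.val]
    exact ⟨fun _ => ⟨he, Finset.mem_univ _⟩, fun _ => by norm_num⟩
  · rintro M' ⟨h1, h2⟩
    refine ⟨?_, h1, a2.trans (h2.mono (by decide))⟩
    rw [h2 4 (by decide)]; exact a1
  rintro M2 ⟨b1', b2, b3⟩
  refine (rankC_det (Ind := I1) (mem := memN (Finset.univ : Finset (Fin n))) (by decide)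
      (by rw [b3 0 (by decide)]; exact hn) b1' (o1.congr (b3 1 (by decide))) ?_ hW hΛ).mono ?_
  · intro M' _ e he _
    simp only [Expr.val]
    exact ⟨fun _ => ⟨he, Finset.mem_univ _⟩, fun _ => by norm_num⟩
  · rintro M' ⟨h1, h2⟩
    refine ⟨?_, ?_, h1, b3.trans (h2.mono (by decide))⟩
    · rw [h2 4 (by decide)]; exact b1'
    · rw [h2 10 (by decide)]; exact b2

/-! ### parameters and tables -/

/-- parameters and tables -/
def setupC (k1 k2 k3 k4 : ℕ) : Cmd :=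
  .seq (parC k1 k2 k3 k4)
  (.seq (powTab 16 (.v 41) (.sub (.mul (.lit 4) (.v 0)) (.lit 1)))
  (.seq (powTab 17 (.v 41) (.mul (.lit 4) (.v 0))) tab2C))

/-- the bounds for the setup -/
structure SetB (W Λ n : ℕ) (p : Par) (X : ℕ) : Prop where
  n1 : 1 ≤ n
  XW : X ≤ W
  sW : p.s ≤ W
  TW : p.T ≤ W
  SW : p.S ≤ W
  LW : p.L + 1 ≤ W
  LΛ : p.L + 1 ≤ Λ
  EW : p.E0 ≤ W
  BW : p.Bn ≤ W
  KW : 2 ^ p.K ≤ W
  KΛ : p.K ≤ Λ
  nnW : n * n ≤ W
  nnΛ : n * n ≤ Λ
  pW : (4 * n) ^ p.L ≤ W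

theorem setupC_det {k1 k2 k3 k4 a b X : ℕ} {I : Inst n} {I1 I2 : Finset ℕ → Prop} {M : Mem}
    (h0 : Env0 I I1 I2 M) (ha : M 0 1 0 = a) (hb : M 0 2 0 = b) (hX : X = baseX n a b)
    (hB : SetB W Λ n (parX k1 k2 k3 k4 n X) X) :
    Det W Λ (setupC k1 k2 k3 k4) M (fun M' => Cst I I1 I2 (parX k1 k2 k3 k4 n X) M' ∧
      obsTab n (parX k1 k2 k3 k4 n X).L M' = (fun _ _ => 2) ∧ M' 9 = M 9) := by
  set p := parX k1 k2 k3 k4 n X with hp
  have hn1 := hB.n1
  have hLW := hB.LW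
  have hLΛ := hB.LΛ
  have hKW : p.K ≤ W := (Nat.lt_two_pow_self).le.trans hB.KW
  refine Det.seq (parC_det h0.n0 ha hb hX ?_ hB.KΛ) ?_
  · intro s hs
    simp only [List.mem_cons, List.not_mem_nil, or_false] at hs
    rcases hs with rfl | rfl | rfl | rfl | rfl | rfl | rfl | rfl | rfl
    · exact hB.XW
    · exact hB.sW
    · exact hB.TW
    · exact hB.SW
    · exact hKW
    · show p.L ≤ W
      omega
    · exact hB.EW
    · exact hB.BW
    · exact hB.KW
  rintro M1 ⟨a1, a2⟩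
  have n1' : M1 0 0 0 = n := by rw [a2 0 (by decide)]; exact h0.n0
  have L1 : M1 41 0 0 = p.L := a1 41 (by simp)
  have hpl : ∀ z l : ℕ, 1 ≤ 4 * n → z ≤ 4 * n → l ≤ p.L → z ^ l ≤ W := by
    intro z l h1 hz hl
    exact ((Nat.pow_le_pow_left hz l).trans (Nat.pow_le_pow_right h1 hl)).trans hB.pW
  refine Det.seq (R := fun M' => (∀ l : ℕ, l ≤ p.L → M' 16 l 0 = (((4 * n - 1) ^ l : ℕ) : ℤ)) ∧
    Same [16, 13] M1 M')
    (powTab_det (k := p.L) (z := 4 * n - 1) (by norm_num) ?_ ?_ (by omega) (by omega) ?_) ?_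
  · intro M' hM'
    have h1 : M' 41 = M1 41 := hM' 41 (by simp)
    simp only [Expr.val, h1, L1, Int.toNat_natCast]
  · intro M' hM'
    have h1 : M' 0 = M1 0 := hM' 0 (by simp)
    simp only [Expr.val, h1, n1']
    omega
  · exact fun l hl => hpl _ l (by omega) (by omega) hl
  rintro M2 ⟨b1', b2⟩
  refine Det.seq (R := fun M' => (∀ l : ℕ, l ≤ p.L → M' 17 l 0 = (((4 * n) ^ l : ℕ) : ℤ)) ∧
    Same [17, 13] M2 M')
    (powTab_det (k := p.L) (z := 4 * n) (by norm_num) ?_ ?_ (by omega) (by omega) ?_) ?_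
  · intro M' hM'
    have h1 : M' 41 = M1 41 := by rw [hM' 41 (by simp), b2 41 (by simp)]
    simp only [Expr.val, h1, L1, Int.toNat_natCast]
  · intro M' hM'
    have h1 : M' 0 = M1 0 := by rw [hM' 0 (by simp), b2 0 (by simp)]
    simp only [Expr.val, h1, n1']
    push_cast; ring
  · exact fun l hl => hpl _ l (by omega) le_rfl hl
  rintro M3 ⟨c1, c2⟩
  have s3 : Same [16, 17, 13] M1 M3 := (b2.mono (by decide)).trans (c2.mono (by decide))
  have hnn := hB.nnW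
  refine (tab2C_det (n := n) (L := p.L) (by rw [s3 0 (by simp)]; exact n1')
    (by rw [s3 41 (by simp)]; exact L1) hLΛ hLW hB.nnΛ hB.nnW ?_).mono ?_
  · have : 1 ≤ p.L := Nat.one_le_pow _ _ (by rw [hX]; unfold baseX; omega)
    omega
  rintro M4 ⟨d1, d2⟩
  have s4 : Same [16, 17, 13, 7, 43] M1 M4 := (s3.mono (by decide)).trans (d2.mono (by decide))
  have hs : Same (parCL ++ [16, 17, 13, 7, 43]) M M4 :=
    (a2.mono (by decide)).trans (s4.mono (by decide))
  have e0 := h0.same hs (by decide)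
  refine ⟨⟨e0, ?_, ?_, ?_, ?_, ?_, ?_, ?_, ?_, ?_, ?_⟩, ?_, ?_⟩
  · rw [s4 19 (by decide)]; exact a1 19 (by simp)
  · intro k hk
    rw [d2 16 (by decide), c2 16 (by decide)]; exact b1' k hk
  · intro k hk
    rw [d2 17 (by decide)]; exact c1 k hk
  · rw [s4 35 (by decide)]; exact a1 35 (by simp)
  · rw [s4 36 (by decide)]; exact a1 36 (by simp)
  · rw [s4 37 (by decide)]; exact a1 37 (by simp)
  · rw [s4 38 (by decide)]; exact a1 38 (by simp)
  · rw [s4 39 (by decide)]; exact a1 39 (by simp)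
  · rw [s4 40 (by decide)]; exact a1 40 (by simp)
  · rw [s4 41 (by decide)]; exact a1 41 (by simp)
  · funext k ij
    unfold obsTab
    split_ifs with hk
    · refine d1 k _ hk ?_
      have h1 := ij.1.isLt
      have h2 := ij.2.isLt
      calc (ij.1 : ℕ) * n + (ij.2 : ℕ) < (ij.1 : ℕ) * n + n := by omega
        _ = ((ij.1 : ℕ) + 1) * n := by ring
        _ ≤ n * n := Nat.mul_le_mul_right _ h1
    · rfl
  · rw [hs 9 (by decide)]

/-! ### the run -/

/-- numerator and denominator of the output -/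
def outF (M : Mem) : ℤ × ℤ := (M 3 0 0, M 3 1 0)

/-- learning, estimation, output -/
def runC : Cmd := .seq (learnC jC fullC) (.seq (estAC jC) outC)

theorem runC_sim {I : Inst n} {I1 I2 : Finset ℕ → Prop} {p : Par} {M : Mem}
    (hI : InstOK I I1 I2) (hC : Cst I I1 I2 p M) (hG : BndG W Λ n p)
    (h0 : obsTab n p.L M = fun _ _ => 2) (h9 : M 9 = fun _ _ => 0) (hS1 : 1 ≤ p.S)
    (hW : 2 ^ n * p.S ^ p.L ≤ W) :
    Sim W Λ runC M outF (mainK I p) (fun _ => True) := by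
  refine Sim.seq (learnC_sim jC_ok fullC_ok hI hC hG h0) ?_
  rintro M1 ⟨a1, a2⟩
  have hC1 := hC.same a2 (by decide)
  have hT : ∀ k ≤ p.L, TabAt k (obsTab n p.L M1 k) M1 := fun k hk => obsTab_at hk
  have ht : ∀ k ij, |obsTab n p.L M1 k ij| ≤ (p.E0 : ℤ) := fun k ij =>
    (a1 k ij).trans (by exact_mod_cast hG.eE)
  have hLW := hG.LW
  have hLΛ := hG.LΛ
  have hn1 := hG.n1
  have hnW : n ≤ W := le_trans (Nat.le_mul_of_pos_right _ (by omega)) hG.nn
  have h91 : M1 9 = fun _ _ => 0 := by rw [a2 9 (by decide)]; exact h9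
  refine (Sim.seq (κ := fun h => PMF.pure (outV p n h))
    (estAC_sim jC_ok hI hC1 hT h91 hG ht) ?_)
  rintro M2 ⟨b1', b2⟩
  have hC2 := hC1.same b2 (by decide)
  exact ((outC_det hC2.n0 hC2.L hC2.S b1' (by omega) (by omega) hG.nΛ hnW hS1 hW).sim
    (f := outF) fun M' h => h).mono fun _ _ => trivial

/-- output `0` -/
def out0 : Cmd := .seq (.set 3 (.lit 0) (.lit 0) (.lit 0)) (.set 3 (.lit 1) (.lit 0) (.lit 1))

/-- output `1` -/
def out1 : Cmd := .seq (.set 3 (.lit 0) (.lit 0) (.lit 1)) (.set 3 (.lit 1) (.lit 0) (.lit 1))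

theorem out0_det {M : Mem} (hW : 1 ≤ W) : Det W Λ out0 M (fun M' => outF M' = (0, 1)) := by
  have : (1 : ℤ) ≤ W := by exact_mod_cast hW
  refine Det.seq (R := fun M' => M' 3 0 0 = 0) (Det.set (by simp [Expr.val])
      (by simp [Expr.val])) ?_
  intro M1 h1
  refine Det.set (by simpa [Expr.val] using this) ?_
  unfold outF
  simp only [Expr.val]
  rw [Mem.write_self, Mem.write_cell _ _ (by norm_num), h1]

theorem out1_det {M : Mem} (hW : 1 ≤ W) : Det W Λ out1 M (fun M' => outF M' = (1, 1)) := by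
  have : (1 : ℤ) ≤ W := by exact_mod_cast hW
  refine Det.seq (R := fun M' => M' 3 0 0 = 1) (Det.set (by simpa [Expr.val] using this)
      (by simp [Expr.val])) ?_
  intro M1 h1
  refine Det.set (by simpa [Expr.val] using this) ?_
  unfold outF
  simp only [Expr.val]
  rw [Mem.write_self, Mem.write_cell _ _ (by norm_num), h1]

/-- **The program.** -/
def progC (k1 k2 k3 k4 : ℕ) : Cmd :=
  .ite (.v 0)
    (.seq rksC (.ite (.sub (.v 10) (.v 20)) out0 (.ite (.sub (.v 20) (.v 10)) out0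
      (.seq (setupC k1 k2 k3 k4) runC))))
    out1

/-- the program is admissible: the oracles are only asked -/
theorem progC_ok (k1 k2 k3 k4 : ℕ) : COK (progC k1 k2 k3 k4) := by
  have e72 : EOK (.v 72) := EOK_of rfl
  have h1 : COK (parC k1 k2 k3 k4) := by
    refine ⟨COK_of rfl, ⟨by decide, trivial, trivial, powE_ok e72 _⟩,
      ⟨by decide, trivial, trivial, powE_ok e72 _⟩,
      ⟨by decide, trivial, trivial, powE_ok e72 _⟩, ⟨by decide, trivial, trivial, trivial, e72⟩,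
      COK_of rfl⟩
  exact ⟨EOK_of rfl, ⟨COK_of rfl, EOK_of rfl, COK_of rfl, EOK_of rfl, COK_of rfl,
    ⟨h1, COK_of rfl⟩, COK_of rfl⟩, COK_of rfl⟩

end Vale.Agent.P317RAM
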