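import Vale.Agent.P317RAM.MainSim
import Vale.Agent.P317RAM.Bridge
import Vale.Agent.P317RAM.RankM
import Vale.Agent.P317RAM.Orc

/-!
# The contract of the bridge for the program `progC`
-/

namespace Vale.Agent.P317RAM

open Vale.Agent.P328RAM (Mem Cmd bits coin iterBind)
open Vale.Agent.P317R

variable {n : ℕ}

theorem lawX_eq (k1 k2 k3 k4 a b : ℕ) (M₁ M₂ : Matroid (Fin n)) :
    lawX k1 k2 k3 k4 (instM M₁ M₂) (indM M₁) (indM M₂) a b = outLaw k1 k2 k3 k4 a b M₁ M₂ := by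
  unfold lawX outLaw
  rw [rkN_eq, rkN_eq]

theorem input_le (n a b : ℕ) (k : ℕ) (i j : ℤ) : |input n a b k i j| ≤ ((n + a + b : ℕ) : ℤ) := by
  unfold input
  push_cast
  split_ifs <;> simp <;> omega

theorem mainOK (k1 k2 k3 k4 : ℕ) : MainOK k1 k2 k3 k4 (progC k1 k2 k3 k4) := by
  obtain ⟨C, hC⟩ := progC_final k1 k2 k3 k4
  refine ⟨progC_ok k1 k2 k3 k4, C, ?_⟩
  intro n a b M₁ M₂
  have hnot : ∀ k : ℕ, ¬ orc k → withTab (orcM M₁ M₂) (input n a b) k = input n a b k :=
    fun k hk => withTab_not _ _ hk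
  have hB : Vale.Agent.P328RAM.Bdd (n + a + b + 1) (withTab (orcM M₁ M₂) (input n a b)) := by
    refine bdd_withTab (by omega) ?_ M₁ M₂
    intro k i j
    refine (input_le n a b k i j).trans ?_
    push_cast
    omega
  have h := hC n a b (instM M₁ M₂) (indM M₁) (indM M₂) (withTab (orcM M₁ M₂) (input n a b))
    (by rw [hnot 0 (by decide)]; simp [input]) (by rw [hnot 0 (by decide)]; simp [input])
    (by rw [hnot 0 (by decide)]; simp [input]) (by rw [hnot 9 (by decide)]; funext i j; simp [input])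
    (orac_one M₁ M₂ _) (orac_two M₁ M₂ _) instOK_instM (by rw [rkN_eq]; rfl) hB 0
  rw [lawX_eq] at h
  refine ⟨h.1, fun s hs => ?_⟩
  have := h.2 s hs
  omega

end Vale.Agent.P317RAM
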