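import Vale.Agent.P317RAM.MainC

/-!
# The numeric bounds and the final theorem on the program
-/

namespace Vale.Agent.P317RAM

open Vale.Agent.P328RAM PMF
open Vale.Agent.P317R

variable {n : ℕ}

/-- the constant of all bounds -/
def cc (k1 k2 k3 k4 : ℕ) : ℕ := 2 * (k1 + k2 + k3 + k4) + 20

section

variable {c x : ℕ}

theorem le_pow_self2 (x : ℕ) : x ≤ 2 ^ x := (Nat.lt_pow_self (by norm_num)).le

theorem W1 {m e : ℕ} (h : m ≤ 2 ^ e) (he : e ≤ c * x ^ 5) : m ≤ 2 ^ (c * x ^ 5) :=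
  h.trans (Nat.pow_le_pow_right (by norm_num) he)

theorem xpow_le (x k : ℕ) : x ^ k ≤ 2 ^ (k * x) := by
  rw [mul_comm, pow_mul]
  exact Nat.pow_le_pow_left (le_pow_self2 x) k

theorem lin_le (hx : 1 ≤ x) {d e : ℕ} (hd : d ≤ c) (he : e ≤ 5) : d * x ^ e ≤ c * x ^ 5 :=
  Nat.mul_le_mul hd (Nat.pow_le_pow_right hx he)

theorem lin_le' (hx : 1 ≤ x) {d : ℕ} (hd : d ≤ c) : d * x ≤ c * x ^ 5 := by
  have := lin_le (c := c) hx hd (e := 1) (by norm_num)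
  simpa using this

theorem W2 (hx : 1 ≤ x) {k : ℕ} (hk : k ≤ c) : x ^ k ≤ 2 ^ (c * x ^ 5) :=
  W1 (xpow_le x k) (lin_le' hx hk)

theorem Λ1 (hx : 1 ≤ x) {d e : ℕ} (hd : d ≤ c) (he : e ≤ c) : d * x ^ e ≤ c * x ^ c :=
  Nat.mul_le_mul hd (Nat.pow_le_pow_right hx he)

end

theorem size_xpow (x k : ℕ) : Nat.size (x ^ k) ≤ k * x + 1 := by
  rw [Nat.size_le]
  calc x ^ k ≤ 2 ^ (k * x) := xpow_le x k
    _ < 2 ^ (k * x + 1) := Nat.pow_lt_pow_right (by norm_num) (by omega)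

theorem E0_le {x k : ℕ} (hx : 9 ≤ x) : 2 + x ^ 3 * (Nat.size (x ^ k) + 1) ≤ (k + 2) * x ^ 4 := by
  have h1 : x ^ 3 * (Nat.size (x ^ k) + 1) ≤ x ^ 3 * (k * x + 2) :=
    Nat.mul_le_mul_left _ (by have := size_xpow x k; omega)
  have h2 : x ^ 3 * (k * x + 2) = k * x ^ 4 + 2 * x ^ 3 := by ring
  have h3 : 2 + 2 * x ^ 3 ≤ 2 * x ^ 4 := by
    have h4 : 1 ≤ x ^ 3 := Nat.one_le_pow _ _ (by omega)
    have h5 : x ^ 4 = x ^ 3 * x := pow_succ x 3
    have h6 : x ^ 3 * 9 ≤ x ^ 3 * x := Nat.mul_le_mul_left _ hx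
    omega
  calc 2 + x ^ 3 * (Nat.size (x ^ k) + 1) ≤ k * x ^ 4 + (2 + 2 * x ^ 3) := by omega
    _ ≤ k * x ^ 4 + 2 * x ^ 4 := by omega
    _ = (k + 2) * x ^ 4 := by ring

section

variable {k1 k2 k3 k4 x : ℕ}

theorem pow4n (hn : 8 + n ≤ x) (L : ℕ) : (4 * n) ^ L ≤ 2 ^ (x * L) := by
  have h1 : 4 * n ≤ 2 ^ x := by
    have h2 : 4 * x ≤ 2 ^ x := by
      obtain ⟨y, rfl⟩ : ∃ y, x = y + 4 := ⟨x - 4, by omega⟩
      have h3 : y + 1 ≤ 2 ^ y := Nat.lt_pow_self (by norm_num)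
      rw [pow_add]
      omega
    omega
  rw [pow_mul]
  exact Nat.pow_le_pow_left h1 L

theorem setB_ok (hn1 : 1 ≤ n) (hn : 8 + n ≤ x) :
    SetB (2 ^ (cc k1 k2 k3 k4 * x ^ 5)) (cc k1 k2 k3 k4 * x ^ cc k1 k2 k3 k4) n
      (parX k1 k2 k3 k4 n x) x := by
  set c := cc k1 k2 k3 k4 with hc
  have hcv : c = 2 * (k1 + k2 + k3 + k4) + 20 := rfl
  have hx1 : 1 ≤ x := by omega
  have hx9 : 9 ≤ x := by omega
  have hXW : x ≤ 2 ^ (c * x ^ 5) := by
    have := W2 (c := c) hx1 (k := 1) (by omega)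
    simpa using this
  have hL : x ^ 3 + 1 ≤ x ^ 4 := by
    have h5 : x ^ 4 = x ^ 3 * x := pow_succ x 3
    have h4 : 1 ≤ x ^ 3 := Nat.one_le_pow _ _ (by omega)
    have h6 : x ^ 3 * 9 ≤ x ^ 3 * x := Nat.mul_le_mul_left _ hx9
    omega
  have hnn : n * n ≤ x ^ 2 := by
    rw [pow_two]; exact Nat.mul_le_mul (by omega) (by omega)
  have hE := E0_le (k := k3) hx9
  refine ⟨hn1, hXW, W2 hx1 (by omega), W2 hx1 (by omega), W2 hx1 (by omega), ?_, ?_, ?_, ?_, ?_,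
    ?_, ?_, ?_, ?_⟩
  · exact hL.trans (W2 hx1 (by omega))
  · have := Λ1 (c := c) hx1 (d := 1) (e := 4) (by omega) (by omega)
    rw [one_mul] at this
    exact hL.trans this
  · refine W1 (hE.trans (le_pow_self2 _)) (lin_le hx1 (by omega) (by norm_num))
  · refine le_trans ?_ hXW
    show Nat.size n ≤ x
    exact (Nat.size_le.2 (Nat.lt_pow_self (by norm_num))).trans (by omega : n ≤ x)
  · exact W1 le_rfl (lin_le' hx1 (by omega))
  · have := Λ1 (c := c) hx1 (d := k4) (e := 1) (by omega) (by omega)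
    rw [pow_one] at this
    exact this
  · exact hnn.trans (W2 hx1 (by omega))
  · have := Λ1 (c := c) hx1 (d := 1) (e := 2) (by omega) (by omega)
    rw [one_mul] at this
    exact hnn.trans this
  · refine W1 (pow4n hn _) ?_
    show x * x ^ 3 ≤ _
    have := lin_le (c := c) hx1 (d := 1) (e := 4) (by omega) (by norm_num)
    calc x * x ^ 3 = 1 * x ^ 4 := by ring
      _ ≤ _ := this

theorem bndG_ok (hn1 : 1 ≤ n) (hn : 8 + n ≤ x) :
    BndG (2 ^ (cc k1 k2 k3 k4 * x ^ 5)) (cc k1 k2 k3 k4 * x ^ cc k1 k2 k3 k4) n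
      (parX k1 k2 k3 k4 n x) := by
  have hS := setB_ok (k1 := k1) (k2 := k2) (k3 := k3) (k4 := k4) hn1 hn
  set c := cc k1 k2 k3 k4 with hc
  have hcv : c = 2 * (k1 + k2 + k3 + k4) + 20 := rfl
  have hx1 : 1 ≤ x := by omega
  have hx9 : 9 ≤ x := by omega
  have hxΛ : 2 * x ≤ c * x ^ c := by
    have := Λ1 (c := c) hx1 (d := 2) (e := 1) (by omega) (by omega)
    rw [pow_one] at this
    exact this
  have h1Λ : ∀ {e : ℕ}, e ≤ c → x ^ e ≤ c * x ^ c := fun he => by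
    have := Λ1 (c := c) hx1 (d := 1) (by omega) he
    rw [one_mul] at this
    exact this
  have hE := E0_le (k := k3) hx9
  have hsz := size_xpow x k3
  have hn2 : 2 ^ Nat.size n ≤ 2 * n := by
    have h := Nat.size_pos.2 hn1
    have h2 := Nat.lt_size.1 (show Nat.size n - 1 < Nat.size n by omega)
    have h3 : 2 ^ Nat.size n = 2 * 2 ^ (Nat.size n - 1) := by
      rw [← pow_succ']
      congr 1
      omega
    omega
  have h2x : 2 * x ≤ 2 ^ (c * x ^ 5) := by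
    have h1 : 2 * x ≤ x ^ 2 := by rw [pow_two]; exact Nat.mul_le_mul_right _ (by omega)
    exact h1.trans (W2 hx1 (by omega))
  refine ⟨hn1, ?_, ?_, ?_, hS.nnΛ, ?_, ?_, ?_, ?_, hS.KΛ, ?_, ?_, ?_, hS.sW, ?_, ?_, hS.SW, hS.LW,
    hS.LΛ, ?_, ?_⟩
  · exact Nat.one_le_pow _ _ hx1
  · omega
  · have : n * (n + 1) ≤ x ^ 2 := by
      rw [pow_two]; exact Nat.mul_le_mul (by omega) (by omega)
    exact this.trans (W2 hx1 (by omega))
  · have h1 : 2 ^ n + 2 * n ≤ 2 ^ (x + 1) := by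
      have h2 : 2 ^ n ≤ 2 ^ x := Nat.pow_le_pow_right (by norm_num) (by omega)
      have h3 : 2 * n ≤ 2 ^ x := by
        obtain ⟨y, rfl⟩ : ∃ y, x = y + 1 := ⟨x - 1, by omega⟩
        have h3 : y + 1 ≤ 2 ^ y := Nat.lt_pow_self (by norm_num)
        rw [pow_succ]
        omega
      rw [pow_succ]; omega
    refine W1 h1 ?_
    have := lin_le' (c := c) hx1 (d := 2) (by omega)
    omega
  · show 2 + x ^ 3 * Nat.size (x ^ k3) ≤ 2 + x ^ 3 * (Nat.size (x ^ k3) + 1)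
    exact Nat.add_le_add_left (Nat.mul_le_mul_left _ (Nat.le_succ _)) _
  · show 2 * (2 + x ^ 3 * (Nat.size (x ^ k3) + 1)) ≤ _
    calc 2 * (2 + x ^ 3 * (Nat.size (x ^ k3) + 1)) ≤ 2 * ((k3 + 2) * x ^ 4) :=
          Nat.mul_le_mul_left _ hE
      _ = (2 * k3 + 4) * x ^ 4 := by ring
      _ ≤ c * x ^ c := Λ1 hx1 (by omega) (by omega)
  · omega
  · show Nat.size n ≤ _
    have : Nat.size n ≤ n := Nat.size_le.2 (Nat.lt_pow_self (by norm_num))
    omega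
  · show 2 ^ Nat.size n ≤ _
    omega
  · exact h1Λ (by omega)
  · exact h1Λ (by omega)
  · exact h1Λ (by omega)
  · show (2 + x ^ 3 * (Nat.size (x ^ k3) + 1)) + Nat.size (x ^ k3) ≤ _
    have h1 : k3 * x + 1 ≤ (k3 + 1) * x ^ 4 := by
      have h4 : x ≤ x ^ 4 := by
        calc x = x ^ 1 := (pow_one x).symm
          _ ≤ x ^ 4 := Nat.pow_le_pow_right hx1 (by norm_num)
      have h5 : k3 * x ≤ k3 * x ^ 4 := Nat.mul_le_mul_left _ h4
      have h6 : (k3 + 1) * x ^ 4 = k3 * x ^ 4 + x ^ 4 := by ring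
      omega
    have h2 : (2 + x ^ 3 * (Nat.size (x ^ k3) + 1)) + Nat.size (x ^ k3) ≤ (2 * k3 + 3) * x ^ 4 := by
      have h6 : (2 * k3 + 3) * x ^ 4 = (k3 + 2) * x ^ 4 + (k3 + 1) * x ^ 4 := by ring
      omega
    exact W1 (h2.trans (le_pow_self2 _)) (lin_le hx1 (by omega) (by norm_num))
  · show 2 ^ (k4 * x) * ((4 * n) ^ (3 * x ^ 3 * n) *
      2 ^ (2 * (2 + x ^ 3 * (Nat.size (x ^ k3) + 1)))) ≤ _
    have h1 : (4 * n) ^ (3 * x ^ 3 * n) ≤ 2 ^ (3 * x ^ 5) := by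
      refine (pow4n hn _).trans (Nat.pow_le_pow_right (by norm_num) ?_)
      have : x * (3 * x ^ 3 * n) ≤ x * (3 * x ^ 3 * x) :=
        Nat.mul_le_mul_left _ (Nat.mul_le_mul_left _ (by omega))
      calc x * (3 * x ^ 3 * n) ≤ x * (3 * x ^ 3 * x) := this
        _ = 3 * x ^ 5 := by ring
    have h2 : 2 ^ (2 * (2 + x ^ 3 * (Nat.size (x ^ k3) + 1))) ≤ 2 ^ ((2 * k3 + 4) * x ^ 4) := by
      refine Nat.pow_le_pow_right (by norm_num) ?_
      calc 2 * (2 + x ^ 3 * (Nat.size (x ^ k3) + 1)) ≤ 2 * ((k3 + 2) * x ^ 4) :=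
            Nat.mul_le_mul_left _ hE
        _ = (2 * k3 + 4) * x ^ 4 := by ring
    have h3 : 2 ^ (k4 * x) * ((4 * n) ^ (3 * x ^ 3 * n) *
        2 ^ (2 * (2 + x ^ 3 * (Nat.size (x ^ k3) + 1)))) ≤
        2 ^ (k4 * x + (3 * x ^ 5 + (2 * k3 + 4) * x ^ 4)) := by
      rw [pow_add, pow_add]
      exact Nat.mul_le_mul_left _ (Nat.mul_le_mul h1 h2)
    refine W1 h3 ?_
    have h4 : k4 * x ≤ k4 * x ^ 5 := lin_le' hx1 le_rfl
    have h5 : (2 * k3 + 4) * x ^ 4 ≤ (2 * k3 + 4) * x ^ 5 := lin_le hx1 le_rfl (by norm_num)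
    have h6 : (k4 + 3 + (2 * k3 + 4)) * x ^ 5 ≤ c * x ^ 5 := Nat.mul_le_mul_right _ (by omega)
    have h7 : (k4 + 3 + (2 * k3 + 4)) * x ^ 5 =
      k4 * x ^ 5 + 3 * x ^ 5 + (2 * k3 + 4) * x ^ 5 := by ring
    omega

theorem out_ok (hn : 8 + n ≤ x) :
    2 ^ n * (parX k1 k2 k3 k4 n x).S ^ (parX k1 k2 k3 k4 n x).L ≤
      2 ^ (cc k1 k2 k3 k4 * x ^ 5) := by
  have hx1 : 1 ≤ x := by omega
  have hcv : cc k1 k2 k3 k4 = 2 * (k1 + k2 + k3 + k4) + 20 := rfl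
  show 2 ^ n * (x ^ k3) ^ (x ^ 3) ≤ _
  have h1 : (x ^ k3) ^ (x ^ 3) ≤ 2 ^ (k3 * x ^ 4) := by
    calc (x ^ k3) ^ (x ^ 3) ≤ (2 ^ (k3 * x)) ^ (x ^ 3) := Nat.pow_le_pow_left (xpow_le x k3) _
      _ = 2 ^ (k3 * x ^ 4) := by rw [← pow_mul]; congr 1; ring
  have h2 : 2 ^ n * (x ^ k3) ^ (x ^ 3) ≤ 2 ^ (n + k3 * x ^ 4) := by
    rw [pow_add]; exact Nat.mul_le_mul_left _ h1
  refine W1 h2 ?_
  have h3 : k3 * x ^ 4 ≤ k3 * x ^ 5 := lin_le hx1 le_rfl (by norm_num)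
  have h4 : 1 * x ≤ 1 * x ^ 5 := lin_le' hx1 le_rfl
  have h5 : (k3 + 1) * x ^ 5 ≤ cc k1 k2 k3 k4 * x ^ 5 := Nat.mul_le_mul_right _ (by omega)
  have h6 : (k3 + 1) * x ^ 5 = k3 * x ^ 5 + x ^ 5 := by ring
  omega

end

/-! ### the program -/

open Classical in
/-- the law of the output -/
noncomputable def lawX (k1 k2 k3 k4 : ℕ) {n : ℕ} (I : Inst n) (I1 I2 : Finset ℕ → Prop)
    (a b : ℕ) : PMF (ℤ × ℤ) :=
  if n = 0 then PMF.pure (1, 1)
  else if rkN I1 (Finset.univ : Finset (Fin n)) = rkN I2 (Finset.univ : Finset (Fin n)) then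
    mainK I (parX k1 k2 k3 k4 n (baseX n a b))
  else PMF.pure (0, 1)

theorem progC_sim {k1 k2 k3 k4 a b : ℕ} {I : Inst n} {I1 I2 : Finset ℕ → Prop} {M : Mem}
    (hn : M 0 0 0 = n) (ha : M 0 1 0 = a) (hb : M 0 2 0 = b) (h9 : M 9 = fun _ _ => 0)
    (o1 : Orac n 1 I1 M) (o2 : Orac n 2 I2 M)
    (hI : InstOK I I1 I2) (hr : I.r = rkN I2 (Finset.univ : Finset (Fin n))) :
    Sim (2 ^ (cc k1 k2 k3 k4 * baseX n a b ^ 5))
      (cc k1 k2 k3 k4 * baseX n a b ^ cc k1 k2 k3 k4) (progC k1 k2 k3 k4) M outF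
      (lawX k1 k2 k3 k4 I I1 I2 a b) (fun _ => True) := by
  set x := baseX n a b with hx
  have hnx : 8 + n ≤ x := by rw [hx]; unfold baseX; omega
  have h1W : 1 ≤ 2 ^ (cc k1 k2 k3 k4 * x ^ 5) := Nat.one_le_two_pow
  unfold lawX
  refine Sim.ite (fun h => ?_) (fun h => ?_)
  · simp only [Expr.val, hn] at h
    have hn0 : n ≠ 0 := by rintro rfl; simp at h
    rw [if_neg hn0]
    have hn1 : 1 ≤ n := Nat.pos_of_ne_zero hn0
    have hG := bndG_ok (k1 := k1) (k2 := k2) (k3 := k3) (k4 := k4) hn1 hnx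
    have hSB := setB_ok (k1 := k1) (k2 := k2) (k3 := k3) (k4 := k4) hn1 hnx
    have h2n : 2 ^ n ≤ 2 ^ (cc k1 k2 k3 k4 * x ^ 5) := by
      have := hG.two
      omega
    refine Det.seqSim (rksC_det hn o1 o2 hG.nΛ h2n) ?_
    rintro M1 ⟨a1, a2, a3, a4⟩
    have v1 : (Expr.sub (.v 10) (.v 20)).val M1 = (rkN I2 (Finset.univ : Finset (Fin n)) : ℤ) -
        (rkN I1 (Finset.univ : Finset (Fin n)) : ℤ) := by
      simp only [Expr.val, a2, a3]
    have v2 : (Expr.sub (.v 20) (.v 10)).val M1 = (rkN I1 (Finset.univ : Finset (Fin n)) : ℤ) -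
        (rkN I2 (Finset.univ : Finset (Fin n)) : ℤ) := by
      simp only [Expr.val, a2, a3]
    refine Sim.ite (fun h1 => ?_) (fun h1 => ?_)
    · rw [v1] at h1
      rw [if_neg (by omega)]
      exact ((out0_det h1W).sim (f := outF) fun M' h => h).mono fun _ _ => trivial
    refine Sim.ite (fun h2 => ?_) (fun h2 => ?_)
    · rw [v2] at h2
      rw [if_neg (by omega)]
      exact ((out0_det h1W).sim (f := outF) fun M' h => h).mono fun _ _ => trivial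
    rw [v1] at h1
    rw [v2] at h2
    rw [if_pos (by omega)]
    have e0 : Env0 I I1 I2 M1 :=
      ⟨by rw [a4 0 (by decide)]; exact hn, a1, o1.congr (a4 1 (by decide)),
        o2.congr (a4 2 (by decide)), by rw [a2, hr]⟩
    refine Det.seqSim (setupC_det e0 (by rw [a4 0 (by decide)]; exact ha)
      (by rw [a4 0 (by decide)]; exact hb) hx hSB) ?_
    rintro M2 ⟨b1', b2, b3⟩
    refine runC_sim hI b1' hG b2 ?_ ?_ (out_ok hnx)
    · rw [b3, a4 9 (by decide)]; exact h9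
    · exact Nat.one_le_pow _ _ (by omega)
  · simp only [Expr.val, hn] at h
    have hn0 : n = 0 := by omega
    rw [if_pos hn0]
    exact ((out1_det h1W).sim (f := outF) fun M' h => h).mono fun _ _ => trivial

/-- **The program: law of the output and polynomial time.** -/
theorem progC_final (k1 k2 k3 k4 : ℕ) : ∃ C : ℕ, ∀ (n a b : ℕ) (I : Inst n)
    (I1 I2 : Finset ℕ → Prop) (M : Mem), M 0 0 0 = n → M 0 1 0 = a → M 0 2 0 = b →
    (M 9 = fun _ _ => 0) → Orac n 1 I1 M → Orac n 2 I2 M → InstOK I I1 I2 →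
    I.r = rkN I2 (Finset.univ : Finset (Fin n)) →
    (∀ y i j, |M y i j| ≤ ((n + a + b + 1 : ℕ) : ℤ)) →
    ∀ t, ((progC k1 k2 k3 k4).run (M, t)).map (fun s => outF s.1) =
      lawX k1 k2 k3 k4 I I1 I2 a b ∧
      ∀ s ∈ ((progC k1 k2 k3 k4).run (M, t)).support, s.2 ≤ t + C * baseX n a b ^ C := by
  set c := cc k1 k2 k3 k4 with hc
  set c0 := (progC k1 k2 k3 k4).K with hc0
  set dep := (progC k1 k2 k3 k4).depth with hdep
  refine ⟨c0 * ((c + 2) ^ 2 * (c + 1) ^ dep) + (10 + c * dep), ?_⟩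
  intro n a b I I1 I2 M hn ha hb h9 o1 o2 hI hr hB t
  have hcv : c = 2 * (k1 + k2 + k3 + k4) + 20 := rfl
  set x := baseX n a b with hx
  have hxv : x = 8 + n + a + Nat.size b := rfl
  have hx1 : 1 ≤ x := by omega
  have hBdd : Bdd (2 ^ (c * x ^ 5)) M := by
    intro y i j
    refine (hB y i j).trans ?_
    have hd2 : b ≤ 2 ^ x :=
      (Nat.lt_size_self b).le.trans (Nat.pow_le_pow_right (by norm_num) (by omega))
    have e4 := le_pow_self2 x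
    have e5 : n + a + b + 1 ≤ 2 ^ (x + 2) := by rw [pow_add]; omega
    have e6 : 2 ^ (x + 2) ≤ 2 ^ (c * x ^ 5) := by
      refine Nat.pow_le_pow_right (by norm_num) ?_
      have := lin_le' (c := c) hx1 (d := 3) (by omega)
      omega
    exact_mod_cast e5.trans e6
  have hsim := progC_sim (k1 := k1) (k2 := k2) (k3 := k3) (k4 := k4) hn ha hb h9 o1 o2 hI hr hBdd t
  refine ⟨hsim.1, fun s hs => ?_⟩
  have htime := (hsim.2 s hs).2.2
  refine htime.trans (Nat.add_le_add_left ?_ t)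
  have hT := Cmd.T_le (2 ^ (c * x ^ 5)) (c * x ^ c) (progC k1 k2 k3 k4)
  rw [← hc0, ← hdep] at hT
  refine hT.trans ?_
  have hbits : bits (((2 ^ (c * x ^ 5) : ℕ)) : ℤ) = c * x ^ 5 + 2 := by
    unfold bits
    rw [Int.natAbs_natCast, Nat.size_pow]
  rw [hbits]
  have g1 : c * x ^ 5 + 2 ≤ (c + 2) * x ^ 5 := by
    have h120 : 1 ≤ x ^ 5 := Nat.one_le_pow _ _ hx1
    calc c * x ^ 5 + 2 ≤ c * x ^ 5 + 2 * x ^ 5 := by omega
      _ = (c + 2) * x ^ 5 := by ring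
  have g2 : c * x ^ c + 1 ≤ (c + 1) * x ^ c := by
    have h130 : 1 ≤ x ^ c := Nat.one_le_pow _ _ hx1
    calc c * x ^ c + 1 ≤ c * x ^ c + x ^ c := by omega
      _ = (c + 1) * x ^ c := by ring
  set C := c0 * ((c + 2) ^ 2 * (c + 1) ^ dep) with hC
  set e := 10 + c * dep with he
  calc c0 * ((c * x ^ 5 + 2) ^ 2 * (c * x ^ c + 1) ^ dep)
      ≤ c0 * (((c + 2) * x ^ 5) ^ 2 * ((c + 1) * x ^ c) ^ dep) :=
        Nat.mul_le_mul_left _ (Nat.mul_le_mul (Nat.pow_le_pow_left g1 2)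
          (Nat.pow_le_pow_left g2 dep))
    _ = C * x ^ e := by
        have p1 : (x ^ 5) ^ 2 = x ^ 10 := by rw [← pow_mul]
        have p2 : (x ^ c) ^ dep = x ^ (c * dep) := by rw [← pow_mul]
        rw [hC, he, mul_pow, mul_pow, p1, p2, pow_add x 10]
        ring
    _ ≤ (C + e) * x ^ (C + e) :=
        Nat.mul_le_mul (Nat.le_add_right _ _) (Nat.pow_le_pow_right hx1 (Nat.le_add_left _ _))

end Vale.Agent.P317RAM
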