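import Vale.Agent.P328RAM.Lang

/-!
# Randomized programs with oracles, with bit cost

The machine of `Vale/Agent/P328RAM/Lang.lean` (finitely many named two-dimensional arrays of
integers; assignments, fair coin flips, sequencing, conditionals and counted loops; logarithmic
bit cost), with one more kind of expression: `ask k e` puts the question coded by the value of `e`
to the oracle number `k`.  Evaluating the question is charged as every other expression (at least
its binary length, up to one), and the call itself costs `1` plus the length of the answer.  So
the running time also bounds the number of oracle calls.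
-/

namespace Vale.Agent.P317RAM

open Vale.Agent.P328RAM (Mem bits coin iterBind)

/-- The oracles: `O k x` is the answer of the oracle number `k` to the question `x`. -/
abbrev Oracle := ℕ → ℤ → ℤ

/-- Integer expressions. -/
inductive OExpr where
  /-- an integer constant -/
  | lit (k : ℤ)
  /-- the content of the cell `(i, j)` of the array `a` -/
  | get (a : ℕ) (i j : OExpr)
  /-- sum -/
  | add (e f : OExpr)
  /-- difference -/
  | sub (e f : OExpr)
  /-- product -/
  | mul (e f : OExpr)
  /-- quotient, rounded down for a positive divisor -/
  | div (e f : OExpr)
  /-- number of binary digits of the absolute value -/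
  | size (e : OExpr)
  /-- the answer of the oracle number `k` to the question `e` -/
  | ask (k : ℕ) (e : OExpr)

/-- The value of an expression in a memory. -/
def OExpr.val (O : Oracle) (M : Mem) : OExpr → ℤ
  | .lit k => k
  | .get a i j => M a (i.val O M) (j.val O M)
  | .add e f => e.val O M + f.val O M
  | .sub e f => e.val O M - f.val O M
  | .mul e f => e.val O M * f.val O M
  | .div e f => e.val O M / f.val O M
  | .size e => ((e.val O M).natAbs.size : ℤ)
  | .ask k e => O k (e.val O M)

/-- The time needed to evaluate an expression. -/
def OExpr.cost (O : Oracle) (M : Mem) : OExpr → ℕ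
  | .lit k => bits k
  | .get a i j => i.cost O M + j.cost O M + bits (M a (i.val O M) (j.val O M))
  | .add e f => e.cost O M + f.cost O M + bits (e.val O M + f.val O M)
  | .sub e f => e.cost O M + f.cost O M + bits (e.val O M - f.val O M)
  | .mul e f => e.cost O M + f.cost O M + bits (e.val O M) * bits (f.val O M)
  | .div e f => e.cost O M + f.cost O M + bits (e.val O M) * bits (f.val O M)
  | .size e => e.cost O M + bits (e.val O M)
  | .ask k e => e.cost O M + bits (O k (e.val O M)) + 1

/-- Commands. -/
inductive OCmd where
  /-- store the value of `e` in the cell `(i, j)` of the array `a` -/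
  | set (a : ℕ) (i j e : OExpr)
  /-- store the outcome (`0` or `1`) of a fair coin flip in the cell `(0, 0)` of the array `a` -/
  | flip (a : ℕ)
  /-- first `c`, then `d` -/
  | seq (c d : OCmd)
  /-- if `e` is positive then `c`, otherwise `d` -/
  | ite (e : OExpr) (c d : OCmd)
  /-- evaluate `e` once, to `k`, and then run `c` exactly `k` times (not at all if `k` is negative) -/
  | rep (e : OExpr) (c : OCmd)

/-- The semantics: a state is a memory with the time used so far; running a command in a state
gives a random state. -/
noncomputable def OCmd.run (O : Oracle) : OCmd → Mem × ℕ → PMF (Mem × ℕ)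
  | .set a i j e, s =>
      PMF.pure (s.1.write a (i.val O s.1) (j.val O s.1) (e.val O s.1),
        s.2 + i.cost O s.1 + j.cost O s.1 + e.cost O s.1 + 1)
  | .flip a, s => coin.map fun z => (s.1.write a 0 0 z, s.2 + 1)
  | .seq c d, s => (c.run O s).bind (d.run O)
  | .ite e c d, s =>
      if 0 < e.val O s.1 then c.run O (s.1, s.2 + e.cost O s.1 + 1)
      else d.run O (s.1, s.2 + e.cost O s.1 + 1)
  | .rep e c, s =>
      iterBind (fun s' => c.run O (s'.1, s'.2 + 1)) (e.val O s.1).toNat
        (s.1, s.2 + e.cost O s.1 + 1)

end Vale.Agent.P317RAM
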