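import Vale.Agent.P317RAM.RandT

/-!
# Passes and observations
-/

namespace Vale.Agent.P317RAM

open Vale.Agent.P328RAM PMF
open Vale.Agent.P317R (St A1 A2 Perf Cls IsSt npair cl null Wt Inst Par Tb exq stepK stepJ randT
  passK obsK cntK updT learnK estS estP estK outV mainK)

variable {W Λ n : ℕ}

/-- the constants of the memory -/
structure Cst (I : Inst n) (I1 I2 : Finset ℕ → Prop) (p : Par) (M : Mem) : Prop extends
    Env0 I I1 I2 M where
  E0 : M 19 0 0 = p.E0
  pa : ∀ k : ℕ, k ≤ p.L → M 16 k 0 = (((4 * n - 1) ^ k : ℕ) : ℤ)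
  pb : ∀ k : ℕ, k ≤ p.L → M 17 k 0 = (((4 * n) ^ k : ℕ) : ℤ)
  K : M 35 0 0 = p.K
  Bn : M 36 0 0 = p.Bn
  K2 : M 37 0 0 = ((2 ^ p.K : ℕ) : ℤ)
  s : M 38 0 0 = p.s
  T : M 39 0 0 = p.T
  S : M 40 0 0 = p.S
  L : M 41 0 0 = p.L

theorem Cst.same {I : Inst n} {I1 I2 : Finset ℕ → Prop} {p : Par} {M M' : Mem}
    (h : Cst I I1 I2 p M) {L : List ℕ} (hM : Same L M M')
    (hL : ∀ a ∈ [0, 1, 2, 4, 10, 16, 17, 19, 35, 36, 37, 38, 39, 40, 41], a ∉ L) :
    Cst I I1 I2 p M' := by
  simp only [List.mem_cons, List.not_mem_nil, or_false, forall_eq_or_imp, forall_eq] at hL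
  obtain ⟨l0, l1, l2, l4, l10, l16, l17, l19, l35, l36, l37, l38, l39, l40, l41⟩ := hL
  refine ⟨h.toEnv0.same hM ?_, by rw [hM 19 l19]; exact h.E0,
    by rw [hM 16 l16]; exact h.pa, by rw [hM 17 l17]; exact h.pb, by rw [hM 35 l35]; exact h.K,
    by rw [hM 36 l36]; exact h.Bn, by rw [hM 37 l37]; exact h.K2, by rw [hM 38 l38]; exact h.s,
    by rw [hM 39 l39]; exact h.T, by rw [hM 40 l40]; exact h.S, by rw [hM 41 l41]; exact h.L⟩
  simp [l0, l1, l2, l4, l10]

/-- the table of the level `k` in the memory -/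
def TabAt (k : ℕ) (t : Tb n) (M : Mem) : Prop :=
  ∀ i j : Fin n, M 7 k (((i : ℕ) * n + (j : ℕ) : ℕ) : ℤ) = t (i, j)

theorem TabAt.congr {k : ℕ} {t : Tb n} {M M' : Mem} (h : TabAt k t M) (hM : M' 7 = M 7) :
    TabAt k t M' := by
  unfold TabAt
  rw [hM]
  exact h

theorem Cst.envS {I : Inst n} {I1 I2 : Finset ℕ → Prop} {p : Par} {M : Mem} {k : ℕ} {t : Tb n}
    (h : Cst I I1 I2 p M) (hk : k ≤ p.L) (ht : TabAt k t M) (h18 : M 18 0 0 = k) :
    EnvS I I1 I2 p k t M :=
  { h.toEnv0 with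
    lev := h18, E0 := h.E0, pa := h.pa k hk, pb := h.pb k hk, tab := ht, K := h.K, Bn := h.Bn
    K2 := h.K2, s := h.s }

/-- the bounds for all levels -/
structure BndL (W Λ n : ℕ) (p : Par) (t : ℕ → Tb n) (l Em : ℕ) : Prop where
  lev : ∀ k ≤ l, BndS W Λ n p k (t k) Em
  lL : l ≤ p.L
  LW : p.L + 1 ≤ W
  LΛ : p.L + 1 ≤ Λ
  TΛ : p.T ≤ Λ
  n1 : 1 ≤ n
  nW : n ≤ W
  nΛ : n ≤ Λ

/-- a pass to the level in the scalar `43` -/
def passC (jC : Cmd) : Cmd :=
  .seq randTC (.forL 44 (.v 43) (.seq (.setv 18 (.add (.v 44) (.lit 1))) (.rep (.v 39) jC)))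

/-- the arrays changed by a pass -/
def passL : List ℕ := stepL ++ [15, 18, 44]

theorem not_Wr {c : Cmd} (h : ∀ a ∈ c.Wr, a ∈ stepL) {a : ℕ} (ha : a ∉ stepL) : a ∉ c.Wr :=
  fun h' => ha (h a h')

theorem passC_Wr {jC : Cmd} (h : ∀ a ∈ jC.Wr, a ∈ stepL) : ∀ a ∈ (passC jC).Wr, a ∈ passL := by
  intro a ha
  simp only [passC, randTC, Cmd.Wr_seq, Cmd.Wr_forL, Cmd.Wr_set, Cmd.Wr_flip, Cmd.Wr_rep,
    List.mem_append, List.mem_cons, List.not_mem_nil, or_false] at ha
  have h' : a ∈ jC.Wr → a ∈ passL := fun h1 => List.mem_append_left _ (h a h1)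
  have key : ∀ b ∈ [5, 13, 15, 18, 44], b ∈ passL := by decide
  rcases ha with (ha | ha | ha) | (ha | (ha | ha) | ha)
  all_goals first
    | exact h' ha
    | (apply key; simp only [List.mem_cons, List.not_mem_nil, or_false]; tauto)

theorem passC_sim {jC : Cmd} (hJ : JOK jC) {I : Inst n} {I1 I2 : Finset ℕ → Prop} {p : Par}
    {t : ℕ → Tb n} {l Em : ℕ} {M : Mem} (hI : InstOK I I1 I2) (hC : Cst I I1 I2 p M)
    (h43 : M 43 0 0 = l) (hT : ∀ k ≤ l, TabAt k (t k) M) (hb : BndL W Λ n p t l Em) :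
    Sim W Λ (passC jC) M (obs n 5) (passK I p t l)
      (fun M' => Z01 n 5 M' ∧ Same passL M M') := by
  have hW1 : 1 ≤ W := le_trans hb.n1 hb.nW
  unfold passK
  refine Sim.seq (R := fun M' => Z01 n 5 M' ∧ Same passL M M')
    ((randTC_sim hC.n0 hb.nW hb.nΛ hW1).mono ?_) ?_
  · rintro M' ⟨g1, g2⟩
    exact ⟨g1, g2.mono (by decide)⟩
  rintro M1 ⟨a1, a2⟩
  have h43' : M1 43 0 0 = l := by rw [a2 43 (by decide)]; exact h43
  refine Sim.forL (fun k => iterBind (stepJ I p (k + 1) (t (k + 1))) p.T)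
    (fun _ M' => Z01 n 5 M' ∧ Same passL M M') l ?_ ?_ ?_ ?_ ?_ ?_ ⟨a1, a2⟩ ?_ (fun M' _ h => h)
  · have : (Expr.v 43).val (M1.write 44 0 0 0) = l := by
      simp only [Expr.val]
      rw [Mem.write_arr _ (by norm_num)]; exact h43'
    rw [this]; simp
  · have := hb.lL; have := hb.LΛ; omega
  · have := hb.lL; have := hb.LW; omega
  · simp only [Cmd.Wr_seq, Cmd.Wr_set, Cmd.Wr_rep, List.mem_append, List.mem_singleton, not_or]
    exact ⟨by norm_num, not_Wr hJ.1 (by decide)⟩
  · intro M' z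
    exact obs_congr (Mem.write_arr _ (by norm_num) _ _ _)
  · rintro k M' z ⟨g1, g2⟩
    exact ⟨Z01_congr (Mem.write_arr _ (by norm_num) _ _ _) g1, g2.write (by decide) _ _ _⟩
  · rintro k hk M' g0 ⟨g1, g2⟩
    have hkL : k + 1 ≤ p.L := by have := hb.lL; omega
    refine Det.seqSim (R := fun M'' => M'' = M'.write 18 0 0 ((k + 1 : ℕ) : ℤ)) (Det.setv ?_ ?_) ?_
    · simp only [Expr.val, g0]
      rw [abs_of_nonneg (by positivity)]
      have := hb.LW
      have : k + 1 ≤ W := by omega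
      exact_mod_cast this
    · simp only [Expr.val, g0]
      push_cast
      rfl
    rintro M2 rfl
    set M2 := M'.write 18 0 0 ((k + 1 : ℕ) : ℤ) with hM2
    have hs2 : Same passL M M2 := g2.write (by decide) _ _ _
    have hobs : obs n 5 M2 = obs n 5 M' := obs_congr (Mem.write_arr _ (by norm_num) _ _ _)
    have hz2 : Z01 n 5 M2 := Z01_congr (Mem.write_arr _ (by norm_num) _ _ _) g1
    rw [← hobs]
    refine Sim.rep (stepJ I p (k + 1) (t (k + 1)))
      (fun _ M3 => (Z01 n 5 M3 ∧ Same passL M M3) ∧ M3 18 0 0 = ((k + 1 : ℕ) : ℤ)) p.T ?_ hb.TΛ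
      ⟨⟨hz2, hs2⟩, by simp [hM2]⟩ ?_ (fun M3 h => h.1)
    · have : M2 39 0 0 = p.T := by rw [hs2 39 (by decide)]; exact hC.T
      simp [Expr.val, this]
    · rintro i hi M3 ⟨⟨q1, q2⟩, q3⟩
      have hC3 : Cst I I1 I2 p M3 := hC.same q2 (by decide)
      have hT3 : TabAt (k + 1) (t (k + 1)) M3 :=
        (hT (k + 1) (by omega)).congr (q2 7 (by decide))
      refine ((hJ.2 n I I1 I2 p (k + 1) (t (k + 1)) M3 Em W Λ hI (hC3.envS hkL hT3 q3)
        (hb.lev (k + 1) (by omega)) q1)).mono ?_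
      rintro M4 ⟨e1, e2⟩
      exact ⟨⟨e1, q2.trans (e2.mono (fun a ha => List.mem_append_left _ ha))⟩,
        by rw [e2 18 (by decide)]; exact q3⟩

/-! ### Counters of the classes -/

/-- the counters in the memory -/
def obsCnt (n : ℕ) (M : Mem) : Option (Fin n × Fin n) → ℕ := fun o =>
  o.elim (M 42 0 0).toNat (fun ij => (M 8 (((ij.1 : ℕ) * n + (ij.2 : ℕ) : ℕ) : ℤ) 0).toNat)

/-- all counters are between `0` and `b` -/
def CntLe (n : ℕ) (b : ℕ) (M : Mem) : Prop :=
  (0 ≤ M 42 0 0 ∧ M 42 0 0 ≤ b) ∧ ∀ ij : Fin n × Fin n,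
    0 ≤ M 8 (((ij.1 : ℕ) * n + (ij.2 : ℕ) : ℕ) : ℤ) 0 ∧
      M 8 (((ij.1 : ℕ) * n + (ij.2 : ℕ) : ℕ) : ℤ) 0 ≤ b

theorem pair_inj {i j i' j' : Fin n} (h : (i : ℕ) * n + (j : ℕ) = (i' : ℕ) * n + (j' : ℕ)) :
    i = i' ∧ j = j' := by
  have hn : 0 < n := lt_of_le_of_lt (Nat.zero_le _) i.2
  have h1 : ((i : ℕ) * n + (j : ℕ)) / n = i := by
    rw [mul_comm, Nat.mul_add_div hn, Nat.div_eq_of_lt j.2, add_zero]
  have h2 : ((i' : ℕ) * n + (j' : ℕ)) / n = i' := by
    rw [mul_comm, Nat.mul_add_div hn, Nat.div_eq_of_lt j'.2, add_zero]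
  have h3 : (i : ℕ) = i' := by rw [← h1, ← h2, h]
  refine ⟨Fin.ext h3, Fin.ext ?_⟩
  rw [h3] at h
  omega

/-- count the class of the state, from the results of `classC` -/
def incC : Cmd :=
  .ite (.sub (.mul (.v 24) (.v 28)) (.lit 1)) (.setv 42 (.add (.v 42) (.lit 1)))
    (.ite (.mul (.v 24) (.v 28))
      (.set 8 (.add (.mul (.v 25) (.v 0)) (.v 26)) (.lit 0)
        (.add (.get 8 (.add (.mul (.v 25) (.v 0)) (.v 26)) (.lit 0)) (.lit 1)))
      (.setv 42 (.add (.v 42) (.lit 1))))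

theorem incC_det {M : Mem} {B : St n} {b : ℕ} (hn : M 0 0 0 = n) (hc : ClassOut B M)
    (hb : CntLe n b M) (hW : b + 1 ≤ W) :
    Det W Λ incC M (fun M' => obsCnt n M' =
        Function.update (obsCnt n M) (cl B) (obsCnt n M (cl B) + 1) ∧ CntLe n (b + 1) M' ∧
        Same [8, 42] M M') := by
  obtain ⟨c1, c2, c3, c4, -⟩ := hc
  obtain ⟨⟨hb1, hb2⟩, hb3⟩ := hb
  have hnone : ¬ ((dblS B).card = 1 ∧ (empS B).card = 1) →
      Det W Λ (.setv 42 (.add (.v 42) (.lit 1))) M (fun M' => obsCnt n M' =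
        Function.update (obsCnt n M) (cl B) (obsCnt n M (cl B) + 1) ∧ CntLe n (b + 1) M' ∧
        Same [8, 42] M M') := by
    intro h
    rw [cl_none h]
    refine Det.setv ?_ ⟨?_, ⟨⟨?_, ?_⟩, ?_⟩, (Same.refl _ _).write (by simp) _ _ _⟩
    · simp only [Expr.val]
      rw [abs_of_nonneg (by omega)]
      have : (b : ℤ) + 1 ≤ W := by exact_mod_cast hW
      omega
    · funext o
      rcases o with _ | ij
      · simp only [Function.update_self, obsCnt, Option.elim, Expr.val, Mem.write_self]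
        omega
      · rw [Function.update_of_ne (by simp)]
        simp only [obsCnt, Option.elim]
        rw [Mem.write_arr _ (by norm_num)]
    · simp only [Expr.val, Mem.write_self]; omega
    · simp only [Expr.val, Mem.write_self]; push_cast; omega
    · intro ij
      rw [Mem.write_arr _ (by norm_num)]
      have := hb3 ij
      omega
  refine Det.ite (fun h1 => ?_) (fun h1 => ?_)
  · simp only [Expr.val, c1, c2] at h1
    have h2' : 1 < (dblS B).card * (empS B).card := by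
      have : (1 : ℤ) < (((dblS B).card * (empS B).card : ℕ) : ℤ) := by push_cast; linarith
      exact_mod_cast this
    exact hnone (by rintro ⟨q1, q2⟩; rw [q1, q2] at h2'; omega)
  · simp only [Expr.val, c1, c2] at h1
    have h2' : (dblS B).card * (empS B).card ≤ 1 := by
      have : (((dblS B).card * (empS B).card : ℕ) : ℤ) ≤ 1 := by push_cast; linarith
      exact_mod_cast this
    refine Det.ite (fun h3 => ?_) (fun h3 => ?_)
    · simp only [Expr.val, c1, c2] at h3
      have h3' : 0 < (dblS B).card * (empS B).card := by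
        have : (0 : ℤ) < (((dblS B).card * (empS B).card : ℕ) : ℤ) := by push_cast; exact h3
        exact_mod_cast this
      have h4 : (dblS B).card * (empS B).card = 1 := by omega
      obtain ⟨i, hi⟩ := Finset.card_eq_one.mp (Nat.eq_one_of_mul_eq_one_right h4)
      obtain ⟨j, hj⟩ := Finset.card_eq_one.mp (Nat.eq_one_of_mul_eq_one_left h4)
      have hcls : Cls (i, j) B := cls_iff.2 ⟨hi, hj⟩
      have hi' : ∑ i ∈ dblS B, (i : ℕ) = i := by rw [hi, Finset.sum_singleton]
      have hj' : ∑ i ∈ empS B, (i : ℕ) = j := by rw [hj, Finset.sum_singleton]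
      rw [cl_of_cls hcls]
      have hidx : (Expr.add (.mul (.v 25) (.v 0)) (.v 26)).val M =
          ((((i : ℕ) * n + (j : ℕ) : ℕ)) : ℤ) := by
        simp only [Expr.val, c3, c4, hn, hi', hj']
        push_cast; ring
      have hv : (Expr.add (.get 8 (.add (.mul (.v 25) (.v 0)) (.v 26)) (.lit 0)) (.lit 1)).val M =
          M 8 (((i : ℕ) * n + (j : ℕ) : ℕ) : ℤ) 0 + 1 := by
        show M 8 ((Expr.add (.mul (.v 25) (.v 0)) (.v 26)).val M) 0 + 1 = _
        rw [hidx]
      have hij := hb3 (i, j)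
      simp only [] at hij
      refine Det.set ?_ ?_
      · rw [hv, abs_of_nonneg (by omega)]
        have : (b : ℤ) + 1 ≤ W := by exact_mod_cast hW
        omega
      · rw [hv, hidx]
        simp only [Expr.val]
        refine ⟨?_, ⟨?_, ?_⟩, (Same.refl _ _).write (by simp) _ _ _⟩
        · funext o
          rcases o with _ | ij
          · rw [Function.update_of_ne (by simp)]
            simp only [obsCnt, Option.elim]
            rw [Mem.write_arr _ (by norm_num)]
          · by_cases hij' : ij = (i, j)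
            · subst hij'
              simp only [Function.update_self, obsCnt, Option.elim, Mem.write_self]
              omega
            · rw [Function.update_of_ne (by simpa using hij')]
              simp only [obsCnt, Option.elim]
              rw [Mem.write_cell]
              rintro ⟨h5, -⟩
              have h6 := pair_inj (by exact_mod_cast h5 :
                ((ij.1 : ℕ) * n + (ij.2 : ℕ)) = (i : ℕ) * n + (j : ℕ))
              exact hij' (Prod.ext h6.1 h6.2)
        · rw [Mem.write_arr _ (by norm_num)]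
          push_cast
          omega
        · intro ij
          by_cases hij' : ij = (i, j)
          · subst hij'
            simp only [Mem.write_self]
            omega
          · rw [Mem.write_cell]
            · have := hb3 ij
              omega
            · rintro ⟨h5, -⟩
              have h6 := pair_inj (by exact_mod_cast h5 :
                ((ij.1 : ℕ) * n + (ij.2 : ℕ)) = (i : ℕ) * n + (j : ℕ))
              exact hij' (Prod.ext h6.1 h6.2)
    · simp only [Expr.val, c1, c2] at h3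
      have h3' : (dblS B).card * (empS B).card = 0 := by
        have : (((dblS B).card * (empS B).card : ℕ) : ℤ) ≤ 0 := by push_cast; exact h3
        have : (dblS B).card * (empS B).card ≤ 0 := by exact_mod_cast this
        omega
      exact hnone (by rintro ⟨q1, q2⟩; rw [q1, q2] at h3'; omega)

end Vale.Agent.P317RAM
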