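import Vale.Agent.P317RAM.StepSpec
import Vale.Agent.P328RAM.Rand

/-!
# The random perfect state
-/

namespace Vale.Agent.P317RAM

open Vale.Agent.P328RAM PMF
open Vale.Agent.P317R (St A1 A2 Perf Cls IsSt npair cl null Wt Inst Par Tb exq stepK stepJ randT)

variable {W Λ n : ℕ}

/-- choose the element of the pair `e` -/
def setPair (e : ℕ) (z : ℤ) (B : St n) : St n :=
  Finset.univ.filter fun p => if (p.1 : ℕ) = e then p.2 = decide (z = 1) else p ∈ B

/-- the state with the pairs below `t` given by `f` -/
def comb (t : ℕ) (B : St n) (f : Fin n → Bool) : St n :=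
  Finset.univ.filter fun p => if (p.1 : ℕ) < t then p.2 = f p.1 else p ∈ B

theorem setPair_comb {t : ℕ} (ht : t < n) (z : ℤ) (B : St n) (f : Fin n → Bool) :
    setPair t z (comb t B f) = comb (t + 1) B (Function.update f ⟨t, ht⟩ (decide (z = 1))) := by
  ext p
  simp only [setPair, comb, Finset.mem_filter, Finset.mem_univ, true_and]
  by_cases h1 : (p.1 : ℕ) = t
  · have h2 : p.1 = ⟨t, ht⟩ := Fin.ext h1
    rw [if_pos h1, if_pos (by omega), h2, Function.update_self]
  · have h2 : p.1 ≠ ⟨t, ht⟩ := fun h => h1 (by rw [h])
    rw [if_neg h1, Function.update_of_ne h2]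
    by_cases h3 : (p.1 : ℕ) < t
    · rw [if_pos h3, if_pos (by omega)]
    · rw [if_neg h3, if_neg (by omega)]

theorem coin_map_apply {α : Type} [DecidableEq α] (F : ℤ → α) (g : α) :
    (coin.map F) g = (if g = F 1 then (2 : ENNReal)⁻¹ else 0) + (if g = F 0 then 2⁻¹ else 0) := by
  unfold coin
  rw [PMF.map_comp, PMF.map_apply, tsum_fintype]
  simp [Fintype.sum_bool]

/-- resampling one coordinate of a uniform Boolean vector -/
theorem resample (i : Fin n) :
    (PMF.uniformOfFintype (Fin n → Bool)).bind
      (fun f => coin.map fun z => Function.update f i (decide (z = 1))) =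
    PMF.uniformOfFintype (Fin n → Bool) := by
  ext g
  rw [PMF.bind_apply, tsum_fintype]
  have hcoin : ∀ f : Fin n → Bool, (coin.map fun z => Function.update f i (decide (z = 1))) g =
      if Function.update f i (g i) = g then (2 : ENNReal)⁻¹ else 0 := by
    intro f
    rw [coin_map_apply]
    have hk : ∀ b : Bool, g = Function.update f i b ↔ (b = g i ∧ Function.update f i (g i) = g) := by
      intro b
      constructor
      · intro h
        have h1 : g i = b := by rw [h, Function.update_self]
        exact ⟨h1.symm, by rw [h1]; exact h.symm⟩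
      · rintro ⟨h1, h2⟩
        rw [h1]; exact h2.symm
    have ht : decide ((1 : ℤ) = 1) = true := by decide
    have hf : decide ((0 : ℤ) = 1) = false := by decide
    rw [ht, hf]
    simp only [hk]
    by_cases h : Function.update f i (g i) = g
    · cases hg : g i <;> simp [h, hg] <;> simp [← hg, h]
    · simp [h]
  simp only [hcoin, PMF.uniformOfFintype_apply]
  rw [← Finset.mul_sum]
  have hsum : ∑ f : Fin n → Bool, (if Function.update f i (g i) = g then (2 : ENNReal)⁻¹ else 0) =
      1 := by
    rw [← Finset.sum_filter, Finset.sum_const]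
    have hset : Finset.univ.filter (fun f : Fin n → Bool => Function.update f i (g i) = g) =
        {g, Function.update g i (!g i)} := by
      ext f
      simp only [Finset.mem_filter, Finset.mem_univ, true_and, Finset.mem_insert,
        Finset.mem_singleton]
      constructor
      · intro h
        have h1 : ∀ j, j ≠ i → f j = g j := by
          intro j hj
          have := congrFun h j
          rwa [Function.update_of_ne hj] at this
        by_cases h2 : f i = g i
        · left
          funext j
          by_cases hj : j = i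
          · rw [hj, h2]
          · exact h1 j hj
        · right
          funext j
          by_cases hj : j = i
          · rw [hj, Function.update_self]
            cases hf : f i <;> cases hg : g i <;> simp_all
          · rw [Function.update_of_ne hj, h1 j hj]
      · rintro (rfl | rfl)
        · exact Function.update_eq_self i f
        · funext j
          by_cases hj : j = i
          · rw [hj, Function.update_self]
          · rw [Function.update_of_ne hj, Function.update_of_ne hj]
    rw [hset, Finset.card_pair]
    · rw [nsmul_eq_mul]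
      push_cast
      exact ENNReal.mul_inv_cancel (by norm_num) (by norm_num)
    · intro h
      have := congrFun h i
      rw [Function.update_self] at this
      cases hg : g i <;> simp [hg] at this
  rw [hsum, mul_one]

theorem seq_setPair (B : St n) (t : ℕ) (ht : t ≤ n) :
    seqBind (fun e B => coin.map fun z => setPair e z B) t B =
      (PMF.uniformOfFintype (Fin n → Bool)).map (comb t B) := by
  induction t with
  | zero =>
    have h : (comb 0 B : (Fin n → Bool) → St n) = fun _ => B := by
      funext f
      ext p
      simp [comb]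
    rw [h, show (fun _ : Fin n → Bool => B) = Function.const _ B from rfl, PMF.map_const]
    rfl
  | succ t ih =>
    rw [seqBind, ih (by omega), PMF.bind_map]
    have h1 : ((fun B => coin.map fun z => setPair t z B) ∘ comb t B : (Fin n → Bool) → _) =
        fun f => (coin.map fun z => Function.update f ⟨t, by omega⟩ (decide (z = 1))).map
          (comb (t + 1) B) := by
      funext f
      simp only [Function.comp]
      rw [PMF.map_comp]
      congr 1
      funext z
      exact setPair_comb (by omega) z B f
    rw [h1, ← PMF.map_bind, resample]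

theorem seq_setPair_n (B : St n) :
    seqBind (fun e B => coin.map fun z => setPair e z B) n B = randT n := by
  rw [seq_setPair B n le_rfl]
  unfold randT
  congr 1
  funext f
  ext p
  simp [comb]

/-- `for e < n do (flip 15; B 1 e := 15; B 0 e := 1 - 15)` -/
def randTC : Cmd :=
  .forL 13 (.v 0) (.seq (.flip 15) (.seq (.set 5 (.lit 1) (.v 13) (.v 15))
    (.set 5 (.lit 0) (.v 13) (.sub (.lit 1) (.v 15)))))

/-- all cells of the table with `e < t` are `0` or `1` -/
def Z01t (n t : ℕ) (M : Mem) : Prop :=
  ∀ (p : Fin n × Bool), (p.1 : ℕ) < t → M 5 (row p.2) (p.1 : ℕ) = 0 ∨ M 5 (row p.2) (p.1 : ℕ) = 1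

theorem randTC_sim {M : Mem} (hn : M 0 0 0 = n) (hnW : n ≤ W) (hΛ : n ≤ Λ) (hW1 : 1 ≤ W) :
    Sim W Λ randTC M (obs n 5) (randT n) (fun M' => Z01 n 5 M' ∧ Same [5, 13, 15] M M') := by
  have hW1' : (1 : ℤ) ≤ W := by exact_mod_cast hW1
  have h := Sim.forL (W := W) (Λ := Λ) (M := M) (i := 13) (e := .v 0)
    (c := .seq (.flip 15) (.seq (.set 5 (.lit 1) (.v 13) (.v 15))
      (.set 5 (.lit 0) (.v 13) (.sub (.lit 1) (.v 15))))) (f := obs n 5)
    (Q := fun M' => Z01 n 5 M' ∧ Same [5, 13, 15] M M')
    (fun e B => coin.map fun z => setPair e z B)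
    (fun t M' => Z01t n t M' ∧ Same [5, 13, 15] M M') n ?_ hΛ hnW ?_ ?_ ?_ ?_ ?_ ?_
  · rwa [seq_setPair_n] at h
  · simp [Expr.val, Mem.write_arr, hn]
  · simp
  · intro M' z
    exact obs_congr (Mem.write_arr _ (by norm_num) _ _ _)
  · rintro t M' z ⟨g1, g2⟩
    refine ⟨?_, g2.write (by simp) _ _ _⟩
    intro p hp
    rw [Mem.write_arr _ (by norm_num)]
    exact g1 p hp
  · exact ⟨fun p hp => absurd hp (Nat.not_lt_zero _), Same.refl _ _⟩
  · rintro t ht M' g0 ⟨g1, g2⟩
    -- the coin
    have hflip : Sim W Λ (.flip 15) M' (fun M'' => M'' 15 0 0) coin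
        (fun M'' => (M'' 15 0 0 = 0 ∨ M'' 15 0 0 = 1) ∧ Same [15] M' M'') := by
      have h := Sim.flip (W := W) (Λ := Λ) (M := M') (a := 15)
        (f := fun M'' : Mem => M'' 15 0 0)
        (Q := fun M'' => (M'' 15 0 0 = 0 ∨ M'' 15 0 0 = 1) ∧ Same [15] M' M'') hW1
        ⟨by simp, (Same.refl _ _).write (by simp) _ _ _⟩
        ⟨by simp, (Same.refl _ _).write (by simp) _ _ _⟩
      have h5 : (coin.map fun z => (M'.write 15 0 0 z) 15 0 0) = coin := by
        simp only [Mem.write_self]
        exact PMF.map_id _
      rwa [h5] at h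
    have hlaw : (coin.map fun z => setPair t z (obs n 5 M')) =
        coin.bind fun z => PMF.pure (setPair t z (obs n 5 M')) := rfl
    rw [hlaw]
    refine Sim.seq hflip (κ := fun z => PMF.pure (setPair t z (obs n 5 M'))) ?_
    rintro M2 ⟨q1, q2⟩
    have h13 : M2 13 0 0 = (t : ℤ) := by rw [q2 13 (by simp)]; exact g0
    have h5' : M2 5 = M' 5 := q2 5 (by simp)
    set z := M2 15 0 0 with hz
    have hd : Det W Λ (.seq (.set 5 (.lit 1) (.v 13) (.v 15))
        (.set 5 (.lit 0) (.v 13) (.sub (.lit 1) (.v 15)))) M2
        (fun M3 => (Z01t n (t + 1) M3 ∧ Same [5, 13, 15] M M3) ∧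
          obs n 5 M3 = setPair t z (obs n 5 M')) := by
      refine Det.seq (R := fun M3 => M3 = M2.write 5 1 t z) (Det.set ?_ ?_) ?_
      · simp only [Expr.val]
        rcases q1 with q | q
        · rw [← hz, q]; simp
        · rw [← hz, q]; simpa using hW1'
      · simp only [Expr.val, h13]; rfl
      rintro M3 rfl
      have h13' : (M2.write 5 1 t z) 13 0 0 = (t : ℤ) := by
        rw [Mem.write_arr _ (by norm_num)]; exact h13
      have h15' : (M2.write 5 1 t z) 15 0 0 = z := by
        rw [Mem.write_arr _ (by norm_num)]
      refine Det.set ?_ ?_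
      · simp only [Expr.val, h15']
        rcases q1 with q | q
        · rw [q]; simpa using hW1'
        · rw [q]; simp
      · simp only [Expr.val, h13', h15']
        have hcell : ∀ p : Fin n × Bool,
            ((M2.write 5 1 t z).write 5 0 t (1 - z)) 5 (row p.2) (p.1 : ℕ) =
              if (p.1 : ℕ) = t then (if p.2 = true then z else 1 - z)
              else M' 5 (row p.2) (p.1 : ℕ) := by
          rintro ⟨e, b⟩
          by_cases h1 : (e : ℕ) = t
          · rw [if_pos h1]
            cases b <;> simp [Mem.write, row, h1]
          · have h1' : ((e : ℕ) : ℤ) ≠ (t : ℤ) := by exact_mod_cast h1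
            rw [if_neg h1]
            cases b <;> simp [Mem.write, row, h1', h5']
        refine ⟨⟨?_, ?_⟩, ?_⟩
        · intro p hp
          rw [hcell]
          split_ifs with h1 h2
          · exact q1
          · rcases q1 with q | q <;> rw [q] <;> simp
          · exact g1 p (by omega)
        · exact ((g2.trans (q2.mono (by simp))).write (by simp) _ _ _).write (by simp) _ _ _
        · ext p
          rw [mem_obs, hcell]
          simp only [setPair, Finset.mem_filter, Finset.mem_univ, true_and, mem_obs]
          by_cases h1 : (p.1 : ℕ) = t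
          · rw [if_pos h1, if_pos h1]
            rcases q1 with q | q <;> cases hb : p.2 <;> simp [q]
          · rw [if_neg h1, if_neg h1]
    exact (hd.sim (f := obs n 5) (x := setPair t z (obs n 5 M')) fun M3 h => h.2).mono
      fun M3 h => h.1
  · rintro M' _ ⟨g1, g2⟩
    exact ⟨fun p => g1 p p.1.2, g2⟩

end Vale.Agent.P317RAM
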