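import Vale.Agent.P328RAM.For2

/-!
# Rank of a set by the greedy algorithm with an independence oracle

The oracle is the row `0` of the array `k`: the cell `(0, X)` is `1` if the set with the code `X`
is independent, and `0` otherwise.  Array `4` contains the powers of two.
-/

namespace Vale.Agent.P317RAM

open Vale.Agent.P328RAM PMF

variable {W Λ : ℕ}

/-- the code of a finite set of natural numbers -/
def code (S : Finset ℕ) : ℕ := ∑ e ∈ S, 2 ^ e

/-- the greedy independent set after the elements `0, …, t - 1` -/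
noncomputable def gset (Ind : Finset ℕ → Prop) (mem : ℕ → Prop) : ℕ → Finset ℕ
  | 0 => ∅
  | e + 1 => open Classical in
      if mem e ∧ Ind (insert e (gset Ind mem e)) then insert e (gset Ind mem e)
      else gset Ind mem e

theorem gset_sub (Ind : Finset ℕ → Prop) (mem : ℕ → Prop) (t : ℕ) :
    gset Ind mem t ⊆ Finset.range t := by
  induction t with
  | zero => simp [gset]
  | succ t ih =>
    have h1 : Finset.range t ⊆ Finset.range (t + 1) :=
      Finset.range_subset_range.2 (Nat.le_succ t)
    rw [gset]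
    split_ifs
    · exact Finset.insert_subset (by simp) (ih.trans h1)
    · exact ih.trans h1

theorem code_insert {S : Finset ℕ} {e : ℕ} (h : e ∉ S) : code (insert e S) = code S + 2 ^ e := by
  unfold code
  rw [Finset.sum_insert h, add_comm]

theorem code_le {S : Finset ℕ} {t : ℕ} (h : S ⊆ Finset.range t) : code S < 2 ^ t := by
  calc code S ≤ ∑ e ∈ Finset.range t, 2 ^ e := Finset.sum_le_sum_of_subset h
    _ < 2 ^ t := Nat.geomSum_lt (by norm_num) (by simp)

/-- `x := 0; r := 0; for i < n do if (cell > 0 and x + 2^i is independent) (x := x + 2^i; r++)` -/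
def rankC (k x r i : ℕ) (cell : Expr) : Cmd :=
  .seq (.setv x (.lit 0)) (.seq (.setv r (.lit 0))
    (.forL i (.v 0) (.when cell (.when (.get k (.lit 0) (.add (.v x) (.at1 4 (.v i))))
      (.seq (.setv x (.add (.v x) (.at1 4 (.v i)))) (.setv r (.add (.v r) (.lit 1))))))))

@[simp] theorem Wr_rankC (k x r i : ℕ) (cell : Expr) :
    (rankC k x r i cell).Wr = [x, r, i, x, r, x, r, x, r, x, r, i] := rfl

theorem rankC_det {M : Mem} {k x r i n : ℕ} {cell : Expr} {Ind : Finset ℕ → Prop}
    {mem : ℕ → Prop} (hd : [0, 4, k, x, r, i].Nodup) (hn : M 0 0 0 = n)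
    (hpow : ∀ e : ℕ, e < n → M 4 e 0 = 2 ^ e)
    (hO : ∀ S ⊆ Finset.range n, M k 0 (code S) = 1 ∧ Ind S ∨ M k 0 (code S) = 0 ∧ ¬ Ind S)
    (hcell : ∀ M', Same [x, r, i] M M' → ∀ e : ℕ, e < n → M' i 0 0 = e →
      (0 < cell.val M' ↔ mem e))
    (hW : 2 ^ n ≤ W) (hΛ : n ≤ Λ) :
    Det W Λ (rankC k x r i cell) M (fun M' => M' r 0 0 = ((gset Ind mem n).card : ℤ) ∧
      Same [x, r, i] M M') := by
  simp only [List.nodup_cons, List.mem_cons, List.not_mem_nil, or_false, not_or] at hd
  obtain ⟨⟨d04, d0k, d0x, d0r, d0i⟩, ⟨d4k, d4x, d4r, d4i⟩, ⟨dkx, dkr, dki⟩, ⟨dxr, dxi⟩, dri, -⟩ := hd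
  have hnW : n ≤ W := le_trans (Nat.lt_two_pow_self).le hW
  refine Det.seq (R := fun M' => M' x 0 0 = 0 ∧ Same [x, r, i] M M')
    (Det.setv (by simp [Expr.val]) ⟨by simp [Expr.val], (Same.refl _ _).write (by simp) _ _ _⟩) ?_
  rintro M1 ⟨a1, a2⟩
  refine Det.seq (R := fun M' => M' x 0 0 = 0 ∧ M' r 0 0 = 0 ∧ Same [x, r, i] M M')
    (Det.setv (by simp [Expr.val]) ⟨?_, by simp [Expr.val], a2.write (by simp) _ _ _⟩) ?_
  · rw [Mem.write_arr _ dxr]; exact a1
  rintro M2 ⟨b1, b2, b3⟩
  refine Det.forL (fun e M' => M' x 0 0 = (code (gset Ind mem e) : ℤ) ∧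
      M' r 0 0 = ((gset Ind mem e).card : ℤ) ∧ Same [x, r, i] M M') n ?_ hΛ hnW ?_ ?_ ?_ ?_ ?_
  · have : (Expr.v 0).val (M2.write i 0 0 0) = n := by
      simp only [Expr.val]
      rw [Mem.write_arr _ d0i, b3 0 (by simp [d0x, d0r, d0i]), hn]
    rw [this]; simp
  · simp only [Cmd.Wr_when, Cmd.Wr_seq, Cmd.Wr_setv]
    simp [Ne.symm dxi, Ne.symm dri]
  · rintro e M' z ⟨g1, g2, g3⟩
    exact ⟨by rw [Mem.write_arr _ dxi]; exact g1, by rw [Mem.write_arr _ dri]; exact g2,
      g3.write (by simp) _ _ _⟩
  · exact ⟨by simp [gset, code, b1], by simp [gset, b2], b3⟩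
  · rintro e he M' g0 ⟨g1, g2, g3⟩
    have hGsub := gset_sub Ind mem e
    have hnot : e ∉ gset Ind mem e := fun h => by
      have := hGsub h
      simp at this
    have hins : insert e (gset Ind mem e) ⊆ Finset.range n := by
      refine Finset.insert_subset (by simpa using he) (hGsub.trans ?_)
      exact Finset.range_subset_range.2 he.le
    have h4 : M' 4 e 0 = 2 ^ e := by
      rw [g3 4 (by simp [d4x, d4r, d4i]), hpow e he]
    have hxv : (Expr.add (.v x) (.at1 4 (.v i))).val M' =
        (code (insert e (gset Ind mem e)) : ℤ) := by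
      simp only [Expr.val, g1, g0, h4]
      rw [code_insert hnot]
      push_cast
      ring
    have hask : (Expr.get k (.lit 0) (.add (.v x) (.at1 4 (.v i)))).val M' =
        M k 0 (code (insert e (gset Ind mem e))) := by
      have : (Expr.get k (.lit 0) (.add (.v x) (.at1 4 (.v i)))).val M' =
          M' k 0 ((Expr.add (.v x) (.at1 4 (.v i))).val M') := rfl
      rw [this, hxv, g3 k (by simp [dkx, dkr, dki])]
    have hcodeW : (code (insert e (gset Ind mem e)) : ℤ) ≤ W := by
      have h5 := (code_le hins).le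
      exact_mod_cast h5.trans hW
    have hcell' := hcell M' g3 e he g0
    have hstep : ¬ (mem e ∧ Ind (insert e (gset Ind mem e))) →
        gset Ind mem (e + 1) = gset Ind mem e := fun h => by rw [gset, if_neg h]
    refine Det.when (fun hc => ?_) (fun hc => ?_)
    · have hm : mem e := hcell'.1 hc
      refine Det.when (fun ha => ?_) (fun ha => ?_)
      · rw [hask] at ha
        have hI : Ind (insert e (gset Ind mem e)) := by
          rcases hO _ hins with h | h
          · exact h.2
          · rw [h.1] at ha; exact absurd ha (lt_irrefl _)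
        have hG : gset Ind mem (e + 1) = insert e (gset Ind mem e) := by
          rw [gset, if_pos ⟨hm, hI⟩]
        refine Det.seq (R := fun M'' => M'' x 0 0 = (code (gset Ind mem (e + 1)) : ℤ) ∧
          M'' r 0 0 = ((gset Ind mem e).card : ℤ) ∧ Same [x, r, i] M M'') ?_ ?_
        · refine Det.setv ?_ ?_
          · rw [hxv, abs_of_nonneg (by positivity)]; exact hcodeW
          · rw [hxv]
            refine ⟨by simp [hG], ?_, g3.write (by simp) _ _ _⟩
            rw [Mem.write_arr _ (Ne.symm dxr)]; exact g2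
        · rintro M'' ⟨p1, p2, p3⟩
          have hcard : (gset Ind mem (e + 1)).card = (gset Ind mem e).card + 1 := by
            rw [hG, Finset.card_insert_of_notMem hnot]
          have hle : (gset Ind mem (e + 1)).card ≤ n := by
            have := Finset.card_le_card (hG ▸ hins)
            simpa using this
          have hv : (Expr.add (.v r) (.lit 1)).val M'' = ((gset Ind mem (e + 1)).card : ℤ) := by
            simp only [Expr.val, p2, hcard]
            push_cast; ring
          refine Det.setv ?_ ?_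
          · rw [hv, abs_of_nonneg (by positivity)]
            exact_mod_cast hle.trans hnW
          · rw [hv]
            refine ⟨?_, by simp, p3.write (by simp) _ _ _⟩
            rw [Mem.write_arr _ dxr]; exact p1
      · rw [hask] at ha
        have hI : ¬ Ind (insert e (gset Ind mem e)) := by
          rcases hO _ hins with h | h
          · rw [h.1] at ha; norm_num at ha
          · exact h.2
        rw [hstep (fun h => hI h.2)]
        exact ⟨g1, g2, g3⟩
    · have hm : ¬ mem e := fun h => absurd (hcell'.2 h) (not_lt.2 hc)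
      rw [hstep (fun h => hm h.1)]
      exact ⟨g1, g2, g3⟩
  · rintro M' _ ⟨g1, g2, g3⟩
    exact ⟨g2, g3⟩

end Vale.Agent.P317RAM
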