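import Vale.Agent.P317RAM.Rank
import Vale.Agent.P317R.Algo

/-!
# The state of the chain in the memory

The state is a set `B` of pairs `(e, t)`, `e < n`, `t` a Boolean value; it is stored as a table of
zeros and ones in the array `a` (row `0` for `t = false`, row `1` for `t = true`).
-/

namespace Vale.Agent.P317RAM

open Vale.Agent.P328RAM PMF
open Vale.Agent.P317R (St A1 A2 Perf Cls IsSt npair cl null Wt Inst Par Tb exq)

variable {W Λ n : ℕ}

/-- the row of the table -/
def row (t : Bool) : ℤ := if t then 1 else 0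

@[simp] theorem row_true : row true = 1 := rfl

@[simp] theorem row_false : row false = 0 := rfl

/-- the state stored in the array `a` -/
def obs (n a : ℕ) (M : Mem) : St n :=
  Finset.univ.filter fun p => M a (row p.2) (p.1 : ℕ) = 1

/-- all cells of the table are `0` or `1` -/
def Z01 (n a : ℕ) (M : Mem) : Prop :=
  ∀ (p : Fin n × Bool), M a (row p.2) (p.1 : ℕ) = 0 ∨ M a (row p.2) (p.1 : ℕ) = 1

@[simp] theorem mem_obs {a : ℕ} {M : Mem} {p : Fin n × Bool} :
    p ∈ obs n a M ↔ M a (row p.2) (p.1 : ℕ) = 1 := by simp [obs]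

theorem obs_congr {a a' : ℕ} {M M' : Mem} (h : M' a' = M a) : obs n a' M' = obs n a M := by
  unfold obs
  rw [h]

theorem Z01_congr {a a' : ℕ} {M M' : Mem} (h : M' a' = M a) (hz : Z01 n a M) : Z01 n a' M' := by
  unfold Z01
  rw [h]
  exact hz

/-- the value of a cell -/
theorem Z01.cell {a : ℕ} {M : Mem} (h : Z01 n a M) (p : Fin n × Bool) :
    M a (row p.2) (p.1 : ℕ) = if p ∈ obs n a M then 1 else 0 := by
  rcases h p with h1 | h1
  · rw [if_neg (by simp [h1]), h1]
  · rw [if_pos (by simp [h1]), h1]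

/-- double pairs -/
def dblS (B : St n) : Finset (Fin n) := Finset.univ.filter fun e => (e, false) ∈ B ∧ (e, true) ∈ B

/-- empty pairs -/
def empS (B : St n) : Finset (Fin n) := Finset.univ.filter fun e => (e, false) ∉ B ∧ (e, true) ∉ B

theorem npair_two {B : St n} {e : Fin n} : npair B e = 2 ↔ e ∈ dblS B := by
  unfold npair dblS
  simp only [Finset.mem_filter, Finset.mem_univ, true_and]
  by_cases h1 : (e, false) ∈ B <;> by_cases h2 : (e, true) ∈ B <;> simp [h1, h2]

theorem npair_zero {B : St n} {e : Fin n} : npair B e = 0 ↔ e ∈ empS B := by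
  unfold npair empS
  simp only [Finset.mem_filter, Finset.mem_univ, true_and]
  by_cases h1 : (e, false) ∈ B <;> by_cases h2 : (e, true) ∈ B <;> simp [h1, h2]

theorem npair_one {B : St n} {e : Fin n} : npair B e = 1 ↔ e ∉ dblS B ∧ e ∉ empS B := by
  unfold npair dblS empS
  simp only [Finset.mem_filter, Finset.mem_univ, true_and]
  by_cases h1 : (e, false) ∈ B <;> by_cases h2 : (e, true) ∈ B <;> simp [h1, h2]

theorem perf_iff {B : St n} : Perf B ↔ (dblS B).card = 0 ∧ (empS B).card = 0 := by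
  unfold Perf
  simp only [npair_one, Finset.card_eq_zero, Finset.eq_empty_iff_forall_notMem]
  constructor
  · intro h; exact ⟨fun e => (h e).1, fun e => (h e).2⟩
  · intro h e; exact ⟨h.1 e, h.2 e⟩

theorem cls_iff {B : St n} {ij : Fin n × Fin n} :
    Cls ij B ↔ dblS B = {ij.1} ∧ empS B = {ij.2} := by
  unfold Cls
  rw [npair_two, npair_zero]
  simp only [npair_one]
  constructor
  · rintro ⟨h1, h2, h3⟩
    have hne : ij.1 ≠ ij.2 := by
      intro h
      rw [← h] at h2
      have e1 := npair_two.2 h1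
      have e2 := npair_zero.2 h2
      omega
    constructor
    · ext e
      rw [Finset.mem_singleton]
      constructor
      · intro he
        by_contra hc
        by_cases h4 : e = ij.2
        · subst h4
          have e1 := npair_two.2 he
          have e2 := npair_zero.2 h2
          omega
        · exact (h3 e hc h4).1 he
      · rintro rfl; exact h1
    · ext e
      rw [Finset.mem_singleton]
      constructor
      · intro he
        by_contra hc
        by_cases h4 : e = ij.1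
        · subst h4
          have e1 := npair_two.2 h1
          have e2 := npair_zero.2 he
          omega
        · exact (h3 e h4 hc).2 he
      · rintro rfl; exact h2
  · rintro ⟨h1, h2⟩
    rw [h1, h2]
    refine ⟨by simp, by simp, ?_⟩
    intro e h3 h4
    simp [h3, h4]

theorem exists_cls_iff {B : St n} :
    (∃ ij, Cls ij B) ↔ (dblS B).card = 1 ∧ (empS B).card = 1 := by
  simp only [cls_iff, Finset.card_eq_one]
  constructor
  · rintro ⟨ij, h1, h2⟩; exact ⟨⟨_, h1⟩, ⟨_, h2⟩⟩
  · rintro ⟨⟨i, h1⟩, ⟨j, h2⟩⟩; exact ⟨(i, j), h1, h2⟩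

theorem cl_of_cls {B : St n} {ij : Fin n × Fin n} (h : Cls ij B) : cl B = some ij := by
  unfold cl
  have hex : ∃ ij : Fin n × Fin n, Cls ij B := ⟨ij, h⟩
  rw [dif_pos hex]
  congr 1
  have h1 := cls_iff.1 hex.choose_spec
  have h2 := cls_iff.1 h
  refine Prod.ext ?_ ?_
  · have := h1.1.symm.trans h2.1
    simpa using this
  · have := h1.2.symm.trans h2.2
    simpa using this

theorem cl_none {B : St n} (h : ¬ ((dblS B).card = 1 ∧ (empS B).card = 1)) : cl B = none := by
  unfold cl
  rw [dif_neg (fun h' => h (exists_cls_iff.1 h'))]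

theorem isSt_iff {B : St n} : IsSt B ↔ ((dblS B).card = 0 ∧ (empS B).card = 0) ∨
    ((dblS B).card = 1 ∧ (empS B).card = 1) := by
  unfold IsSt
  rw [perf_iff, exists_cls_iff]

/-! ### Sums over the pairs -/

/-- the expressions for the two cells of the pair number `i` -/
abbrev b0 (a i : ℕ) : Expr := .get a (.lit 0) (.v i)

/-- the second cell -/
abbrev b1 (a i : ℕ) : Expr := .get a (.lit 1) (.v i)

/-- a sum over `k < n` of a 0-1 table function -/
theorem sum_range_fin (F : ℕ → ℤ) (G : Fin n → ℤ) (h : ∀ e : Fin n, F e = G e) :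
    ∑ k ∈ Finset.range n, F k = ∑ e : Fin n, G e := by
  rw [Finset.sum_range]
  exact Finset.sum_congr rfl fun e _ => h e

theorem sumC_det {M : Mem} {s i : ℕ} {e : Expr} (hsi : s ≠ i) (hs0 : s ≠ 0) (hi0 : i ≠ 0) (hn : M 0 0 0 = n) (G : Fin n → ℤ) (C : ℕ)
    (hG : ∀ e, 0 ≤ G e ∧ G e ≤ C) (hnC : n * C ≤ W) (hnW : n ≤ W) (hΛ : n ≤ Λ)
    (he : ∀ M', Same [s, i] M M' → ∀ k : Fin n, M' i 0 0 = (k : ℕ) → e.val M' = G k) :
    Det W Λ (.fold s i (.v 0) (.lit 0) (.add (.v s) e)) M
      (fun M' => M' s 0 0 = ∑ k : Fin n, G k ∧ Same [s, i] M M') := by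
  have h := Det.sum1 (W := W) (Λ := Λ) (M := M) (s := s) (i := i) (en := .v 0) (e := e) n
    (fun k => if h : k < n then G ⟨k, h⟩ else 0) hsi hΛ hnW ?_ ?_ ?_
  · refine h.mono ?_
    rintro M' ⟨h1, h2⟩
    refine ⟨?_, h2⟩
    rw [h1]
    exact sum_range_fin _ _ fun e => by simp
  · intro k hk
    have h1 : ∀ l ∈ Finset.range k, 0 ≤ (if h : l < n then G ⟨l, h⟩ else 0) := by
      intro l _
      split_ifs
      · exact (hG _).1
      · exact le_rfl
    rw [abs_of_nonneg (Finset.sum_nonneg h1)]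
    calc ∑ l ∈ Finset.range k, (if h : l < n then G ⟨l, h⟩ else 0)
        ≤ ∑ _l ∈ Finset.range k, (C : ℤ) := by
          refine Finset.sum_le_sum fun l _ => ?_
          split_ifs
          · exact (hG _).2
          · positivity
      _ = (k * C : ℤ) := by simp
      _ ≤ (n * C : ℤ) := by
          have : (k : ℤ) ≤ n := by exact_mod_cast hk
          exact mul_le_mul_of_nonneg_right this (by positivity)
      _ ≤ W := by exact_mod_cast hnC
  · intro M' hM'
    have h0 : M' 0 = M 0 := hM' 0 (by simp [hs0.symm, hi0.symm])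
    simp [Expr.val, h0, hn]
  · intro k hk M' hM' hi
    rw [dif_pos hk]
    exact he M' hM' ⟨k, hk⟩ hi

/-- `24 := #doubles, 28 := #empty, 25 := sum of the doubles, 26 := sum of the empty ones,
22 := #first set`, loop counter `13`, table in the array `a` -/
def classC (a : ℕ) : Cmd :=
  .seq (.fold 24 13 (.v 0) (.lit 0) (.add (.v 24) (.mul (b0 a 13) (b1 a 13))))
  (.seq (.fold 28 13 (.v 0) (.lit 0)
    (.add (.v 28) (.mul (.sub (.lit 1) (b0 a 13)) (.sub (.lit 1) (b1 a 13)))))
  (.seq (.fold 25 13 (.v 0) (.lit 0) (.add (.v 25) (.mul (.v 13) (.mul (b0 a 13) (b1 a 13)))))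
  (.seq (.fold 26 13 (.v 0) (.lit 0)
    (.add (.v 26) (.mul (.v 13) (.mul (.sub (.lit 1) (b0 a 13)) (.sub (.lit 1) (b1 a 13))))))
  (.fold 22 13 (.v 0) (.lit 0) (.add (.v 22) (b0 a 13))))))

/-- what `classC` computes -/
def ClassOut (B : St n) (M' : Mem) : Prop :=
  M' 24 0 0 = ((dblS B).card : ℤ) ∧ M' 28 0 0 = ((empS B).card : ℤ) ∧
  M' 25 0 0 = ((∑ e ∈ dblS B, (e : ℕ) : ℕ) : ℤ) ∧ M' 26 0 0 = ((∑ e ∈ empS B, (e : ℕ) : ℕ) : ℤ) ∧
  M' 22 0 0 = ((A1 B).card : ℤ)

/-- the arrays changed by `classC` -/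
def classL : List ℕ := [13, 22, 24, 25, 26, 28]

theorem classC_det {M : Mem} {a : ℕ} (ha : a ∉ classL) (hn : M 0 0 0 = n)
    (hz : Z01 n a M) (hW : n * (n + 1) ≤ W) (hΛ : n ≤ Λ) :
    Det W Λ (classC a) M (fun M' => ClassOut (obs n a M) M' ∧ Same classL M M') := by
  simp only [classL, List.mem_cons, List.not_mem_nil, or_false, not_or] at ha
  obtain ⟨ha13, ha22, ha24, ha25, ha26, ha28⟩ := ha
  set B := obs n a M with hB
  have hnW : n ≤ W := le_trans (Nat.le_mul_of_pos_right n (by omega)) hW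
  have hc0 : ∀ (M' : Mem) (k : Fin n), M' a = M a → M' 13 0 0 = (k : ℕ) →
      (b0 a 13).val M' = if (k, false) ∈ B then 1 else 0 := by
    intro M' k h1 h2
    have := hz.cell (k, false)
    simp only [Expr.val, h2, h1]
    exact this
  have hc1 : ∀ (M' : Mem) (k : Fin n), M' a = M a → M' 13 0 0 = (k : ℕ) →
      (b1 a 13).val M' = if (k, true) ∈ B then 1 else 0 := by
    intro M' k h1 h2
    have := hz.cell (k, true)
    simp only [Expr.val, h2, h1]
    exact this
  -- 24
  refine Det.seq (R := fun M' => M' 24 0 0 = ((dblS B).card : ℤ) ∧ Same [24, 13] M M') ?_ ?_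
  · refine (sumC_det (by norm_num) (by norm_num)
      (by norm_num) hn (fun k => if (k, false) ∈ B ∧ (k, true) ∈ B then 1 else 0) 1 ?_
      (by linarith) hnW hΛ ?_).mono ?_
    · intro e; split_ifs <;> simp
    · intro M' hM' k hk
      have h1 : M' a = M a := hM' a (by simp [ha24, ha13])
      have e0 := hc0 M' k h1 hk
      have e1 := hc1 M' k h1 hk
      show (b0 a 13).val M' * (b1 a 13).val M' = _
      rw [e0, e1]
      by_cases h2 : (k, false) ∈ B <;> by_cases h3 : (k, true) ∈ B <;> simp [h2, h3]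
    · rintro M' ⟨h1, h2⟩
      refine ⟨?_, h2⟩
      rw [h1]
      unfold dblS
      rw [Finset.card_filter]
      push_cast
      rfl
  rintro M1 ⟨a1, a2⟩
  have hn1 : M1 0 0 0 = n := by rw [a2 0 (by simp)]; exact hn
  have hM1a : M1 a = M a := a2 a (by simp [ha24, ha13])
  -- 28
  refine Det.seq (R := fun M' => M' 24 0 0 = ((dblS B).card : ℤ) ∧
    M' 28 0 0 = ((empS B).card : ℤ) ∧ Same [24, 28, 13] M M') ?_ ?_
  · refine (sumC_det (by norm_num) (by norm_num)
      (by norm_num) hn1 (fun k => if (k, false) ∉ B ∧ (k, true) ∉ B then 1 else 0) 1 ?_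
      (by linarith) hnW hΛ ?_).mono ?_
    · intro e; split_ifs <;> simp
    · intro M' hM' k hk
      have h1 : M' a = M a := by rw [hM' a (by simp [ha28, ha13]), hM1a]
      have e0 := hc0 M' k h1 hk
      have e1 := hc1 M' k h1 hk
      show (1 - (b0 a 13).val M') * (1 - (b1 a 13).val M') = _
      rw [e0, e1]
      by_cases h2 : (k, false) ∈ B <;> by_cases h3 : (k, true) ∈ B <;> simp [h2, h3]
    · rintro M' ⟨h1, h2⟩
      refine ⟨by rw [h2 24 (by simp)]; exact a1, ?_,
        (a2.mono (by simp)).trans (h2.mono (by simp))⟩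
      rw [h1]
      unfold empS
      rw [Finset.card_filter]
      push_cast
      rfl
  rintro M2 ⟨b1', b2, b3⟩
  have hn2 : M2 0 0 0 = n := by rw [b3 0 (by simp)]; exact hn
  have hM2a : M2 a = M a := b3 a (by simp [ha24, ha28, ha13])
  -- 25
  refine Det.seq (R := fun M' => M' 24 0 0 = ((dblS B).card : ℤ) ∧
    M' 28 0 0 = ((empS B).card : ℤ) ∧ M' 25 0 0 = ((∑ e ∈ dblS B, (e : ℕ) : ℕ) : ℤ) ∧
    Same [24, 28, 25, 13] M M') ?_ ?_
  · refine (sumC_det (by norm_num) (by norm_num)
      (by norm_num) hn2 (fun k => if (k, false) ∈ B ∧ (k, true) ∈ B then ((k : ℕ) : ℤ) else 0)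
      (n + 1) ?_ (by linarith) hnW hΛ ?_).mono ?_
    · intro e
      have := e.2
      split_ifs <;> constructor <;> omega
    · intro M' hM' k hk
      have h1 : M' a = M a := by rw [hM' a (by simp [ha25, ha13]), hM2a]
      have e0 := hc0 M' k h1 hk
      have e1 := hc1 M' k h1 hk
      show M' 13 0 0 * ((b0 a 13).val M' * (b1 a 13).val M') = _
      rw [e0, e1, hk]
      by_cases h2 : (k, false) ∈ B <;> by_cases h3 : (k, true) ∈ B <;> simp [h2, h3]
    · rintro M' ⟨h1, h2⟩
      refine ⟨by rw [h2 24 (by simp)]; exact b1', by rw [h2 28 (by simp)]; exact b2, ?_,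
        (b3.mono (by simp)).trans (h2.mono (by simp))⟩
      rw [h1]
      unfold dblS
      rw [Finset.sum_filter]
      push_cast
      rfl
  rintro M3 ⟨c1, c2, c3, c4⟩
  have hn3 : M3 0 0 0 = n := by rw [c4 0 (by simp)]; exact hn
  have hM3a : M3 a = M a := c4 a (by simp [ha24, ha28, ha25, ha13])
  -- 26
  refine Det.seq (R := fun M' => M' 24 0 0 = ((dblS B).card : ℤ) ∧
    M' 28 0 0 = ((empS B).card : ℤ) ∧ M' 25 0 0 = ((∑ e ∈ dblS B, (e : ℕ) : ℕ) : ℤ) ∧
    M' 26 0 0 = ((∑ e ∈ empS B, (e : ℕ) : ℕ) : ℤ) ∧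
    Same [24, 28, 25, 26, 13] M M') ?_ ?_
  · refine (sumC_det (by norm_num) (by norm_num)
      (by norm_num) hn3 (fun k => if (k, false) ∉ B ∧ (k, true) ∉ B then ((k : ℕ) : ℤ) else 0)
      (n + 1) ?_ (by linarith) hnW hΛ ?_).mono ?_
    · intro e
      have := e.2
      split_ifs <;> constructor <;> omega
    · intro M' hM' k hk
      have h1 : M' a = M a := by rw [hM' a (by simp [ha26, ha13]), hM3a]
      have e0 := hc0 M' k h1 hk
      have e1 := hc1 M' k h1 hk
      show M' 13 0 0 * ((1 - (b0 a 13).val M') * (1 - (b1 a 13).val M')) = _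
      rw [e0, e1, hk]
      by_cases h2 : (k, false) ∈ B <;> by_cases h3 : (k, true) ∈ B <;> simp [h2, h3]
    · rintro M' ⟨h1, h2⟩
      refine ⟨by rw [h2 24 (by simp)]; exact c1, by rw [h2 28 (by simp)]; exact c2,
        by rw [h2 25 (by simp)]; exact c3, ?_, (c4.mono (by simp)).trans (h2.mono (by simp))⟩
      rw [h1]
      unfold empS
      rw [Finset.sum_filter]
      push_cast
      rfl
  rintro M4 ⟨d1, d2, d3, d4, d5⟩
  have hn4 : M4 0 0 0 = n := by rw [d5 0 (by simp)]; exact hn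
  have hM4a : M4 a = M a := d5 a (by simp [ha24, ha28, ha25, ha26, ha13])
  -- 22
  refine (sumC_det (by norm_num) (by norm_num)
    (by norm_num) hn4 (fun k => if (k, false) ∈ B then 1 else 0) 1 ?_
    (by linarith) hnW hΛ ?_).mono ?_
  · intro e; split_ifs <;> simp
  · intro M' hM' k hk
    have h1 : M' a = M a := by rw [hM' a (by simp [ha22, ha13]), hM4a]
    exact hc0 M' k h1 hk
  · rintro M' ⟨h1, h2⟩
    refine ⟨⟨by rw [h2 24 (by simp)]; exact d1, by rw [h2 28 (by simp)]; exact d2,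
      by rw [h2 25 (by simp)]; exact d3, by rw [h2 26 (by simp)]; exact d4, ?_⟩,
      (d5.mono (by simp [classL])).trans (h2.mono (by simp [classL]))⟩
    rw [h1]
    unfold A1
    rw [Finset.card_filter]
    push_cast
    rfl

end Vale.Agent.P317RAM
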