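import Vale.Agent.P317RAM.StepSpec

/-!
# The full step as a sequence of draws
-/

namespace Vale.Agent.P317RAM

open Vale.Agent.P328RAM hiding stepK
open Vale.Agent.P317R

variable {n : ℕ} (I : Inst n) (p : Par)

/-- the result of the full step, for given draws -/
noncomputable def stepV (k : ℕ) (t : Tb n) (B : St n) (w c d x y U : ℕ) : St n :=
  if w = 1 ∧ U * Wt I p k t B < 2 ^ p.K * Wt I p k t (exch c d x y B) then exch c d x y B else B

theorem stepK_eq (k : ℕ) (t : Tb n) (B : St n) :
    stepK I p k t B = (unif 1).bind fun w => (unif 1).bind fun c => (unif 1).bind fun d =>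
      (unif p.Bn).bind fun x => (unif p.Bn).bind fun y => (unif p.K).bind fun U =>
        PMF.pure (stepV I p k t B w c d x y U) := by
  unfold stepK propK
  refine congrArg _ (funext fun w => ?_)
  rw [PMF.bind_bind]
  refine congrArg _ (funext fun c => ?_)
  rw [PMF.bind_bind]
  refine congrArg _ (funext fun d => ?_)
  rw [PMF.bind_bind]
  refine congrArg _ (funext fun x => ?_)
  rw [PMF.bind_map]
  refine congrArg _ (funext fun y => ?_)
  rw [Function.comp, ← PMF.bind_pure_comp]
  rfl

/-! ### writing in the table -/

theorem row_decide {c : ℕ} (hc : c < 2) : row (decide (c = 1)) = (c : ℤ) := by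
  interval_cases c <;> simp

theorem obs_write_zero {M : Mem} {c x : ℕ} (hc : c < 2) (hx : x < n) :
    obs n 5 (M.write 5 c x 0) = (obs n 5 M).erase (⟨x, hx⟩, decide (c = 1)) := by
  ext ⟨e, s⟩
  simp only [mem_obs, Finset.mem_erase, Mem.write, true_and]
  by_cases h : (e, s) = ((⟨x, hx⟩ : Fin n), decide (c = 1))
  · have h1 : e = ⟨x, hx⟩ := congrArg Prod.fst h
    have h2 : s = decide (c = 1) := congrArg Prod.snd h
    subst h1 h2
    rw [row_decide hc]
    simp
  · rw [if_neg]
    · simp only [ne_eq, h, not_false_eq_true, true_and]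
    · rintro ⟨h1, h2⟩
      apply h
      have h2' : (e : ℕ) = x := by exact_mod_cast h2
      have h1' : s = decide (c = 1) := by
        rw [← row_decide hc] at h1
        revert h1
        cases s <;> cases (decide (c = 1)) <;> simp
      rw [h1']
      congr 1
      exact Fin.ext h2'

theorem obs_write_one {M : Mem} {c x : ℕ} (hc : c < 2) (hx : x < n) :
    obs n 5 (M.write 5 c x 1) = insert (⟨x, hx⟩, decide (c = 1)) (obs n 5 M) := by
  ext ⟨e, s⟩
  simp only [mem_obs, Finset.mem_insert, Mem.write, true_and]
  by_cases h : (e, s) = ((⟨x, hx⟩ : Fin n), decide (c = 1))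
  · have h1 : e = ⟨x, hx⟩ := congrArg Prod.fst h
    have h2 : s = decide (c = 1) := congrArg Prod.snd h
    subst h1 h2
    rw [row_decide hc]
    simp
  · rw [if_neg]
    · simp only [h, false_or]
    · rintro ⟨h1, h2⟩
      apply h
      have h2' : (e : ℕ) = x := by exact_mod_cast h2
      have h1' : s = decide (c = 1) := by
        rw [← row_decide hc] at h1
        revert h1
        cases s <;> cases (decide (c = 1)) <;> simp
      rw [h1']
      congr 1
      exact Fin.ext h2'

theorem Z01_write {M : Mem} {i j z : ℤ} (hz : Z01 n 5 M) (h : z = 0 ∨ z = 1) :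
    Z01 n 5 (M.write 5 i j z) := by
  intro p
  simp only [Mem.write, true_and]
  split_ifs
  · exact h
  · exact hz p

end Vale.Agent.P317RAM
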