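import Vale.Agent.P317RAM.Weight

/-!
# Interface: what the programs for one full step and for one step of the kernel `J` do

The state is in the array `5` (`obs n 5`), `6` is used for the saved state.
-/

namespace Vale.Agent.P317RAM

open Vale.Agent.P328RAM PMF
open Vale.Agent.P317R (St A1 A2 Perf Cls IsSt npair cl null Wt Inst Par Tb exq stepK stepJ)

variable {n : ℕ}

/-- the memory used by one step of the chain at the level `k` with the table `t` -/
structure EnvS (I : Inst n) (I1 I2 : Finset ℕ → Prop) (p : Par) (k : ℕ) (t : Tb n) (M : Mem) :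
    Prop extends Env I I1 I2 p k t M where
  K : M 35 0 0 = p.K
  Bn : M 36 0 0 = p.Bn
  K2 : M 37 0 0 = ((2 ^ p.K : ℕ) : ℤ)
  s : M 38 0 0 = p.s

theorem EnvS.same {I : Inst n} {I1 I2 : Finset ℕ → Prop} {p : Par} {k : ℕ} {t : Tb n} {M M' : Mem}
    (h : EnvS I I1 I2 p k t M) {L : List ℕ} (hM : Same L M M')
    (hL : ∀ a ∈ [0, 1, 2, 4, 7, 10, 16, 17, 18, 19, 35, 36, 37, 38], a ∉ L) :
    EnvS I I1 I2 p k t M' := by
  simp only [List.mem_cons, List.not_mem_nil, or_false, forall_eq_or_imp, forall_eq] at hL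
  obtain ⟨l0, l1, l2, l4, l7, l10, l16, l17, l18, l19, l35, l36, l37, l38⟩ := hL
  refine ⟨h.toEnv.same hM ?_, by rw [hM 35 l35]; exact h.K, by rw [hM 36 l36]; exact h.Bn,
    by rw [hM 37 l37]; exact h.K2, by rw [hM 38 l38]; exact h.s⟩
  simp [l0, l1, l2, l4, l7, l10, l16, l17, l18, l19]

/-- the bounds needed by one step of the chain -/
structure BndS (W Λ n : ℕ) (p : Par) (k : ℕ) (t : Tb n) (Em : ℕ) : Prop extends
    Bnd W Λ n p k t Em where
  KΛ : p.K ≤ Λ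
  BΛ : p.Bn ≤ Λ
  BW : 2 ^ p.Bn ≤ W
  sΛ : p.s ≤ Λ
  sW : p.s ≤ W
  KW : 2 ^ p.K * ((4 * n) ^ (3 * k * n) * 2 ^ Em) ≤ W

/-- the arrays which the programs for the steps may change -/
def stepL : List ℕ := wtL ++ [5, 6] ++ (List.range 20).map (· + 50)

/-- `c` is a program for one full step -/
def FullOK (c : Cmd) : Prop :=
  (∀ a ∈ c.Wr, a ∈ stepL) ∧
  ∀ (n : ℕ) (I : Inst n) (I1 I2 : Finset ℕ → Prop) (p : Par) (k : ℕ) (t : Tb n) (M : Mem)
    (Em W Λ : ℕ), InstOK I I1 I2 → EnvS I I1 I2 p k t M → BndS W Λ n p k t Em → Z01 n 5 M →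
    Sim W Λ c M (obs n 5) (stepK I p k t (obs n 5 M)) (fun M' => Z01 n 5 M' ∧ Same stepL M M')

/-- `c` is a program for one step of the kernel `J` -/
def JOK (c : Cmd) : Prop :=
  (∀ a ∈ c.Wr, a ∈ stepL) ∧
  ∀ (n : ℕ) (I : Inst n) (I1 I2 : Finset ℕ → Prop) (p : Par) (k : ℕ) (t : Tb n) (M : Mem)
    (Em W Λ : ℕ), InstOK I I1 I2 → EnvS I I1 I2 p k t M → BndS W Λ n p k t Em → Z01 n 5 M →
    Sim W Λ c M (obs n 5) (stepJ I p k t (obs n 5 M)) (fun M' => Z01 n 5 M' ∧ Same stepL M M')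

end Vale.Agent.P317RAM
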