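import Vale.Agent.P317RAM.OLang
import Mathlib

/-!
# Common bases of two matroids, and what a fully polynomial randomized approximation scheme is

The programs are those of `OLang.lean`, with their logarithmic (bit) running time; they have
access to the matroids only through two independence oracles.
-/

namespace Vale.Agent.P317RAM

open Vale.Agent.P328RAM (Mem)

/-- `N(M₁, M₂)`: the number of common bases of two matroids. -/
noncomputable def numCommonBases {n : ℕ} (M₁ M₂ : Matroid (Fin n)) : ℕ :=
  {B : Set (Fin n) | M₁.IsBase B ∧ M₂.IsBase B}.ncard

/-- The set coded by an integer: the positions of the digits `1` in its binary expansion. -/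
def codedSet (n : ℕ) (x : ℤ) : Set (Fin n) := {e | x.toNat.testBit (e : ℕ) = true}

open Classical in
/-- The independence oracles: asked the question `x`, the oracle number `1` answers `1` if the
set coded by `x` is independent in `M₁` and `0` otherwise, and the oracle number `2` does the same
for `M₂`.  There are no other oracles. -/
noncomputable def oracles {n : ℕ} (M₁ M₂ : Matroid (Fin n)) : Oracle := fun k x =>
  if k = 1 then (if M₁.Indep (codedSet n x) then 1 else 0)
  else if k = 2 then (if M₂.Indep (codedSet n x) then 1 else 0)
  else 0

/-- The initial memory: the array `0` contains (in column `0`) the numbers `n`, `a`, `b`; all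
other cells are `0`. -/
def input (n a b : ℕ) : Mem := fun k i j =>
  if k = 0 ∧ j = 0 then if i = 0 then n else if i = 1 then a else if i = 2 then b else 0 else 0

/-- The output: a rational number, whose numerator and denominator are the cells `(0, 0)` and
`(1, 0)` of the array `3`. -/
noncomputable def output (M : Mem) : ℝ := (M 3 0 0 : ℝ) / (M 3 1 0 : ℝ)

/-- The program `prog` is a fully polynomial randomized approximation scheme for the number of
common bases of two matroids given by independence oracles: for some `k`, all matroids `M₁`, `M₂`
on `{0, …, n - 1}` and all accuracies `ε`, `δ` in `(0, 1)` (given to the program as the integers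
`⌈1/ε⌉`, `⌈1/δ⌉`), it always runs in time at most `k * (n + 1/ε + log (1/δ)) ^ k` (which also
bounds the number of oracle calls), and its output is, with probability at least `1 - δ`, within
the factors `1 ± ε` of the number of common bases.  (Neither is it required that the ranks are
equal, nor that all elements of `{0, …, n - 1}` belong to the ground sets of the matroids.) -/
def IsFPRAS (prog : OCmd) : Prop :=
  ∃ k : ℕ, ∀ (n : ℕ) (M₁ M₂ : Matroid (Fin n)) (ε δ : ℝ), 0 < ε → ε < 1 → 0 < δ → δ < 1 →
    (∀ s ∈ (prog.run (oracles M₁ M₂) (input n ⌈1 / ε⌉₊ ⌈1 / δ⌉₊, 0)).support,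
      (s.2 : ℝ) ≤ k * (n + 1 / ε + Real.log (1 / δ)) ^ k) ∧
    ENNReal.ofReal (1 - δ) ≤
      (prog.run (oracles M₁ M₂) (input n ⌈1 / ε⌉₊ ⌈1 / δ⌉₊, 0)).toOuterMeasure
        {s | (1 - ε) * numCommonBases M₁ M₂ ≤ output s.1 ∧
          output s.1 ≤ (1 + ε) * numCommonBases M₁ M₂}

end Vale.Agent.P317RAM
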