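import Vale.Agent.P317RAM.State

/-!
# The weight of a state
-/

namespace Vale.Agent.P317RAM

open Vale.Agent.P328RAM PMF
open Vale.Agent.P317R (St A1 A2 Perf Cls IsSt npair cl null Wt Inst Par Tb exq)

variable {W Λ n : ℕ}

/-- membership in a finite set of `Fin n`, for natural numbers -/
def memN (A : Finset (Fin n)) (e : ℕ) : Prop := ∃ h : e < n, (⟨e, h⟩ : Fin n) ∈ A

/-- the greedy rank -/
noncomputable def rkN (Ind : Finset ℕ → Prop) (A : Finset (Fin n)) : ℕ :=
  (gset Ind (memN A) n).card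

theorem gset_mem (Ind : Finset ℕ → Prop) (mem : ℕ → Prop) (t : ℕ) :
    ∀ e ∈ gset Ind mem t, mem e := by
  induction t with
  | zero => simp [gset]
  | succ t ih =>
    rw [gset]
    split_ifs with h
    · intro e he
      rw [Finset.mem_insert] at he
      rcases he with rfl | he
      · exact h.1
      · exact ih e he
    · exact ih

theorem rkN_le_card (Ind : Finset ℕ → Prop) (A : Finset (Fin n)) : rkN Ind A ≤ A.card := by
  classical
  unfold rkN
  have h : gset Ind (memN A) n ⊆ A.image (fun e : Fin n => (e : ℕ)) := by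
    intro e he
    obtain ⟨h1, h2⟩ := gset_mem _ _ _ e he
    exact Finset.mem_image.2 ⟨_, h2, rfl⟩
  exact (Finset.card_le_card h).trans Finset.card_image_le

theorem rkN_le (Ind : Finset ℕ → Prop) (A : Finset (Fin n)) : rkN Ind A ≤ n :=
  (rkN_le_card Ind A).trans ((Finset.card_le_univ _).trans (by simp))

/-- the oracle of the array `k` -/
def Orac (n k : ℕ) (Ind : Finset ℕ → Prop) (M : Mem) : Prop :=
  ∀ S ⊆ Finset.range n, M k 0 (code S) = 1 ∧ Ind S ∨ M k 0 (code S) = 0 ∧ ¬ Ind S

theorem Orac.congr {k : ℕ} {Ind : Finset ℕ → Prop} {M M' : Mem} (h : M' k = M k)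
    (ho : Orac n k Ind M) : Orac n k Ind M' := by
  unfold Orac
  rw [h]
  exact ho

/-- the instance consists of the greedy ranks of the two oracles -/
structure InstOK (I : Inst n) (I1 I2 : Finset ℕ → Prop) : Prop where
  /-- first rank function -/
  r1 : I.rk1 = rkN I1
  /-- second rank function -/
  r2 : I.rk2 = rkN I2
  /-- the rank bounds the second rank function -/
  rle : ∀ A : Finset (Fin n), rkN I2 A ≤ I.r
  /-- the rank is at most `n` -/
  rn : I.r ≤ n

/-- the part of the memory used by the computation of the corank -/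
structure Env0 (I : Inst n) (I1 I2 : Finset ℕ → Prop) (M : Mem) : Prop where
  n0 : M 0 0 0 = n
  pow2 : ∀ e : ℕ, e < n → M 4 e 0 = 2 ^ e
  or1 : Orac n 1 I1 M
  or2 : Orac n 2 I2 M
  r0 : M 10 0 0 = I.r

theorem Env0.same {I : Inst n} {I1 I2 : Finset ℕ → Prop} {M M' : Mem} (h : Env0 I I1 I2 M)
    {L : List ℕ} (hM : Same L M M') (hL : ∀ a ∈ [0, 1, 2, 4, 10], a ∉ L) : Env0 I I1 I2 M' := by
  simp only [List.mem_cons, List.not_mem_nil, or_false, forall_eq_or_imp, forall_eq] at hL
  obtain ⟨l0, l1, l2, l4, l10⟩ := hL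
  exact ⟨by rw [hM 0 l0]; exact h.n0, by rw [hM 4 l4]; exact h.pow2, h.or1.congr (hM 1 l1),
    h.or2.congr (hM 2 l2), by rw [hM 10 l10]; exact h.r0⟩

/-- `23 := corank`, for the table in the array `a`; uses `22` = size of the first set, `10 = r` -/
def nullC (a : ℕ) : Cmd :=
  .seq (rankC 1 11 20 13 (b0 a 13)) (.seq (rankC 2 11 21 13 (.sub (.lit 1) (b1 a 13)))
    (.setv 23 (.add (.sub (.v 22) (.v 20)) (.sub (.v 10) (.v 21)))))

/-- the arrays changed by `nullC` -/
def nullL : List ℕ := [11, 13, 20, 21, 23]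

theorem null_le {I : Inst n} {I1 I2 : Finset ℕ → Prop} (hI : InstOK I I1 I2) (B : St n) :
    null I B ≤ 2 * n := by
  have e5 : (A1 B).card ≤ n := (Finset.card_le_univ _).trans (by simp)
  have h6 : null I B ≤ (A1 B).card + I.r := Nat.add_le_add (Nat.sub_le _ _) (Nat.sub_le _ _)
  have := hI.rn
  omega

theorem nullC_det {M : Mem} {a : ℕ} {I : Inst n} {I1 I2 : Finset ℕ → Prop} (ha : a ∉ nullL)
    (hI : InstOK I I1 I2) (he : Env0 I I1 I2 M)
    (hz : Z01 n a M) (h22 : M 22 0 0 = ((A1 (obs n a M)).card : ℤ))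
    (hW : 2 ^ n + 2 * n ≤ W) (hΛ : n ≤ Λ) :
    Det W Λ (nullC a) M (fun M' => M' 23 0 0 = (null I (obs n a M) : ℤ) ∧
      Same nullL M M') := by
  simp only [nullL, List.mem_cons, List.not_mem_nil, or_false, not_or] at ha
  obtain ⟨ha11, ha13, ha20, ha21, ha23⟩ := ha
  obtain ⟨hn, hpow, h1, h2, hr⟩ := he
  set B := obs n a M with hB
  refine Det.seq (R := fun M' => M' 20 0 0 = (rkN I1 (A1 B) : ℤ) ∧ Same [11, 20, 13] M M') ?_ ?_
  · refine rankC_det (Ind := I1) (mem := memN (A1 B)) (n := n) (by decide) hn hpow h1 ?_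
      (by omega) hΛ
    intro M' hM' e he hi
    have hMa : M' a = M a := hM' a (by simp [ha11, ha13, ha20])
    have := hz.cell (⟨e, he⟩, false)
    simp only [row_false] at this
    simp only [Expr.val, hi, hMa, this, memN, A1]
    constructor
    · intro h
      refine ⟨he, ?_⟩
      by_contra hc
      simp only [Finset.mem_filter, Finset.mem_univ, true_and] at hc
      rw [if_neg hc] at h
      exact lt_irrefl _ h
    · rintro ⟨_, h⟩
      simp only [Finset.mem_filter, Finset.mem_univ, true_and] at h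
      rw [if_pos h]
      norm_num
  rintro M1 ⟨a1, a2⟩
  refine Det.seq (R := fun M' => M' 20 0 0 = (rkN I1 (A1 B) : ℤ) ∧
    M' 21 0 0 = (rkN I2 (A2 B) : ℤ) ∧ Same [11, 20, 21, 13] M M') ?_ ?_
  · refine (rankC_det (Ind := I2) (mem := memN (A2 B)) (n := n) (by decide)
      (by rw [a2 0 (by simp)]; exact hn) (fun e he => by rw [a2 4 (by simp)]; exact hpow e he)
      (h2.congr (a2 2 (by simp))) ?_ (by omega) hΛ).mono ?_
    · intro M' hM' e he hi
      have hMa : M' a = M a := by
        rw [hM' a (by simp [ha11, ha13, ha21]), a2 a (by simp [ha11, ha13, ha20])]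
      have := hz.cell (⟨e, he⟩, true)
      simp only [row_true] at this
      simp only [Expr.val, hi, hMa, this, memN, A2]
      constructor
      · intro h
        refine ⟨he, ?_⟩
        by_contra hc
        simp only [Finset.mem_filter, Finset.mem_univ, true_and, not_not] at hc
        rw [if_pos hc] at h
        norm_num at h
      · rintro ⟨_, h⟩
        simp only [Finset.mem_filter, Finset.mem_univ, true_and] at h
        rw [if_neg h]
        norm_num
    · rintro M' ⟨p1, p2⟩
      exact ⟨by rw [p2 20 (by simp)]; exact a1, p1, (a2.mono (by simp)).trans (p2.mono (by simp))⟩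
  rintro M2 ⟨b1', b2, b3⟩
  have hv : (Expr.add (.sub (.v 22) (.v 20)) (.sub (.v 10) (.v 21))).val M2 =
      (null I B : ℤ) := by
    have e1 : M2 22 0 0 = ((A1 B).card : ℤ) := by rw [b3 22 (by simp)]; exact h22
    have e2 : M2 10 0 0 = (I.r : ℤ) := by rw [b3 10 (by simp)]; exact hr
    simp only [Expr.val, e1, e2, b1', b2, null, hI.r1, hI.r2]
    have e3 := rkN_le_card I1 (A1 B)
    have e4 := hI.rle (A2 B)
    push_cast [Nat.cast_sub e3, Nat.cast_sub e4]
    ring
  refine Det.setv ?_ ?_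
  · rw [hv, abs_of_nonneg (by positivity)]
    have : null I B ≤ W := by
      have h6 := null_le hI B
      have h7 : 0 < 2 ^ n := by positivity
      omega
    exact_mod_cast this
  · rw [hv]
    exact ⟨by simp, (b3.mono (by simp [nullL])).write (by simp [nullL]) _ _ _⟩

/-- `32 := exponent, 34 := 1` for states, `32 := 0, 34 := 0` otherwise; uses the results of
`classC`; `18` is the level, `19 = E0`, array `7` the table of exponents -/
def expC : Cmd :=
  .ite (.add (.v 24) (.v 28))
    (.ite (.sub (.mul (.v 24) (.v 28)) (.lit 1))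
      (.seq (.setv 32 (.lit 0)) (.setv 34 (.lit 0)))
      (.ite (.mul (.v 24) (.v 28))
        (.seq (.setv 32 (.add (.v 19) (.get 7 (.v 18) (.add (.mul (.v 25) (.v 0)) (.v 26)))))
          (.setv 34 (.lit 1)))
        (.seq (.setv 32 (.lit 0)) (.setv 34 (.lit 0)))))
    (.seq (.setv 32 (.v 19)) (.setv 34 (.lit 1)))

/-- the exponent computed by `expC` -/
noncomputable def expN (E0 : ℤ) (t : Tb n) (B : St n) : ℤ :=
  if IsSt B then E0 + exq t (cl B) else 0

theorem expC_det {M : Mem} {B : St n} {k : ℕ} {E0 : ℤ} {t : Tb n} (hn : M 0 0 0 = n)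
    (hc : ClassOut B M) (hk : M 18 0 0 = k) (hE : M 19 0 0 = E0)
    (he : ∀ i j : Fin n, M 7 k (((i : ℕ) * n + (j : ℕ) : ℕ) : ℤ) = t (i, j))
    (hE0 : 0 ≤ E0) (hW1 : 1 ≤ W) (hEW : E0 ≤ W)
    (heW : ∀ ij, 0 ≤ E0 + t ij ∧ E0 + t ij ≤ W) :
    Det W Λ expC M (fun M' => M' 32 0 0 = expN E0 t B ∧
      M' 34 0 0 = (if IsSt B then 1 else 0) ∧ Same [32, 34] M M') := by
  obtain ⟨c1, c2, c3, c4, -⟩ := hc
  have hW1' : (1 : ℤ) ≤ W := by exact_mod_cast hW1
  have dead : ¬ IsSt B → Det W Λ (.seq (.setv 32 (.lit 0)) (.setv 34 (.lit 0))) M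
      (fun M' => M' 32 0 0 = expN E0 t B ∧
      M' 34 0 0 = (if IsSt B then 1 else 0) ∧ Same [32, 34] M M') := by
    intro h1
    refine Det.seq (R := fun M' => M' 32 0 0 = 0 ∧ Same [32, 34] M M')
      (Det.setv (by simp [Expr.val]) ⟨by simp [Expr.val], (Same.refl _ _).write (by simp) _ _ _⟩) ?_
    rintro M1 ⟨a1, a2⟩
    refine Det.setv (by simp [Expr.val]) ⟨?_, ?_, a2.write (by simp) _ _ _⟩
    · unfold expN
      rw [if_neg h1, Mem.write_arr _ (by norm_num)]; exact a1
    · rw [if_neg h1]; simp [Expr.val]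
  refine Det.ite (fun h1 => ?_) (fun h1 => ?_)
  · simp only [Expr.val, c1, c2] at h1
    have h1' : 0 < (dblS B).card + (empS B).card := by exact_mod_cast h1
    have g1 : ¬ ((dblS B).card = 0 ∧ (empS B).card = 0) := by rintro ⟨q1, q2⟩; omega
    refine Det.ite (fun h2 => ?_) (fun h2 => ?_)
    · simp only [Expr.val, c1, c2] at h2
      have h2' : 1 < (dblS B).card * (empS B).card := by
        have : (1 : ℤ) < (((dblS B).card * (empS B).card : ℕ) : ℤ) := by push_cast; linarith
        exact_mod_cast this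
      have g2 : ¬ ((dblS B).card = 1 ∧ (empS B).card = 1) := by
        rintro ⟨q1, q2⟩; rw [q1, q2] at h2'; omega
      exact dead (by rw [isSt_iff]; tauto)
    · simp only [Expr.val, c1, c2] at h2
      have h2' : (dblS B).card * (empS B).card ≤ 1 := by
        have : (((dblS B).card * (empS B).card : ℕ) : ℤ) ≤ 1 := by push_cast; linarith
        exact_mod_cast this
      refine Det.ite (fun h3 => ?_) (fun h3 => ?_)
      · simp only [Expr.val, c1, c2] at h3
        have h3' : 0 < (dblS B).card * (empS B).card := by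
          have : (0 : ℤ) < (((dblS B).card * (empS B).card : ℕ) : ℤ) := by push_cast; exact h3
          exact_mod_cast this
        have h4 : (dblS B).card * (empS B).card = 1 := by omega
        have g2 : (dblS B).card = 1 ∧ (empS B).card = 1 := by
          constructor
          · exact Nat.eq_one_of_mul_eq_one_right h4
          · exact Nat.eq_one_of_mul_eq_one_left h4
        obtain ⟨i, hi⟩ := Finset.card_eq_one.mp g2.1
        obtain ⟨j, hj⟩ := Finset.card_eq_one.mp g2.2
        have hcls : Cls (i, j) B := cls_iff.2 ⟨hi, hj⟩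
        have hst : IsSt B := Or.inr ⟨_, hcls⟩
        have hi' : ∑ i ∈ dblS B, (i : ℕ) = i := by rw [hi, Finset.sum_singleton]
        have hj' : ∑ i ∈ empS B, (i : ℕ) = j := by rw [hj, Finset.sum_singleton]
        have hexp : expN E0 t B = E0 + t (i, j) := by
          unfold expN
          rw [if_pos hst, cl_of_cls hcls]
          rfl
        have hv : (Expr.add (.v 19) (.get 7 (.v 18) (.add (.mul (.v 25) (.v 0)) (.v 26)))).val M =
            E0 + t (i, j) := by
          have : (Expr.add (.mul (.v 25) (.v 0)) (.v 26)).val M =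
              ((((i : ℕ) * n + (j : ℕ) : ℕ)) : ℤ) := by
            simp only [Expr.val, c3, c4, hn, hi', hj']
            push_cast; ring
          show (Expr.v 19).val M + M 7 ((Expr.v 18).val M)
            ((Expr.add (.mul (.v 25) (.v 0)) (.v 26)).val M) = _
          rw [this]
          simp only [Expr.val, hE, hk]
          rw [he i j]
        have hb := heW (i, j)
        refine Det.seq (R := fun M' => M' 32 0 0 = E0 + t (i, j) ∧ Same [32, 34] M M')
          (Det.setv ?_ ⟨?_, (Same.refl _ _).write (by simp) _ _ _⟩) ?_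
        · rw [hv, abs_of_nonneg hb.1]; exact hb.2
        · rw [hv]; simp
        rintro M1 ⟨a1, a2⟩
        refine Det.setv ?_ ⟨?_, ?_, a2.write (by simp) _ _ _⟩
        · simpa [Expr.val] using hW1'
        · rw [hexp, Mem.write_arr _ (by norm_num)]; exact a1
        · rw [if_pos hst]; simp [Expr.val]
      · simp only [Expr.val, c1, c2] at h3
        have h3' : (dblS B).card * (empS B).card = 0 := by
          have : (((dblS B).card * (empS B).card : ℕ) : ℤ) ≤ 0 := by push_cast; exact h3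
          have : (dblS B).card * (empS B).card ≤ 0 := by exact_mod_cast this
          omega
        have g2 : ¬ ((dblS B).card = 1 ∧ (empS B).card = 1) := by
          rintro ⟨q1, q2⟩; rw [q1, q2] at h3'; omega
        exact dead (by rw [isSt_iff]; tauto)
  · simp only [Expr.val, c1, c2] at h1
    have h1' : (dblS B).card + (empS B).card ≤ 0 := by exact_mod_cast h1
    have g1 : (dblS B).card = 0 ∧ (empS B).card = 0 := by omega
    have hst : IsSt B := isSt_iff.2 (Or.inl g1)
    have hexp : expN E0 t B = E0 := by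
      unfold expN
      rw [if_pos hst, cl_none (by omega)]
      simp [exq]
    refine Det.seq (R := fun M' => M' 32 0 0 = E0 ∧ Same [32, 34] M M')
      (Det.setv ?_ ⟨?_, (Same.refl _ _).write (by simp) _ _ _⟩) ?_
    · simp only [Expr.val, hE, abs_of_nonneg hE0]; exact hEW
    · simp [Expr.val, hE]
    rintro M1 ⟨a1, a2⟩
    refine Det.setv ?_ ⟨?_, ?_, a2.write (by simp) _ _ _⟩
    · simpa [Expr.val] using hW1'
    · rw [hexp, Mem.write_arr _ (by norm_num)]; exact a1
    · rw [if_pos hst]; simp [Expr.val]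

/-- the memory used by the computation of the weight, at the level `k` with the table `t` -/
structure Env (I : Inst n) (I1 I2 : Finset ℕ → Prop) (p : Par) (k : ℕ) (t : Tb n) (M : Mem) :
    Prop extends Env0 I I1 I2 M where
  lev : M 18 0 0 = k
  E0 : M 19 0 0 = p.E0
  pa : M 16 k 0 = (((4 * n - 1) ^ k : ℕ) : ℤ)
  pb : M 17 k 0 = (((4 * n) ^ k : ℕ) : ℤ)
  tab : ∀ i j : Fin n, M 7 k (((i : ℕ) * n + (j : ℕ) : ℕ) : ℤ) = t (i, j)

theorem Env.same {I : Inst n} {I1 I2 : Finset ℕ → Prop} {p : Par} {k : ℕ} {t : Tb n} {M M' : Mem}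
    (h : Env I I1 I2 p k t M) {L : List ℕ} (hM : Same L M M')
    (hL : ∀ a ∈ [0, 1, 2, 4, 7, 10, 16, 17, 18, 19], a ∉ L) : Env I I1 I2 p k t M' := by
  simp only [List.mem_cons, List.not_mem_nil, or_false, forall_eq_or_imp, forall_eq] at hL
  obtain ⟨l0, l1, l2, l4, l7, l10, l16, l17, l18, l19⟩ := hL
  refine ⟨h.toEnv0.same hM ?_, by rw [hM 18 l18]; exact h.lev, by rw [hM 19 l19]; exact h.E0,
    by rw [hM 16 l16]; exact h.pa, by rw [hM 17 l17]; exact h.pb, by rw [hM 7 l7]; exact h.tab⟩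
  simp [l0, l1, l2, l4, l10]

/-- the bounds needed by the computation of the weight: exponents at most `Em`, powers at
most `W` -/
structure Bnd (W Λ n : ℕ) (p : Par) (k : ℕ) (t : Tb n) (Em : ℕ) : Prop where
  n1 : 1 ≤ n
  nΛ : n ≤ Λ
  nn : n * (n + 1) ≤ W
  two : 2 ^ n + 2 * n ≤ W
  eE : p.E0 ≤ Em
  eT : ∀ ij, 0 ≤ (p.E0 : ℤ) + t ij ∧ (p.E0 : ℤ) + t ij ≤ Em
  eΛ : Em ≤ Λ
  nullΛ : 2 * n ≤ Λ
  big : (4 * n) ^ (3 * k * n) * 2 ^ Em ≤ W

/-- `27 := weight` of the table in the array `a` -/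
def weightC (a : ℕ) : Cmd :=
  .seq (classC a) (.seq (nullC a) (.seq expC
  (.seq (.fold 30 13 (.v 23) (.lit 1) (.mul (.v 30) (.get 16 (.v 18) (.lit 0))))
  (.seq (.fold 31 13 (.sub (.v 0) (.v 23)) (.lit 1) (.mul (.v 31) (.get 17 (.v 18) (.lit 0))))
  (.seq (.fold 33 13 (.v 32) (.lit 1) (.mul (.v 33) (.lit 2)))
  (.setv 27 (.mul (.v 34) (.mul (.v 30) (.mul (.v 31) (.v 33))))))))))

/-- the arrays changed by `weightC` -/
def wtL : List ℕ := [11, 13, 20, 21, 22, 23, 24, 25, 26, 27, 28, 30, 31, 32, 33, 34]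

theorem pow_le_big {n k c : ℕ} (hn : 1 ≤ n) (hc : c ≤ 3 * n) (x : ℕ) (hx : x ≤ 4 * n) :
    (x ^ k) ^ c ≤ (4 * n) ^ (3 * k * n) := by
  rw [← pow_mul]
  calc x ^ (k * c) ≤ (4 * n) ^ (k * c) := Nat.pow_le_pow_left hx _
    _ ≤ (4 * n) ^ (3 * k * n) := by
      refine Nat.pow_le_pow_right (by omega) ?_
      calc k * c ≤ k * (3 * n) := Nat.mul_le_mul_left _ hc
        _ = 3 * k * n := by ring

theorem wt_parts {n k c : ℕ} (hn : 1 ≤ n) (hc : c ≤ 2 * n) :
    (4 * n - 1) ^ (k * c) * (4 * n) ^ (k * (n - c)) ≤ (4 * n) ^ (3 * k * n) := by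
  calc (4 * n - 1) ^ (k * c) * (4 * n) ^ (k * (n - c))
      ≤ (4 * n) ^ (k * c) * (4 * n) ^ (k * (n - c)) :=
        Nat.mul_le_mul_right _ (Nat.pow_le_pow_left (Nat.sub_le _ _) _)
    _ = (4 * n) ^ (k * (c + (n - c))) := by rw [← pow_add]; ring_nf
    _ ≤ (4 * n) ^ (3 * k * n) := by
      refine Nat.pow_le_pow_right (by omega) ?_
      calc k * (c + (n - c)) ≤ k * (3 * n) := Nat.mul_le_mul_left _ (by omega)
        _ = 3 * k * n := by ring

theorem weightC_det {M : Mem} {a k : ℕ} {I : Inst n} {I1 I2 : Finset ℕ → Prop} {p : Par}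
    {t : Tb n} {Em : ℕ} (ha : a ∉ wtL) (hI : InstOK I I1 I2) (he : Env I I1 I2 p k t M)
    (hb : Bnd W Λ n p k t Em) (hz : Z01 n a M) :
    Det W Λ (weightC a) M (fun M' => M' 27 0 0 = (Wt I p k t (obs n a M) : ℤ) ∧
      Same wtL M M') := by
  have hbig1 : (4 * n) ^ (3 * k * n) ≤ W :=
    le_trans (Nat.le_mul_of_pos_right _ (by positivity)) hb.big
  have hpow1 : 1 ≤ (4 * n) ^ (3 * k * n) := Nat.one_le_pow _ _ (by have := hb.n1; omega)
  have h2E : 2 ^ Em ≤ W := le_trans (Nat.le_mul_of_pos_left _ (by omega)) hb.big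
  have hEmW : Em ≤ W := le_trans (Nat.lt_two_pow_self).le h2E
  have hW1 : 1 ≤ W := le_trans hpow1 hbig1
  simp only [wtL, List.mem_cons, List.not_mem_nil, or_false, not_or] at ha
  obtain ⟨h11, h13, h20, h21, h22, h23, h24, h25, h26, h27, h28, h30, h31, h32, h33, h34⟩ := ha
  set B := obs n a M with hB
  have hnle := null_le hI B
  have h2nW : 2 * n ≤ W := le_trans (Nat.le_add_left _ _) hb.two
  -- class
  refine Det.seq (R := fun M' => ClassOut B M' ∧ Same classL M M')
    (classC_det (by simp [classL, h13, h22, h24, h25, h26, h28]) he.n0 hz hb.nn hb.nΛ) ?_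
  rintro M1 ⟨a1, a2⟩
  have hMa1 : M1 a = M a := a2 a (by simp [classL, h13, h22, h24, h25, h26, h28])
  have hobs1 : obs n a M1 = B := obs_congr hMa1
  have hz1 : Z01 n a M1 := Z01_congr hMa1 hz
  have he1 := he.same a2 (by decide)
  -- null
  refine Det.seq (R := fun M' => ClassOut B M' ∧ M' 23 0 0 = (null I B : ℤ) ∧
    Same (classL ++ nullL) M M') ?_ ?_
  · have h22' : M1 22 0 0 = ((A1 (obs n a M1)).card : ℤ) := by rw [hobs1]; exact a1.2.2.2.2
    refine (nullC_det (by simp [nullL, h11, h13, h20, h21, h23]) hI he1.toEnv0 hz1 h22' hb.two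
      hb.nΛ).mono ?_
    rintro M' ⟨p1, p2⟩
    rw [hobs1] at p1
    refine ⟨?_, p1, (a2.mono (by decide)).trans (p2.mono (by decide))⟩
    obtain ⟨c1, c2, c3, c4, c5⟩ := a1
    exact ⟨by rw [p2 24 (by simp [nullL])]; exact c1, by rw [p2 28 (by simp [nullL])]; exact c2,
      by rw [p2 25 (by simp [nullL])]; exact c3, by rw [p2 26 (by simp [nullL])]; exact c4,
      by rw [p2 22 (by simp [nullL])]; exact c5⟩
  rintro M2 ⟨b1', b2, b3⟩
  have he2 := he.same b3 (by decide)
  -- exponent
  refine Det.seq (R := fun M' => M' 23 0 0 = (null I B : ℤ) ∧ M' 32 0 0 = expN p.E0 t B ∧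
      M' 34 0 0 = (if IsSt B then 1 else 0) ∧ Same (classL ++ nullL ++ [32, 34]) M M') ?_ ?_
  · refine (expC_det (t := t) (k := k) he2.n0 b1' he2.lev he2.E0 he2.tab (by positivity)
      hW1 (by exact_mod_cast hb.eE.trans hEmW) ?_).mono ?_
    · intro ij
      refine ⟨(hb.eT ij).1, (hb.eT ij).2.trans (by exact_mod_cast hEmW)⟩
    · rintro M' ⟨p1, p2, p3⟩
      exact ⟨by rw [p3 23 (by simp)]; exact b2, p1, p2, (b3.mono (by decide)).trans (p3.mono (by decide))⟩
  rintro M3 ⟨c1, c2, c3, c4⟩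
  have he3 := he.same c4 (by decide)
  have hexp0 : 0 ≤ expN p.E0 t B ∧ expN p.E0 t B ≤ Em := by
    unfold expN
    split_ifs
    · rcases h : cl B with _ | ij
      · simp only [exq, Option.elim]
        constructor
        · positivity
        · simpa using hb.eE
      · simp only [exq, Option.elim]
        exact hb.eT ij
    · constructor
      · exact le_rfl
      · positivity
  -- first power
  refine Det.seq (R := fun M' => M' 23 0 0 = (null I B : ℤ) ∧ M' 32 0 0 = expN p.E0 t B ∧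
      M' 34 0 0 = (if IsSt B then 1 else 0) ∧
      M' 30 0 0 = (((4 * n - 1) ^ (k * null I B) : ℕ) : ℤ) ∧
      Same (classL ++ nullL ++ [32, 34] ++ [30]) M M') ?_ ?_
  · refine (Det.pow (null I B) ((((4 * n - 1) ^ k : ℕ)) : ℤ) (by norm_num)
      (hnle.trans hb.nullΛ) (hnle.trans h2nW) ?_ ?_ ?_).mono ?_
    · intro j hj
      rw [abs_of_nonneg (by positivity)]
      exact_mod_cast (pow_le_big hb.n1 (by omega) _ (Nat.sub_le _ _)).trans hbig1
    · intro M' hM'
      have h1 : M' 23 = M3 23 := hM' 23 (by simp)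
      simp [Expr.val, h1, c1]
    · intro M' hM'
      have h1 : M' 18 = M3 18 := hM' 18 (by simp)
      have h2 : M' 16 = M3 16 := hM' 16 (by simp)
      simp only [Expr.val, h1, h2, he3.lev, he3.pa]
    · rintro M' ⟨p1, p2⟩
      refine ⟨by rw [p2 23 (by simp)]; exact c1, by rw [p2 32 (by simp)]; exact c2,
        by rw [p2 34 (by simp)]; exact c3, ?_, (c4.mono (by decide)).trans (p2.mono (by decide))⟩
      · rw [p1, pow_mul]; push_cast; rfl
  rintro M4 ⟨d1, d2, d3, d4, d5⟩
  have he4 := he.same d5 (by decide)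
  -- second power
  refine Det.seq (R := fun M' => M' 32 0 0 = expN p.E0 t B ∧
      M' 34 0 0 = (if IsSt B then 1 else 0) ∧
      M' 30 0 0 = (((4 * n - 1) ^ (k * null I B) : ℕ) : ℤ) ∧
      M' 31 0 0 = (((4 * n) ^ (k * (n - null I B)) : ℕ) : ℤ) ∧
      Same (classL ++ nullL ++ [32, 34] ++ [30, 31]) M M') ?_ ?_
  · refine (Det.pow (n - null I B) ((((4 * n) ^ k : ℕ)) : ℤ) (by norm_num)
      (le_trans (Nat.sub_le _ _) hb.nΛ) (by omega) ?_ ?_ ?_).mono ?_
    · intro j hj
      rw [abs_of_nonneg (by positivity)]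
      exact_mod_cast (pow_le_big hb.n1 (by omega) _ le_rfl).trans hbig1
    · intro M' hM'
      have h1 : M' 23 = M4 23 := hM' 23 (by simp)
      have h2 : M' 0 = M4 0 := hM' 0 (by simp)
      simp only [Expr.val, h1, h2, d1, he4.n0]
      omega
    · intro M' hM'
      have h1 : M' 18 = M4 18 := hM' 18 (by simp)
      have h2 : M' 17 = M4 17 := hM' 17 (by simp)
      simp only [Expr.val, h1, h2, he4.lev, he4.pb]
    · rintro M' ⟨p1, p2⟩
      refine ⟨by rw [p2 32 (by simp)]; exact d2,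
        by rw [p2 34 (by simp)]; exact d3, by rw [p2 30 (by simp)]; exact d4, ?_,
        (d5.mono (by decide)).trans (p2.mono (by decide))⟩
      · rw [p1, pow_mul]; push_cast; rfl
  rintro M5 ⟨e1, e2, e3, e4, e5⟩
  -- third power
  refine Det.seq (R := fun M' =>
      M' 34 0 0 = (if IsSt B then 1 else 0) ∧
      M' 30 0 0 = (((4 * n - 1) ^ (k * null I B) : ℕ) : ℤ) ∧
      M' 31 0 0 = (((4 * n) ^ (k * (n - null I B)) : ℕ) : ℤ) ∧
      M' 33 0 0 = ((2 ^ (expN p.E0 t B).toNat : ℕ) : ℤ) ∧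
      Same (classL ++ nullL ++ [32, 34] ++ [30, 31, 33]) M M') ?_ ?_
  · refine (Det.pow (expN p.E0 t B).toNat (2 : ℤ) (by norm_num)
      (by have := hb.eΛ; omega) (by omega) ?_ ?_ ?_).mono ?_
    · intro j hj
      rw [abs_of_nonneg (by positivity)]
      have h1 : (2 : ℕ) ^ j ≤ 2 ^ Em := Nat.pow_le_pow_right (by norm_num) (by omega)
      exact_mod_cast h1.trans h2E
    · intro M' hM'
      have h1 : M' 32 = M5 32 := hM' 32 (by simp)
      simp only [Expr.val, h1, e1]
    · intro M' _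
      rfl
    · rintro M' ⟨p1, p2⟩
      refine ⟨by rw [p2 34 (by simp)]; exact e2,
        by rw [p2 30 (by simp)]; exact e3, by rw [p2 31 (by simp)]; exact e4, ?_,
        (e5.mono (by decide)).trans (p2.mono (by decide))⟩
      · rw [p1]; push_cast; rfl
  rintro M6 ⟨f1, f2, f3, f4, f5⟩
  have hv : (Expr.mul (.v 34) (.mul (.v 30) (.mul (.v 31) (.v 33)))).val M6 =
      (Wt I p k t B : ℤ) := by
    simp only [Expr.val, f1, f2, f3, f4]
    unfold Wt
    by_cases hst : IsSt B
    · rw [if_pos hst, if_pos hst]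
      have : expN p.E0 t B = (p.E0 : ℤ) + exq t (cl B) := by unfold expN; rw [if_pos hst]
      rw [this]
      push_cast
      ring
    · rw [if_neg hst, if_neg hst]
      simp
  refine Det.setv ?_ ?_
  · rw [hv, abs_of_nonneg (by positivity)]
    have : Wt I p k t B ≤ W := by
      unfold Wt
      split_ifs with hst
      · refine le_trans ?_ hb.big
        refine Nat.mul_le_mul (wt_parts hb.n1 hnle) (Nat.pow_le_pow_right (by norm_num) ?_)
        have : expN p.E0 t B = (p.E0 : ℤ) + exq t (cl B) := by unfold expN; rw [if_pos hst]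
        rw [this] at hexp0
        omega
      · exact Nat.zero_le _
    exact_mod_cast this
  · rw [hv]
    exact ⟨by simp, (f5.mono (by decide)).write (by simp [wtL]) _ _ _⟩

end Vale.Agent.P317RAM
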